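import Vale.Agent.Lib.P328.PBinf.C3Core

/-!
# P328, PB^inf at c = 3: assembly

From the Stein formula and the inequality `3 τ - 2 Ghat ≥ X1 / 2` (a consequence of the covariance
bound) and the termwise inequality `c3_core`.
-/

namespace Vale.Agent.Lib.P328.PBinf

open Finset Polynomial

set_option linter.unusedSectionVars false

variable {T : Type*} [DecidableEq T] [Fintype T]

/-- The trials left after removing a trial and its partner. -/
def Yt (pt : T → T) (t : T) : Finset T := (univ.erase t).erase (pt t)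

theorem AA_eq_law (p : T → ℝ) (t : T) : AA p t = law p (univ.erase t) := rfl

theorem GG_eq_law (p : T → ℝ) : GG p = law p univ := rfl

theorem AA_eq_mul (p : T → ℝ) (pt : T → T) (hne : ∀ t, pt t ≠ t) (hp : ∀ t, p (pt t) = p t) (t : T) :
    AA p t = uu (p t) * law p (Yt pt t) := by
  rw [AA_eq_law, law_erase p (s := pt t) (Finset.mem_erase.mpr ⟨hne t, Finset.mem_univ _⟩), hp]
  rfl

theorem sum_Yt (p : T → ℝ) (pt : T → T) (hne : ∀ t, pt t ≠ t) (hp : ∀ t, p (pt t) = p t) (t : T) :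
    ∑ s ∈ Yt pt t, p s = ∑ s, p s - 2 * p t := by
  have h1 : ∑ s, p s = p t + ∑ s ∈ univ.erase t, p s := (Finset.add_sum_erase _ _ (mem_univ t)).symm
  have hm : pt t ∈ (univ : Finset T).erase t := Finset.mem_erase.mpr ⟨hne t, Finset.mem_univ _⟩
  have h2 : ∑ s ∈ univ.erase t, p s = p (pt t) + ∑ s ∈ Yt pt t, p s :=
    (Finset.add_sum_erase _ _ hm).symm
  rw [hp] at h2
  linarith

theorem partner_Yt (p : T → ℝ) (pt : T → T) (hne : ∀ t, pt t ≠ t) (hp : ∀ t, p (pt t) = p t) (t : T) :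
    ∀ s ∈ Yt pt t, p s = p t ∨ ∃ s' ∈ Yt pt t, s' ≠ s ∧ p s' = p s := by
  intro s _
  by_cases h : pt s ∈ Yt pt t
  · exact Or.inr ⟨pt s, h, hne s, hp s⟩
  · left
    unfold Yt at h
    simp only [Finset.mem_erase, Finset.mem_univ, and_true, not_and_or, not_not] at h
    rcases h with h | h
    · rw [← hp s, h, hp t]
    · rw [← hp s, h]

/-- The shifted increments of the Stein solution at `c = 3`, in terms of the point mass. -/
theorem xi3_values :
    3 * (xi 3 2 - xi 3 1) = - (pi 3 / 3) ∧ 3 * (xi 3 3 - xi 3 2) = - (5 * pi 3 / 9)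
      ∧ 3 * (xi 3 4 - xi 3 3) = 1 - pi 3
      ∧ 3 * (xi 3 5 - xi 3 4) = - (53 * pi 3 / 27 - 1 / 3) := by
  have h3 : (0 : ℕ) < 3 := by norm_num
  have e0 := xi_eqn h3 0
  have e1 := xi_eqn h3 1
  have e2 := xi_eqn h3 2
  have e3 := xi_eqn h3 3
  have e4 := xi_eqn h3 4
  norm_num at e0 e1 e2 e3 e4
  refine ⟨by linarith, by linarith, by linarith, by linarith⟩

theorem pi3_lower : (0.22404 : ℝ) ≤ pi 3 := by
  have h1 : pi 3 = Real.exp (-3) * 27 / 6 := by
    unfold pi qq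
    norm_num [Nat.factorial]
  rw [h1]
  have h2 : Real.exp (-3) * Real.exp 3 = 1 := by
    rw [← Real.exp_add]
    simp
  have h3 : Real.exp 3 = Real.exp 1 ^ 3 := by
    rw [← Real.exp_nat_mul]
    norm_num
  have h4 := Real.exp_one_lt_d9
  have h5 : Real.exp 3 < 20.0856 := by
    rw [h3]
    have h6 := Real.exp_pos 1
    have : Real.exp 1 ^ 3 < 2.7182818286 ^ 3 := by gcongr
    norm_num at this ⊢
    linarith
  have hpos := Real.exp_pos (-3)
  have h7 : 1 / 20.0856 ≤ Real.exp (-3) := by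
    rw [div_le_iff₀ (by norm_num)]
    nlinarith
  norm_num at h7 ⊢
  linarith

theorem pi3_le_one : pi 3 ≤ 1 := by
  have h1 : pi 3 = Real.exp (-3) * 27 / 6 := by
    unfold pi qq
    norm_num [Nat.factorial]
  rw [h1]
  have h2 : Real.exp (-3) * Real.exp 3 = 1 := by
    rw [← Real.exp_add]
    simp
  have h3 : Real.exp 3 = Real.exp 1 ^ 3 := by
    rw [← Real.exp_nat_mul]
    norm_num
  have h4 := Real.exp_one_gt_d9
  have h5 : (19 : ℝ) < Real.exp 3 := by
    rw [h3]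
    have : (2.7182818283 : ℝ) ^ 3 < Real.exp 1 ^ 3 := by gcongr
    norm_num at this ⊢
    linarith
  have hpos := Real.exp_pos (-3)
  nlinarith

/-- The upper bound of the functional of the Stein increments by the terms `k ≤ 3`. -/
theorem Lam_le_four {g : ℕ → ℝ} {P : ℝ[X]} (hP : ∀ k, 0 ≤ P.coeff k) (hg : ∀ k, 3 < k → g k ≤ 0) :
    Lam g P ≤ ∑ k ∈ range 4, g k * P.coeff k := by
  rw [Lam_apply]
  have h1 : ∑ k ∈ P.support, g k * P.coeff k
      ≤ ∑ k ∈ P.support ∪ range 4, g k * P.coeff k - ∑ k ∈ (range 4) \ P.support, g k * P.coeff k := by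
    have h2 := Finset.sum_sdiff (s₁ := P.support) (s₂ := P.support ∪ range 4)
      (f := fun k => g k * P.coeff k) Finset.subset_union_left
    have h3 : (P.support ∪ range 4) \ P.support = range 4 \ P.support := by
      ext k
      simp only [Finset.mem_sdiff, Finset.mem_union]
      tauto
    rw [h3] at h2
    linarith
  have h4 : ∑ k ∈ P.support ∪ range 4, g k * P.coeff k ≤ ∑ k ∈ range 4, g k * P.coeff k := by
    have h5 := Finset.sum_sdiff (s₁ := range 4) (s₂ := P.support ∪ range 4)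
      (f := fun k => g k * P.coeff k) Finset.subset_union_right
    have h6 : ∑ k ∈ (P.support ∪ range 4) \ range 4, g k * P.coeff k ≤ 0 := by
      refine Finset.sum_nonpos fun k hk => ?_
      have hk' : 3 < k := by
        simp only [Finset.mem_sdiff, Finset.mem_range, not_lt] at hk
        omega
      exact mul_nonpos_of_nonpos_of_nonneg (hg k hk') (hP k)
    linarith
  have h7 : ∑ k ∈ (range 4) \ P.support, g k * P.coeff k = 0 := by
    refine Finset.sum_eq_zero fun k hk => ?_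
    have : P.coeff k = 0 := by
      have := (Finset.mem_sdiff.mp hk).2
      simpa using this
    rw [this, mul_zero]
  linarith

/-- **PB^inf at `c = 3`, given the covariance input.** -/
theorem c3_final (p : T → ℝ) (h0 : ∀ a, 0 < p a) (h1 : ∀ a, p a < 1) (pt : T → T)
    (hne : ∀ t, pt t ≠ t) (hp : ∀ t, p (pt t) = p t) (hmean : ∑ t, p t = 3)
    (hX : (1 / 2) * ∑ t, p t ^ 3 * (law p (Yt pt t)).coeff 1
      ≤ 3 * ∑ t, p t ^ 2 * (law p (Yt pt t)).coeff 1 - 2 * ∑ t, p t ^ 2 * (AA p t).coeff 2) :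
    3 * (GG p).coeff 3 - ∑ t, p t ^ 2 * (law p (Yt pt t)).coeff 1 ≤ 3 * pi 3 := by
  have h3 : (0 : ℕ) < 3 := by norm_num
  set e := pi 3 with he
  have he1 : (0.22404 : ℝ) ≤ e := pi3_lower
  obtain ⟨x1, x2, x3, x4⟩ := xi3_values
  have hstein := stein_exact p h3 (by rw [hmean]; norm_num)
  have h0le : ∀ a, 0 ≤ p a := fun a => (h0 a).le
  have h1le : ∀ a, p a ≤ 1 := fun a => (h1 a).le
  -- the termwise bound for each trial
  have hterm : ∀ t, 3 * Lam (fun k => xi 3 (k + 2) - xi 3 (k + 1)) (AA p t)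
      ≤ (1 - e) * (AA p t).coeff 2
        - (e / 3 * (AA p t).coeff 0 + 5 * e / 9 * (AA p t).coeff 1
          + (53 * e / 27 - 1 / 3) * (AA p t).coeff 3) := by
    intro t
    have h5 := Lam_le_four (g := fun k => xi 3 (k + 2) - xi 3 (k + 1)) (P := AA p t)
      (AA_coeff_nonneg p h0le h1le t) (fun k hk => xi_incr_nonpos h3 (by omega))
    simp only [Finset.sum_range_succ, Finset.sum_range_zero, zero_add] at h5
    norm_num at h5
    have h6 : 3 * ((xi 3 2 - xi 3 1) * (AA p t).coeff 0 + (xi 3 3 - xi 3 2) * (AA p t).coeff 1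
        + (xi 3 4 - xi 3 3) * (AA p t).coeff 2 + (xi 3 5 - xi 3 4) * (AA p t).coeff 3)
        = (1 - e) * (AA p t).coeff 2
        - (e / 3 * (AA p t).coeff 0 + 5 * e / 9 * (AA p t).coeff 1
          + (53 * e / 27 - 1 / 3) * (AA p t).coeff 3) := by
      have e1 : (xi 3 2 - xi 3 1) = - (e / 3) / 3 := by linarith
      have e2 : (xi 3 3 - xi 3 2) = - (5 * e / 9) / 3 := by linarith
      have e3 : (xi 3 4 - xi 3 3) = (1 - e) / 3 := by linarith
      have e4 : (xi 3 5 - xi 3 4) = - (53 * e / 27 - 1 / 3) / 3 := by linarith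
      rw [e1, e2, e3, e4]
      ring
    linarith
  -- the decomposition of `AA`
  have hA : ∀ t, ∃ E0 E1 E2 E3 : ℝ, (law p (Yt pt t)).coeff 0 = E0 ∧ (law p (Yt pt t)).coeff 1 = E1
      ∧ (law p (Yt pt t)).coeff 2 = E2 ∧ (law p (Yt pt t)).coeff 3 = E3
      ∧ (AA p t).coeff 0 = (1 - p t) * E0 ∧ (AA p t).coeff 1 = (1 - p t) * E1 + p t * E0
      ∧ (AA p t).coeff 2 = (1 - p t) * E2 + p t * E1 ∧ (AA p t).coeff 3 = (1 - p t) * E3 + p t * E2 := by
    intro t
    refine ⟨_, _, _, _, rfl, rfl, rfl, rfl, ?_, ?_, ?_, ?_⟩ <;> rw [AA_eq_mul p pt hne hp t]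
    · exact coeff_uu_mul_zero _ _
    · exact coeff_uu_mul_succ _ _ 0
    · exact coeff_uu_mul_succ _ _ 1
    · exact coeff_uu_mul_succ _ _ 2
  have hW : ∀ t, 0 ≤ p t ^ 2 * (((1 - e) * p t / 2 + (3 * e - 1) + 10 * e / 9 * (1 - p t))
        * (law p (Yt pt t)).coeff 1
      + (2 * e / 3 * (1 - p t) + 10 * e / 9 * p t) * (law p (Yt pt t)).coeff 0
      + 2 * (53 * e / 27 - 1 / 3) * ((1 - p t) * (law p (Yt pt t)).coeff 3
        + p t * (law p (Yt pt t)).coeff 2)) := by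
    intro t
    refine mul_nonneg (by positivity) ?_
    refine c3_core p (Yt pt t) (p t) e (h0 t) (h1 t) (fun a _ => h0 a) (fun a _ => h1 a) ?_
      (partner_Yt p pt hne hp t) he1
    rw [sum_Yt p pt hne hp t, hmean]
  -- summing up
  have hsum := Finset.sum_nonneg fun t (_ : t ∈ (univ : Finset T)) => hW t
  have hT : ∑ t, p t ^ 2 * (3 * Lam (fun k => xi 3 (k + 2) - xi 3 (k + 1)) (AA p t))
      ≤ ∑ t, p t ^ 2 * ((1 - e) * (AA p t).coeff 2
        - (e / 3 * (AA p t).coeff 0 + 5 * e / 9 * (AA p t).coeff 1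
          + (53 * e / 27 - 1 / 3) * (AA p t).coeff 3)) :=
    Finset.sum_le_sum fun t _ => mul_le_mul_of_nonneg_left (hterm t) (by positivity)
  have hmain : 3 * ((GG p).coeff 3 - e)
      = ∑ t, p t ^ 2 * (3 * Lam (fun k => xi 3 (k + 2) - xi 3 (k + 1)) (AA p t)) := by
    rw [hstein, Finset.mul_sum]
    exact Finset.sum_congr rfl fun t _ => by ring
  -- the algebra of the final combination, trial by trial
  have halg : ∑ t, p t ^ 2 * (((1 - e) * p t / 2 + (3 * e - 1) + 10 * e / 9 * (1 - p t))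
        * (law p (Yt pt t)).coeff 1
      + (2 * e / 3 * (1 - p t) + 10 * e / 9 * p t) * (law p (Yt pt t)).coeff 0
      + 2 * (53 * e / 27 - 1 / 3) * ((1 - p t) * (law p (Yt pt t)).coeff 3
        + p t * (law p (Yt pt t)).coeff 2))
      = (1 - e) * (1 / 2 * ∑ t, p t ^ 3 * (law p (Yt pt t)).coeff 1)
        + (3 * e - 1) * ∑ t, p t ^ 2 * (law p (Yt pt t)).coeff 1
        + 2 * ∑ t, p t ^ 2 * (e / 3 * (AA p t).coeff 0 + 5 * e / 9 * (AA p t).coeff 1
          + (53 * e / 27 - 1 / 3) * (AA p t).coeff 3) := by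
    simp only [Finset.mul_sum, ← Finset.sum_add_distrib]
    refine Finset.sum_congr rfl fun t _ => ?_
    obtain ⟨E0, E1, E2, E3, e0, e1, e2, e3, a0, a1, a2, a3⟩ := hA t
    rw [e0, e1, e2, e3, a0, a1, a3]
    ring
  have hsplit : ∑ t, p t ^ 2 * ((1 - e) * (AA p t).coeff 2
        - (e / 3 * (AA p t).coeff 0 + 5 * e / 9 * (AA p t).coeff 1
          + (53 * e / 27 - 1 / 3) * (AA p t).coeff 3))
      = (1 - e) * ∑ t, p t ^ 2 * (AA p t).coeff 2
        - ∑ t, p t ^ 2 * (e / 3 * (AA p t).coeff 0 + 5 * e / 9 * (AA p t).coeff 1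
          + (53 * e / 27 - 1 / 3) * (AA p t).coeff 3) := by
    rw [Finset.mul_sum, ← Finset.sum_sub_distrib]
    exact Finset.sum_congr rfl fun t _ => by ring
  rw [hsplit, ← hmain] at hT
  rw [halg] at hsum
  set τ := ∑ t, p t ^ 2 * (law p (Yt pt t)).coeff 1
  set X1 := ∑ t, p t ^ 3 * (law p (Yt pt t)).coeff 1
  set G2 := ∑ t, p t ^ 2 * (AA p t).coeff 2
  set R := ∑ t, p t ^ 2 * (e / 3 * (AA p t).coeff 0 + 5 * e / 9 * (AA p t).coeff 1
          + (53 * e / 27 - 1 / 3) * (AA p t).coeff 3)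
  have hq : 0 ≤ 1 - e := by
    have h8 : e ≤ 1 := pi3_le_one
    linarith
  have hXq := mul_le_mul_of_nonneg_left hX hq
  -- `2 * (3 g - 3 e) ≤ 2 (1 - e) G2 - 2 R`, `(1 - e) (3 τ - 2 G2) ≥ (1 - e) X1 / 2`, `(1 - e) X1 / 2 + (3e - 1) τ + 2 R ≥ 0`
  nlinarith

end Vale.Agent.Lib.P328.PBinf
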