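import Vale.Agent.Lib.P328.PBinf.Bridge
import Vale.Agent.Lib.P328.PBinfCov.Adapter

/-!
# P328, PB^inf: the column inequality at every level

`CapS.PBL c` for every `c ≥ 2`: for rows `R i ≠ 1` and probabilities `0 < p i < 1` with mean `c`,
`∑ x ∈ lev R c, Ypp R x * wt R p x ≤ c * exp (-c) * c ^ c / c !`.
-/

namespace Vale.Agent.Lib.P328.PBinf

open Finset Polynomial

/-- **PB^inf for `c ≥ 3`.** -/
theorem PBL_ge_three {c : ℕ} (hc : 3 ≤ c) : CapS.PBL c := by
  intro m R p hR h0 h1 hmean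
  obtain ⟨d, rfl⟩ : ∃ d, c = d + 2 := ⟨c - 2, by omega⟩
  have hne := ptS_ne R hR
  have hp := pS_ptS R p
  rw [PBL_lhs_eq R p hR h1 (ptS R) hne hp d]
  have hX : (1 / 2) * ∑ t, pS R p t ^ 3 * (law (pS R p) (Yt (ptS R) t)).coeff d
      ≤ ((d + 2 : ℕ) : ℝ) * ∑ t, pS R p t ^ 2 * (law (pS R p) (Yt (ptS R) t)).coeff d
        - ((d : ℝ) + 1) * ∑ t, pS R p t ^ 2 * (AA (pS R p) t).coeff (d + 1) :=
    PBinfCov.hX_trial (fun i => (h0 i).le) (fun i => (h1 i).le) R hR d hmean (ptS R)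
      (fun _ => rfl) hne
  have hm : ∑ t, pS R p t = ((d + 2 : ℕ) : ℝ) := by
    rw [mean_pS, hmean]
  unfold CapS.kappa
  rw [piC_eq_pi]
  by_cases hd : d = 1
  · subst hd
    have h := c3_final (pS R p) (fun a => h0 a.1) (fun a => h1 a.1) (ptS R) hne hp
      (by rw [hm]; norm_num) (by
        have := hX
        norm_num at this ⊢
        linarith)
    norm_num at h ⊢
    linarith
  · exact cge4_final (pS R p) (fun a => h0 a.1) (fun a => h1 a.1) (ptS R) hne hp d (by omega) hm hX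

/-- **PB^inf for every `c ≥ 2`.** -/
theorem PBL_all {c : ℕ} (hc : 2 ≤ c) : CapS.PBL c := by
  rcases Nat.lt_or_ge c 3 with h | h
  · have : c = 2 := by omega
    subst this
    exact PBL_two
  · exact PBL_ge_three h

/-- What the main theorem needs of a column of sum `c ≥ 2`. -/
theorem LevelOK_all {c : ℕ} (hc : 2 ≤ c) : CapS.LevelOK c := by
  refine ⟨PBL_all hc, ?_⟩
  rcases Nat.lt_or_ge c 3 with h | h
  · left
    omega
  · right
    exact PBL_all (by omega)

end Vale.Agent.Lib.P328.PBinf
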