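import Vale.Agent.Lib.P328.PBinf.Law

/-!
# P328, PB^inf at c = 3: the termwise inequality

For the law `E` of the trials left after removing one trial of probability `ρ` and a partner, whose
mean is `3 - 2 ρ`, a positive combination of `E 0, E 1, E 2, E 3` is nonnegative.
-/

namespace Vale.Agent.Lib.P328.PBinf

open Finset Polynomial

set_option linter.unusedSectionVars false

variable {A : Type*} [DecidableEq A]

/-- The odds of a trial. -/
noncomputable def odds (p : A → ℝ) (a : A) : ℝ := p a / (1 - p a)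

theorem law_coeff_zero (p : A → ℝ) (S : Finset A) :
    (law p S).coeff 0 = ∏ s ∈ S, (1 - p s) := by
  induction S using Finset.induction_on with
  | empty => simp [law_empty]
  | insert a S ha ih =>
    rw [law_insert p ha, coeff_uu_mul_zero, ih, Finset.prod_insert ha]

theorem law_coeff_one (p : A → ℝ) (S : Finset A) (h1 : ∀ a ∈ S, p a < 1) :
    (law p S).coeff 1 = (law p S).coeff 0 * ∑ s ∈ S, odds p s := by
  induction S using Finset.induction_on with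
  | empty => simp [law_empty, coeff_one]
  | insert a S ha ih =>
    have h1' : ∀ b ∈ S, p b < 1 := fun b hb => h1 b (Finset.mem_insert_of_mem hb)
    have ha1 := h1 a (Finset.mem_insert_self a S)
    have hq : 1 - p a ≠ 0 := by linarith
    rw [law_insert p ha, coeff_uu_mul_zero, coeff_uu_mul_succ, ih h1', Finset.sum_insert ha]
    unfold odds
    field_simp
    ring

theorem law_coeff_two (p : A → ℝ) (S : Finset A) (h1 : ∀ a ∈ S, p a < 1) :
    2 * (law p S).coeff 2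
      = (law p S).coeff 0 * ((∑ s ∈ S, odds p s) ^ 2 - ∑ s ∈ S, odds p s ^ 2) := by
  induction S using Finset.induction_on with
  | empty => simp [law_empty, coeff_one]
  | insert a S ha ih =>
    have h1' : ∀ b ∈ S, p b < 1 := fun b hb => h1 b (Finset.mem_insert_of_mem hb)
    have ha1 := h1 a (Finset.mem_insert_self a S)
    have hq : 1 - p a ≠ 0 := by linarith
    rw [law_insert p ha, coeff_uu_mul_zero, coeff_uu_mul_succ, Finset.sum_insert ha,
      Finset.sum_insert ha]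
    have h2 := ih h1'
    have h3 := law_coeff_one p S h1'
    rw [mul_add, mul_left_comm, h2, h3]
    unfold odds
    field_simp
    ring

/-- The partner bound: the largest odds is at most half the sum of odds or the odds of `ρ`. -/
theorem odds_sq_sum_le (p : A → ℝ) (Y : Finset A) (ρ : ℝ) (h0 : ∀ a ∈ Y, 0 < p a)
    (h1 : ∀ a ∈ Y, p a < 1)
    (hpart : ∀ s ∈ Y, p s = ρ ∨ ∃ s' ∈ Y, s' ≠ s ∧ p s' = p s) :
    ∑ s ∈ Y, odds p s ^ 2
      ≤ max ((∑ s ∈ Y, odds p s) / 2) (ρ / (1 - ρ)) * ∑ s ∈ Y, odds p s := by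
  have hnn : ∀ s ∈ Y, 0 ≤ odds p s := fun s hs =>
    div_nonneg (h0 s hs).le (by have := h1 s hs; linarith)
  rw [Finset.mul_sum]
  refine Finset.sum_le_sum fun s hs => ?_
  rw [sq]
  refine mul_le_mul_of_nonneg_right ?_ (hnn s hs)
  rcases hpart s hs with h | ⟨s', hs', hne, heq⟩
  · apply le_max_of_le_right
    unfold odds
    rw [h]
  · apply le_max_of_le_left
    have hsum : odds p s + odds p s' ≤ ∑ t ∈ Y, odds p t := by
      have h2 : ∑ t ∈ ({s, s'} : Finset A), odds p t ≤ ∑ t ∈ Y, odds p t := by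
        apply Finset.sum_le_sum_of_subset_of_nonneg
        · intro t ht
          simp only [Finset.mem_insert, Finset.mem_singleton] at ht
          rcases ht with rfl | rfl <;> assumption
        · intro t ht _
          exact hnn t ht
      rwa [Finset.sum_pair hne.symm] at h2
    have h3 : odds p s' = odds p s := by
      unfold odds
      rw [heq]
    rw [h3] at hsum
    linarith

/-- The coefficient of `E 1`, from below. -/
theorem c3_coef_lower {e ρ : ℝ} (hρ0 : 0 ≤ ρ) (hρ1 : ρ ≤ 1) (he1 : 0.22404 ≤ e) :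
    -0.07895 + 0.13905 * ρ ≤ (1 - e) * ρ / 2 + (3 * e - 1) + 10 * e / 9 * (1 - ρ) := by
  have h : 0 ≤ (e - 0.22404) * (37 / 9 - 29 / 18 * ρ) :=
    mul_nonneg (by linarith) (by linarith)
  nlinarith

/-- The coefficient of `E 0`, from below. -/
theorem c3_A0_lower {e ρ : ℝ} (hρ0 : 0 ≤ ρ) (he1 : 0.22404 ≤ e) :
    0.14936 + 0.09957 * ρ ≤ 2 * e / 3 * (1 - ρ) + 10 * e / 9 * ρ := by
  have h : 0 ≤ (e - 0.22404) * (2 / 3 + 4 / 9 * ρ) :=
    mul_nonneg (by linarith) (by positivity)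
  nlinarith

theorem c3_case_big {e ρ E0 E1 E2 E3 : ℝ} (hρ : 0.5679 ≤ ρ) (hρ1 : ρ < 1) (he1 : 0.22404 ≤ e)
    (h0 : 0 ≤ E0) (h1 : 0 ≤ E1) (h2 : 0 ≤ E2) (h3 : 0 ≤ E3) :
    0 ≤ ((1 - e) * ρ / 2 + (3 * e - 1) + 10 * e / 9 * (1 - ρ)) * E1
      + (2 * e / 3 * (1 - ρ) + 10 * e / 9 * ρ) * E0
      + 2 * (53 * e / 27 - 1 / 3) * ((1 - ρ) * E3 + ρ * E2) := by
  have hc := c3_coef_lower (e := e) (ρ := ρ) (by linarith) hρ1.le he1
  have hA := c3_A0_lower (e := e) (ρ := ρ) (by linarith) he1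
  have t1 : 0 ≤ ((1 - e) * ρ / 2 + (3 * e - 1) + 10 * e / 9 * (1 - ρ)) * E1 :=
    mul_nonneg (by linarith) h1
  have t2 : 0 ≤ (2 * e / 3 * (1 - ρ) + 10 * e / 9 * ρ) * E0 := mul_nonneg (by linarith) h0
  have t3 : 0 ≤ 2 * (53 * e / 27 - 1 / 3) * ((1 - ρ) * E3 + ρ * E2) :=
    mul_nonneg (by linarith)
      (add_nonneg (mul_nonneg (by linarith) h3) (mul_nonneg (by linarith) h2))
  linarith

theorem c3_case_small {e ρ E0 E1 E2 E3 : ℝ} (hρ0 : 0 < ρ) (hρ : ρ < 0.16) (he1 : 0.22404 ≤ e)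
    (h0 : 0 ≤ E0) (h1 : 0 ≤ E1) (h2 : 0 ≤ E2) (h3 : 0 ≤ E3) (hdar : E1 ≤ E2)
    (htail : (1 - 2 * ρ) * E2 ≤ (2 - 2 * ρ) * E3) :
    0 ≤ ((1 - e) * ρ / 2 + (3 * e - 1) + 10 * e / 9 * (1 - ρ)) * E1
      + (2 * e / 3 * (1 - ρ) + 10 * e / 9 * ρ) * E0
      + 2 * (53 * e / 27 - 1 / 3) * ((1 - ρ) * E3 + ρ * E2) := by
  have hc := c3_coef_lower (e := e) (ρ := ρ) hρ0.le (by linarith) he1
  have hA := c3_A0_lower (e := e) (ρ := ρ) hρ0.le he1
  have hq : 0 < 1 - ρ := by linarith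
  have hE3E2 : 0.4047 * E2 ≤ E3 := by
    have hpos : 0 < 2 - 2 * ρ := by linarith
    have h4 : (2 - 2 * ρ) * (0.4047 * E2) ≤ (2 - 2 * ρ) * E3 := by
      refine le_trans ?_ htail
      have h5 : (2 - 2 * ρ) * 0.4047 ≤ 1 - 2 * ρ := by linarith
      have := mul_le_mul_of_nonneg_right h5 h2
      linarith
    exact le_of_mul_le_mul_left h4 hpos
  have hE3E1 : 0.4047 * E1 ≤ E3 := by linarith
  have h2d : (0.21288 : ℝ) ≤ 2 * (53 * e / 27 - 1 / 3) := by linarith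
  have t1 := mul_le_mul_of_nonneg_right hc h1
  have t2 : 0 ≤ (2 * e / 3 * (1 - ρ) + 10 * e / 9 * ρ) * E0 := mul_nonneg (by linarith) h0
  have t3 : 0.21288 * ((1 - ρ) * E3 + ρ * E2)
      ≤ 2 * (53 * e / 27 - 1 / 3) * ((1 - ρ) * E3 + ρ * E2) :=
    mul_le_mul_of_nonneg_right h2d
      (add_nonneg (mul_nonneg hq.le h3) (mul_nonneg hρ0.le h2))
  have t4 : (1 - ρ) * (0.4047 * E1) ≤ (1 - ρ) * E3 := mul_le_mul_of_nonneg_left hE3E1 hq.le
  have t5 : 0 ≤ ρ * E2 := mul_nonneg hρ0.le h2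
  have t6 : 0 ≤ ρ * E1 := mul_nonneg hρ0.le h1
  have t7 : 0 ≤ E1 := h1
  -- `(-0.07895 + 0.13905 ρ) + 0.21288 * 0.4047 * (1 - ρ) ≥ 0`
  nlinarith

theorem c3_case_mid {e ρ α E0 E2 E3 : ℝ} (hρ : 0.16 ≤ ρ) (hρ1 : ρ < 1) (he1 : 0.22404 ≤ e)
    (hα : 0 ≤ α) (h0 : 0 ≤ E0) (h2 : 0 ≤ E2) (h3 : 0 ≤ E3)
    (hE2 : 2.6 < α → 0.2472 * (E0 * α ^ 2) ≤ E2) :
    0 ≤ ((1 - e) * ρ / 2 + (3 * e - 1) + 10 * e / 9 * (1 - ρ)) * (E0 * α)
      + (2 * e / 3 * (1 - ρ) + 10 * e / 9 * ρ) * E0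
      + 2 * (53 * e / 27 - 1 / 3) * ((1 - ρ) * E3 + ρ * E2) := by
  have hc := c3_coef_lower (e := e) (ρ := ρ) (by linarith) hρ1.le he1
  have hA := c3_A0_lower (e := e) (ρ := ρ) (by linarith) he1
  have hq : 0 < 1 - ρ := by linarith
  set cc := (1 - e) * ρ / 2 + (3 * e - 1) + 10 * e / 9 * (1 - ρ) with hcc
  set aa := 2 * e / 3 * (1 - ρ) + 10 * e / 9 * ρ with haa
  have hc' : -0.05671 ≤ cc := by linarith
  have hA' : 0.1652 ≤ aa := by linarith
  have h2d : (0.21288 : ℝ) ≤ 2 * (53 * e / 27 - 1 / 3) := by linarith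
  have hbr : 0 ≤ (1 - ρ) * E3 + ρ * E2 := add_nonneg (mul_nonneg hq.le h3) (mul_nonneg (by linarith) h2)
  have t3 := mul_le_mul_of_nonneg_right h2d hbr
  have t1 : -0.05671 * α ≤ cc * α := mul_le_mul_of_nonneg_right hc' hα
  rcases le_or_gt α 2.6 with hs | hb
  · have hin : 0 ≤ cc * α + aa := by linarith
    have := mul_nonneg h0 hin
    have h6 : cc * (E0 * α) + aa * E0 = E0 * (cc * α + aa) := by ring
    rw [h6]
    nlinarith
  · have hE := hE2 hb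
    have t4 : 0.16 * E2 ≤ ρ * E2 := mul_le_mul_of_nonneg_right hρ h2
    have t5 : 0 ≤ (1 - ρ) * E3 := mul_nonneg hq.le h3
    have t6 : 0 ≤ E0 * (0.00841 * α ^ 2 - 0.05671 * α + 0.1652) :=
      mul_nonneg h0 (by nlinarith [sq_nonneg (α - 3.37)])
    have t7 := mul_le_mul_of_nonneg_left t1 h0
    have t8 := mul_le_mul_of_nonneg_left hA' h0
    have h6 : cc * (E0 * α) = E0 * (cc * α) := by ring
    have h7 : aa * E0 = E0 * aa := by ring
    rw [h6, h7]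
    have t9 : 0.21288 * ((1 - ρ) * E3 + ρ * E2) ≥ 0.21288 * (0.16 * (0.2472 * (E0 * α ^ 2))) := by
      have : 0.16 * (0.2472 * (E0 * α ^ 2)) ≤ (1 - ρ) * E3 + ρ * E2 := by linarith
      linarith
    nlinarith

/-- **The termwise inequality at `c = 3`.** -/
theorem c3_core (p : A → ℝ) (Y : Finset A) (ρ e : ℝ) (hρ0 : 0 < ρ) (hρ1 : ρ < 1)
    (h0 : ∀ a ∈ Y, 0 < p a) (h1 : ∀ a ∈ Y, p a < 1)
    (hmean : ∑ s ∈ Y, p s = 3 - 2 * ρ)
    (hpart : ∀ s ∈ Y, p s = ρ ∨ ∃ s' ∈ Y, s' ≠ s ∧ p s' = p s)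
    (he1 : 0.22404 ≤ e) :
    0 ≤ ((1 - e) * ρ / 2 + (3 * e - 1) + 10 * e / 9 * (1 - ρ)) * (law p Y).coeff 1
      + (2 * e / 3 * (1 - ρ) + 10 * e / 9 * ρ) * (law p Y).coeff 0
      + 2 * (53 * e / 27 - 1 / 3) * ((1 - ρ) * (law p Y).coeff 3 + ρ * (law p Y).coeff 2) := by
  have h0le : ∀ a ∈ Y, 0 ≤ p a := fun b hb => (h0 b hb).le
  have h1le : ∀ a ∈ Y, p a ≤ 1 := fun b hb => (h1 b hb).le
  have hnn := law_coeff_nonneg p Y h0le h1le
  have hq : 0 < 1 - ρ := by linarith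
  rcases le_or_gt 0.5679 ρ with hbig | hsm
  · exact c3_case_big hbig hρ1 he1 (hnn 0) (hnn 1) (hnn 2) (hnn 3)
  rcases lt_or_ge ρ 0.16 with hsmall | hmid
  · have hdar : (law p Y).coeff 1 ≤ (law p Y).coeff 2 := by
      have := darroch_mono p Y h0 h1 (k := 1) (by rw [hmean]; push_cast; linarith)
      simpa using this
    have htail : (1 - 2 * ρ) * (law p Y).coeff 2 ≤ (2 - 2 * ρ) * (law p Y).coeff 3 := by
      have := law_tail_ratio p Y h0le h1le (k := 2) (by rw [hmean]; push_cast; linarith)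
      rw [hmean] at this
      have h2 : ((3 : ℝ) - 2 * ρ - ((2 : ℕ) : ℝ)) = 1 - 2 * ρ := by push_cast; ring
      have h3 : ((3 : ℝ) - 2 * ρ - ((2 : ℕ) : ℝ) + 1) = 2 - 2 * ρ := by push_cast; ring
      rw [h3, h2] at this
      exact this
    exact c3_case_small hρ0 hsmall he1 (hnn 0) (hnn 1) (hnn 2) (hnn 3) hdar htail
  · have hαnn : 0 ≤ ∑ s ∈ Y, odds p s := Finset.sum_nonneg fun s hs =>
      div_nonneg (h0 s hs).le (by have := h1 s hs; linarith)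
    have hE1α : (law p Y).coeff 1 = (law p Y).coeff 0 * ∑ s ∈ Y, odds p s := law_coeff_one p Y h1
    have hE2α := law_coeff_two p Y h1
    have hx := odds_sq_sum_le p Y ρ h0 h1 hpart
    rw [hE1α]
    refine c3_case_mid hmid hρ1 he1 hαnn (hnn 0) (hnn 2) (hnn 3) ?_
    intro hb
    set α := ∑ s ∈ Y, odds p s with hα
    have hρq : ρ / (1 - ρ) ≤ 1.3143 := by
      rw [div_le_iff₀ hq]
      linarith
    have hxα : ∑ s ∈ Y, odds p s ^ 2 ≤ 0.5056 * α ^ 2 := by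
      refine hx.trans ?_
      rcases max_cases (α / 2) (ρ / (1 - ρ)) with ⟨h, _⟩ | ⟨h, _⟩
      · rw [h]
        nlinarith
      · rw [h]
        have h5 : ρ / (1 - ρ) * α ≤ 1.3143 * α := mul_le_mul_of_nonneg_right hρq hαnn
        nlinarith
    have h3 : 0.4944 * α ^ 2 ≤ α ^ 2 - ∑ s ∈ Y, odds p s ^ 2 := by linarith
    have h4 := mul_le_mul_of_nonneg_left h3 (hnn 0)
    rw [← hE2α] at h4
    nlinarith

end Vale.Agent.Lib.P328.PBinf
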