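import Vale.Agent.Lib.P328.PBinf.C2Core
import Vale.Agent.Lib.P328.PBinf.C3Core

/-!
# P328, PB^inf at c = 2, in the language of laws

`2 g_2 - ∑_t p_t ^ 2 P(S - t - pt = 0) ≤ 4 e ^ {-2}`, with no condition on the mean.
-/

namespace Vale.Agent.Lib.P328.PBinf

open Finset Polynomial

set_option linter.unusedSectionVars false

variable {A : Type*} [DecidableEq A] [Fintype A]

theorem prod_erase_pair (p : A → ℝ) (t t' : A) (hne : t' ≠ t) (hp : p t' = p t) :
    (∏ a ∈ (univ.erase t).erase t', (1 - p a)) * (1 - p t) ^ 2 = ∏ a, (1 - p a) := by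
  have hmem : t' ∈ (univ : Finset A).erase t := Finset.mem_erase.mpr ⟨hne, Finset.mem_univ _⟩
  rw [← Finset.mul_prod_erase univ _ (Finset.mem_univ t),
    ← Finset.mul_prod_erase (univ.erase t) _ hmem, hp]
  ring

/-- **PB^inf at `c = 2`.** -/
theorem c2_final (p : A → ℝ) (h0 : ∀ a, 0 ≤ p a) (h1 : ∀ a, p a < 1) (pt : A → A)
    (hne : ∀ t, pt t ≠ t) (hp : ∀ t, p (pt t) = p t) :
    2 * (law p univ).coeff 2
        - ∑ t, p t ^ 2 * (law p ((univ.erase t).erase (pt t))).coeff 0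
      ≤ 4 * Real.exp (-2) := by
  have hq : ∀ a, 0 < 1 - p a := fun a => by have := h1 a; linarith
  set Q := ∏ a, (1 - p a) with hQ
  have hQpos : 0 < Q := Finset.prod_pos fun a _ => hq a
  have hterm : ∀ t, p t ^ 2 * (law p ((univ.erase t).erase (pt t))).coeff 0 = Q * odds p t ^ 2 := by
    intro t
    rw [law_coeff_zero, hQ, ← prod_erase_pair p t (pt t) (hne t) (hp t)]
    unfold odds
    have := (hq t).ne'
    field_simp
  have h2 : 2 * (law p univ).coeff 2
      = Q * ((∑ s, odds p s) ^ 2 - ∑ s, odds p s ^ 2) := by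
    rw [law_coeff_two p univ fun a _ => h1 a, law_coeff_zero]
  rw [h2, Finset.sum_congr rfl fun t _ => hterm t, ← Finset.mul_sum]
  have hσ : ∀ t ∈ (univ : Finset A), 0 ≤ odds p t := fun t _ => div_nonneg (h0 t) (hq t).le
  have hstat := c2_static univ (odds p) hσ
  have hprod : Q * ∏ t, (1 + odds p t) = 1 := by
    rw [hQ, ← Finset.prod_mul_distrib]
    refine Finset.prod_eq_one fun a _ => ?_
    unfold odds
    have := (hq a).ne'
    field_simp
    ring
  have h3 := mul_le_mul_of_nonneg_left hstat hQpos.le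
  have h4 : Q * (4 * Real.exp (-2) * ∏ t, (1 + odds p t)) = 4 * Real.exp (-2) := by
    calc Q * (4 * Real.exp (-2) * ∏ t, (1 + odds p t))
        = 4 * Real.exp (-2) * (Q * ∏ t, (1 + odds p t)) := by ring
      _ = 4 * Real.exp (-2) := by rw [hprod, mul_one]
  rw [h4] at h3
  calc Q * ((∑ s, odds p s) ^ 2 - ∑ s, odds p s ^ 2) - Q * ∑ t, odds p t ^ 2
      = Q * ((∑ t, odds p t) ^ 2 - 2 * ∑ t, odds p t ^ 2) := by ring
    _ ≤ 4 * Real.exp (-2) := h3

end Vale.Agent.Lib.P328.PBinf
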