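import Vale.Agent.Lib.P328.PBinf.C4

/-!
# P328, PB^inf: the Chebyshev step

At mean `c`: `∑ (π_t - p_t) h_t ≥ 0` for `h = (c - 1) π + r / 2`. It reduces the input
`c τ - (c - 1) Ghat ≥ X1 / 2` of the assembly to the bound of the covariances.
-/

namespace Vale.Agent.Lib.P328.PBinf

open Finset Polynomial

set_option linter.unusedSectionVars false

variable {T : Type*} [DecidableEq T] [Fintype T]

/-- The generic Chebyshev sum inequality. -/
theorem cheb_sum (D h : T → ℝ) (hsum : ∑ t, D t = 0) (hord : ∀ t s, D t < 0 → 0 < D s → h t ≤ h s) :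
    0 ≤ ∑ t, D t * h t := by
  by_cases hex : ∃ s, 0 < D s
  · have hne : (univ.filter fun s => 0 < D s).Nonempty := by
      obtain ⟨s, hs⟩ := hex
      exact ⟨s, by simp [hs]⟩
    obtain ⟨s0, hs0, hmin⟩ := Finset.exists_min_image _ h hne
    have hs0pos : 0 < D s0 := by simpa using hs0
    have h1 : ∑ t, D t * h t = ∑ t, D t * (h t - h s0) := by
      have : ∑ t, D t * (h t - h s0) = ∑ t, D t * h t - (∑ t, D t) * h s0 := by
        rw [Finset.sum_mul, ← Finset.sum_sub_distrib]
        exact Finset.sum_congr rfl fun t _ => by ring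
      rw [this, hsum]
      ring
    rw [h1]
    refine Finset.sum_nonneg fun t _ => ?_
    rcases lt_trichotomy (D t) 0 with ht | ht | ht
    · exact mul_nonneg_of_nonpos_of_nonpos ht.le (sub_nonpos.mpr (hord t s0 ht hs0pos))
    · simp [ht]
    · exact mul_nonneg ht.le (sub_nonneg.mpr (hmin t (by simp [ht])))
  · rw [not_exists] at hex
    have hle : ∀ t ∈ (univ : Finset T), D t ≤ 0 := fun t _ => not_lt.mp (hex t)
    have hz := (Finset.sum_eq_zero_iff_of_nonpos hle).mp hsum
    refine le_of_eq (Finset.sum_eq_zero fun t ht => ?_).symm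
    rw [hz t ht, zero_mul]

theorem C_mul_uu_sub (x y : ℝ) : C x * uu y - C y * uu x = C (x - y) := by
  unfold uu
  simp only [map_sub, C_1]
  ring

/-- Exchange of two trials in a coefficient. -/
theorem coeff_exchange (x y : ℝ) (w : ℝ[X]) (k : ℕ) :
    x * (uu y * w).coeff k - y * (uu x * w).coeff k = (x - y) * w.coeff k := by
  have h := congrArg (fun P => (P * w).coeff k) (C_mul_uu_sub x y)
  simp only [sub_mul, coeff_sub, mul_assoc, coeff_C_mul] at h
  rw [sub_mul]
  exact h

/-- Exchange of two partnered pairs in a coefficient. -/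
theorem coeff_exchange2 (x y : ℝ) (v : ℝ[X]) (k : ℕ) :
    x ^ 2 * (uu y * (uu y * v)).coeff k - y ^ 2 * (uu x * (uu x * v)).coeff k
      = (x - y) * (x * (uu y * v).coeff k + y * (uu x * v).coeff k) := by
  have e1 := coeff_exchange x y (uu y * v) k
  have e2 := coeff_exchange x y (uu x * v) k
  have hc : uu x * (uu y * v) = uu y * (uu x * v) := by ring
  rw [hc] at e1
  have hc2 : x ^ 2 * (uu y * (uu y * v)).coeff k - y ^ 2 * (uu x * (uu x * v)).coeff k
      = x * (x * (uu y * (uu y * v)).coeff k - y * (uu y * (uu x * v)).coeff k)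
        + y * (x * (uu y * (uu x * v)).coeff k - y * (uu x * (uu x * v)).coeff k) := by ring
  rw [hc2, e1, e2]
  ring

theorem uu_mul_coeff_nonneg {x : ℝ} (h0 : 0 ≤ x) (h1 : x ≤ 1) {w : ℝ[X]} (hw : ∀ k, 0 ≤ w.coeff k)
    (k : ℕ) : 0 ≤ (uu x * w).coeff k := by
  have hq : 0 ≤ 1 - x := by linarith
  cases k with
  | zero =>
    rw [coeff_uu_mul_zero]
    exact mul_nonneg hq (hw 0)
  | succ k =>
    rw [coeff_uu_mul_succ]
    exact add_nonneg (mul_nonneg hq (hw _)) (mul_nonneg h0 (hw _))

section Main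

variable (p : T → ℝ) (pt : T → T)

/-- The law without two distinct trials. -/
theorem AA_eq_two (t s : T) (hts : s ≠ t) :
    AA p t = uu (p s) * law p ((univ.erase t).erase s) := by
  rw [AA_eq_law, law_erase p (s := s) (Finset.mem_erase.mpr ⟨hts, Finset.mem_univ _⟩)]

/-- The two laws in the exchange. -/
theorem AA_pair (t s : T) (hts : s ≠ t) :
    AA p t = uu (p s) * law p ((univ.erase t).erase s)
      ∧ AA p s = uu (p t) * law p ((univ.erase t).erase s) := by
  refine ⟨AA_eq_two p t s hts, ?_⟩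
  rw [AA_eq_two p s t hts.symm, Finset.erase_right_comm]

end Main

/-- **The reduction of the input to the covariance bound.** -/
theorem input_of_B (p : T → ℝ) (h0 : ∀ a, 0 < p a) (h1 : ∀ a, p a < 1) (pt : T → T)
    (hne : ∀ t, pt t ≠ t) (hp : ∀ t, p (pt t) = p t) (d : ℕ)
    (hmean : ∑ t, p t = ((d + 2 : ℕ) : ℝ))
    (hB : (1 / 2) * ∑ t, (p t * (AA p t).coeff (d + 1)) * (p t ^ 2 * (law p (Yt pt t)).coeff d)
        + ((d : ℝ) + 1) * ∑ t, (p t * (AA p t).coeff (d + 1)) ^ 2
      ≤ ((d + 2 : ℕ) : ℝ) * (GG p).coeff (d + 2) * ∑ t, p t ^ 2 * (law p (Yt pt t)).coeff d) :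
    (1 / 2) * ∑ t, p t ^ 3 * (law p (Yt pt t)).coeff d
      ≤ ((d + 2 : ℕ) : ℝ) * ∑ t, p t ^ 2 * (law p (Yt pt t)).coeff d
        - ((d : ℝ) + 1) * ∑ t, p t ^ 2 * (AA p t).coeff (d + 1) := by
  have h0le : ∀ a, 0 ≤ p a := fun a => (h0 a).le
  have h1le : ∀ a, p a ≤ 1 := fun a => (h1 a).le
  set g := (GG p).coeff (d + 2) with hg
  -- positivity of `g`
  have hgpos : 0 < g := by
    have hcard : d + 2 ≤ (univ : Finset T).card := by
      have h2 : ∑ s, p s ≤ ∑ _s : T, (1 : ℝ) := Finset.sum_le_sum fun s _ => h1le s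
      simp only [sum_const, nsmul_eq_mul, mul_one] at h2
      rw [hmean] at h2
      exact_mod_cast h2
    exact law_coeff_pos p univ (fun a _ => h0 a) (fun a _ => h1 a) hcard
  set P : T → ℝ := fun t => p t * (AA p t).coeff (d + 1) with hP
  set R : T → ℝ := fun t => p t ^ 2 * (law p (Yt pt t)).coeff d with hR
  set Dl : T → ℝ := fun t => P t - g * p t with hDl
  set h : T → ℝ := fun t => ((d : ℝ) + 1) * P t + (1 / 2) * R t with hh
  -- the total of the differences
  have hsumP : ∑ t, P t = ((d + 2 : ℕ) : ℝ) * g := by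
    have := law_euler p univ (d + 1)
    rw [hg, GG_eq_law, hP]
    push_cast at this ⊢
    rw [show (d : ℝ) + 2 = (d : ℝ) + 1 + 1 by ring, this]
    exact Finset.sum_congr rfl fun s _ => rfl
  have hsumD : ∑ t, Dl t = 0 := by
    simp only [hDl]
    rw [Finset.sum_sub_distrib, hsumP, ← Finset.mul_sum, hmean]
    ring
  -- the difference in terms of the coefficients of `AA`
  have hDform : ∀ t, Dl t = p t * (1 - p t) * ((AA p t).coeff (d + 1) - (AA p t).coeff (d + 2)) := by
    intro t
    have h2 : g = (1 - p t) * (AA p t).coeff (d + 2) + p t * (AA p t).coeff (d + 1) := by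
      rw [hg, GG_eq_mul p t, coeff_uu_mul_succ]
    simp only [hDl, hP]
    rw [h2]
    ring
  have hAnn := fun t k => AA_coeff_nonneg p h0le h1le t k
  -- the order
  have hord : ∀ t s, Dl t < 0 → 0 < Dl s → h t ≤ h s := by
    intro t s ht hs
    have hts : s ≠ t := by
      rintro rfl
      linarith
    have hqt : 0 < p t * (1 - p t) := mul_pos (h0 t) (by have := h1 t; linarith)
    have hqs : 0 < p s * (1 - p s) := mul_pos (h0 s) (by have := h1 s; linarith)
    have ht' : (AA p t).coeff (d + 1) < (AA p t).coeff (d + 2) := by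
      rw [hDform t] at ht
      by_contra hcon
      rw [not_lt] at hcon
      have := mul_nonneg hqt.le (sub_nonneg.mpr hcon)
      linarith
    have hs' : (AA p s).coeff (d + 2) < (AA p s).coeff (d + 1) := by
      rw [hDform s] at hs
      by_contra hcon
      rw [not_lt] at hcon
      have := mul_nonpos_of_nonneg_of_nonpos hqs.le (sub_nonpos.mpr hcon)
      linarith
    obtain ⟨e1, e2⟩ := AA_pair p t s hts
    set W := (univ.erase t).erase s with hW
    set w := law p W with hw
    have hwnn : ∀ k, 0 ≤ w.coeff k :=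
      law_coeff_nonneg p W (fun a _ => h0le a) (fun a _ => h1le a)
    -- first: `p t < p s`
    have hlt : p t < p s := by
      by_contra hcon
      rw [not_lt] at hcon
      have hnew : w.coeff d * w.coeff (d + 2) ≤ w.coeff (d + 1) * w.coeff (d + 1) :=
        law_tp2 p W (fun a _ => h0le a) (fun a _ => h1le a) (Nat.le_succ d)
      have hcross : (AA p s).coeff (d + 1) * (AA p t).coeff (d + 2)
          ≤ (AA p t).coeff (d + 1) * (AA p s).coeff (d + 2) := by
        rw [e1, e2]
        simp only [coeff_uu_mul_succ]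
        have hmul := mul_nonneg (sub_nonneg.mpr hcon) (sub_nonneg.mpr hnew)
        nlinarith
      have hA2 : 0 < (AA p t).coeff (d + 2) := lt_of_le_of_lt (hAnn t _) ht'
      have hs2 := hAnn s (d + 2)
      have h3 := mul_lt_mul_of_pos_right hs' hA2
      have h4 := mul_le_mul_of_nonneg_right ht'.le hs2
      nlinarith
    -- second: the monotonicity of `P`
    have hPle : P t ≤ P s := by
      simp only [hP]
      rw [e1, e2]
      have := coeff_exchange (p s) (p t) w (d + 1)
      have hnn := hwnn (d + 1)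
      have hm := mul_nonneg (sub_nonneg.mpr hlt.le) hnn
      linarith
    -- third: the monotonicity of `R`
    have hRle : R t ≤ R s := by
      have hpts : p t ≠ p s := hlt.ne
      have hs_ne : pt t ≠ s := by
        intro hh'
        apply hpts
        rw [← hh', hp]
      have hst_ne : pt s ≠ t := by
        intro hh'
        apply hpts
        rw [← hh', hp]
      have hpp : pt s ≠ pt t := by
        intro hh'
        apply hpts
        rw [← hp t, ← hh', hp]
      -- the common part
      set V := (((univ.erase t).erase s).erase (pt t)).erase (pt s) with hV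
      set v := law p V with hvdef
      have hvnn : ∀ k, 0 ≤ v.coeff k :=
        law_coeff_nonneg p V (fun a _ => h0le a) (fun a _ => h1le a)
      have hYt : law p (Yt pt t) = uu (p s) * (uu (p s) * v) := by
        unfold Yt
        have h5 : s ∈ (univ.erase t).erase (pt t) :=
          Finset.mem_erase.mpr ⟨hs_ne.symm, Finset.mem_erase.mpr ⟨hts, Finset.mem_univ _⟩⟩
        rw [law_erase p h5, Finset.erase_right_comm (a := pt t) (b := s)]
        have h6 : pt s ∈ ((univ.erase t).erase s).erase (pt t) :=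
          Finset.mem_erase.mpr ⟨hpp, Finset.mem_erase.mpr ⟨hne s,
            Finset.mem_erase.mpr ⟨hst_ne, Finset.mem_univ _⟩⟩⟩
        rw [law_erase p h6, hp]
      have hYs : law p (Yt pt s) = uu (p t) * (uu (p t) * v) := by
        unfold Yt
        have h5 : t ∈ (univ.erase s).erase (pt s) :=
          Finset.mem_erase.mpr ⟨hst_ne.symm, Finset.mem_erase.mpr ⟨hts.symm, Finset.mem_univ _⟩⟩
        rw [law_erase p h5, Finset.erase_right_comm (a := pt s) (b := t)]
        have h6 : pt t ∈ ((univ.erase s).erase t).erase (pt s) :=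
          Finset.mem_erase.mpr ⟨hpp.symm, Finset.mem_erase.mpr ⟨hne t,
            Finset.mem_erase.mpr ⟨hs_ne, Finset.mem_univ _⟩⟩⟩
        rw [law_erase p h6, hp]
        have h7 : (((univ.erase s).erase t).erase (pt s)).erase (pt t) = V := by
          rw [hV, Finset.erase_right_comm (a := s) (b := t)]
          rw [Finset.erase_right_comm (a := pt s) (b := pt t)]
        rw [h7]
      simp only [hR]
      rw [hYt, hYs]
      have hex := coeff_exchange2 (p s) (p t) v d
      have hn1 : 0 ≤ (uu (p t) * v).coeff d :=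
        uu_mul_coeff_nonneg (h0le _) (h1le _) hvnn d
      have hn2 : 0 ≤ (uu (p s) * v).coeff d :=
        uu_mul_coeff_nonneg (h0le _) (h1le _) hvnn d
      have hm : 0 ≤ (p s - p t) * (p s * (uu (p t) * v).coeff d + p t * (uu (p s) * v).coeff d) :=
        mul_nonneg (sub_nonneg.mpr hlt.le)
          (add_nonneg (mul_nonneg (h0le _) hn1) (mul_nonneg (h0le _) hn2))
      linarith
    simp only [hh]
    have hd : (0 : ℝ) ≤ (d : ℝ) + 1 := by positivity
    have := mul_le_mul_of_nonneg_left hPle hd
    linarith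
  have hcheb := cheb_sum Dl h hsumD hord
  -- assembling
  have hexp : ∑ t, Dl t * h t = ((d : ℝ) + 1) * ∑ t, P t ^ 2 + (1 / 2) * ∑ t, P t * R t
      - g * (((d : ℝ) + 1) * ∑ t, p t * P t + (1 / 2) * ∑ t, p t * R t) := by
    simp only [Finset.mul_sum, ← Finset.sum_add_distrib, ← Finset.sum_sub_distrib]
    refine Finset.sum_congr rfl fun t _ => ?_
    simp only [hDl, hh]
    ring
  rw [hexp] at hcheb
  have h5 : ∑ t, p t * P t = ∑ t, p t ^ 2 * (AA p t).coeff (d + 1) :=
    Finset.sum_congr rfl fun t _ => by simp only [hP]; ring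
  have h6 : ∑ t, p t * R t = ∑ t, p t ^ 3 * (law p (Yt pt t)).coeff d :=
    Finset.sum_congr rfl fun t _ => by simp only [hR]; ring
  rw [h5, h6] at hcheb
  set τ := ∑ t, p t ^ 2 * (law p (Yt pt t)).coeff d
  set X1 := ∑ t, p t ^ 3 * (law p (Yt pt t)).coeff d
  set G1 := ∑ t, p t ^ 2 * (AA p t).coeff (d + 1)
  have hgoal : g * ((1 / 2) * X1) ≤ g * (((d + 2 : ℕ) : ℝ) * τ - ((d : ℝ) + 1) * G1) := by
    have h7 : ((d + 2 : ℕ) : ℝ) * g * τ = g * (((d + 2 : ℕ) : ℝ) * τ) := by ring
    rw [h7] at hB
    nlinarith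
  exact le_of_mul_le_mul_left hgoal hgpos

end Vale.Agent.Lib.P328.PBinf
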