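import Vale.Agent.Lib.P328.CapS.Defs
import Vale.Agent.Lib.P328.PBinf.Cheb
import Vale.Agent.Lib.P328.PBinf.C2

/-!
# P328, PB^inf: from rows to trials

The credit `Ypp` of the column inequality `CapS.PBL` in terms of the law of the trials
`T = Σ i, Fin (R i)`.
-/

namespace Vale.Agent.Lib.P328.PBinf

open Finset Polynomial

set_option linter.unusedSectionVars false

variable {m : ℕ}

/-- The probability of a trial, in the row of the trial. -/
def pS (R : Fin m → ℕ) (p : Fin m → ℝ) : (Σ i, Fin (R i)) → ℝ := fun a => p a.1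

/-- The partner of a trial: the next trial of its row, cyclically. -/
def ptS (R : Fin m → ℕ) : (Σ i, Fin (R i)) → (Σ i, Fin (R i)) := fun a =>
  ⟨a.1, ⟨(a.2.1 + 1) % R a.1, Nat.mod_lt _ (Fin.pos a.2)⟩⟩

theorem ptS_ne (R : Fin m → ℕ) (hR : ∀ i, R i ≠ 1) (a : Σ i, Fin (R i)) : ptS R a ≠ a := by
  intro h
  have h2 : (ptS R a).2 = a.2 := by
    obtain ⟨i, j⟩ := a
    unfold ptS at h
    simp only [Sigma.mk.injEq, true_and, heq_eq_eq] at h
    simpa [ptS] using h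
  have h3 : (a.2.1 + 1) % R a.1 = a.2.1 := by
    have := congrArg Fin.val h2
    simpa [ptS] using this
  have hlt := a.2.2
  have h1 := hR a.1
  rcases Nat.lt_or_ge (a.2.1 + 1) (R a.1) with h4 | h4
  · rw [Nat.mod_eq_of_lt h4] at h3
    omega
  · have h5 : a.2.1 + 1 = R a.1 := by omega
    rw [h5, Nat.mod_self] at h3
    omega

theorem pS_ptS (R : Fin m → ℕ) (p : Fin m → ℝ) (a : Σ i, Fin (R i)) :
    pS R p (ptS R a) = pS R p a := rfl

/-- The polynomial of the rows. -/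
noncomputable def GR (R : Fin m → ℕ) (p : Fin m → ℝ) : ℝ[X] := ∏ i, uu (p i) ^ R i

/-- The polynomial of the rows, two trials of row `i` removed. -/
noncomputable def G2 (R : Fin m → ℕ) (p : Fin m → ℝ) (i : Fin m) : ℝ[X] :=
  uu (p i) ^ (R i - 2) * ∏ l ∈ univ.erase i, uu (p l) ^ R l

theorem GG_pS (R : Fin m → ℕ) (p : Fin m → ℝ) : GG (pS R p) = GR R p := by
  unfold GG GR pS
  rw [Fintype.prod_sigma]
  refine Finset.prod_congr rfl fun i _ => ?_
  simp

theorem GR_eq_mul (R : Fin m → ℕ) (p : Fin m → ℝ) (i : Fin m) (h2 : 2 ≤ R i) :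
    GR R p = uu (p i) * (uu (p i) * G2 R p i) := by
  unfold GR G2
  rw [← Finset.mul_prod_erase univ _ (Finset.mem_univ i)]
  obtain ⟨r, hr⟩ : ∃ r, R i = r + 2 := ⟨R i - 2, by omega⟩
  rw [hr]
  simp only [Nat.add_sub_cancel]
  ring

theorem uu_ne_zero {x : ℝ} (hx : x < 1) : uu x ≠ 0 := by
  intro h
  have h1 := congrArg (fun P => P.coeff 0) h
  have h2 : (uu x).coeff 0 = 1 - x := by
    have := coeff_uu_mul_zero x 1
    simpa using this
  simp only [coeff_zero] at h1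
  rw [h2] at h1
  linarith

/-- The law of the trials without a trial and its partner is the polynomial of the rows. -/
theorem law_Yt_eq (R : Fin m → ℕ) (p : Fin m → ℝ) (hR : ∀ i, R i ≠ 1) (h1 : ∀ i, p i < 1)
    (pt : (Σ i, Fin (R i)) → (Σ i, Fin (R i))) (hne : ∀ t, pt t ≠ t)
    (hp : ∀ t, pS R p (pt t) = pS R p t) (t : Σ i, Fin (R i)) :
    law (pS R p) (Yt pt t) = G2 R p t.1 := by
  have h2 : 2 ≤ R t.1 := by
    have := Fin.pos t.2
    have := hR t.1
    omega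
  have hG : GG (pS R p) = uu (p t.1) * (uu (p t.1) * law (pS R p) (Yt pt t)) := by
    rw [GG_eq_mul (pS R p) t, AA_eq_mul (pS R p) pt hne hp t]
    rfl
  rw [GG_pS, GR_eq_mul R p t.1 h2] at hG
  have hu := uu_ne_zero (h1 t.1)
  exact (mul_left_cancel₀ hu (mul_left_cancel₀ hu hG)).symm

/-- The factorisation of a sum over the box. -/
theorem box_sum_prod (R : Fin m → ℕ) (φ : Fin m → ℕ → ℝ) :
    ∏ l, ∑ v ∈ range (R l + 1), C (φ l v) * (X : ℝ[X]) ^ v
      = ∑ x ∈ Cap.box R, C (∏ l, φ l (x l)) * X ^ (∑ l, x l) := by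
  rw [Finset.prod_univ_sum]
  refine Finset.sum_congr rfl fun x _ => ?_
  rw [Finset.prod_mul_distrib, map_prod, Finset.prod_pow_eq_pow_sum]

/-- The coefficient of a sum over the box. -/
theorem coeff_box_sum (R : Fin m → ℕ) (f : (Fin m → ℕ) → ℝ) (k : ℕ) :
    (∑ x ∈ Cap.box R, C (f x) * (X : ℝ[X]) ^ (∑ l, x l)).coeff k = ∑ x ∈ Cap.lev R k, f x := by
  rw [finsetSum_coeff]
  simp only [coeff_C_mul, coeff_X_pow]
  unfold Cap.lev
  rw [Finset.sum_filter]
  refine Finset.sum_congr rfl fun x _ => ?_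
  by_cases h : k = ∑ l, x l
  · simp [h]
  · have h' : ¬ (∑ l, x l = k) := fun h2 => h h2.symm
    simp [h, h']

theorem GR_coeff (R : Fin m → ℕ) (p : Fin m → ℝ) (k : ℕ) :
    (GR R p).coeff k = ∑ x ∈ Cap.lev R k, Cap.wt R p x := by
  have h : GR R p = ∑ x ∈ Cap.box R, C (Cap.wt R p x) * X ^ (∑ l, x l) := by
    exact Cap.poly_row R p
  rw [h, coeff_box_sum]

/-- The binomial identity of the factorial moment. -/
theorem bw_moment (r : ℕ) (x : ℝ) (w : ℕ) :
    Cap.bw (r + 2) x (w + 2) * (((w + 2 : ℕ) : ℝ) * (((w + 2 : ℕ) : ℝ) - 1))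
      = ((r : ℝ) + 2) * ((r : ℝ) + 1) * x ^ 2 * Cap.bw r x w := by
  unfold Cap.bw
  have h1 : r + 2 - (w + 2) = r - w := by omega
  rw [h1]
  have e1 : ((r + 2).choose (w + 2) : ℝ) * ((w : ℝ) + 2) = ((r : ℝ) + 2) * ((r + 1).choose (w + 1) : ℝ) := by
    have := Nat.add_one_mul_choose_eq (r + 1) (w + 1)
    have h3 : (((r + 1 + 1) * (r + 1).choose (w + 1) : ℕ) : ℝ)
        = (((r + 1 + 1).choose (w + 1 + 1) * (w + 1 + 1) : ℕ) : ℝ) := by rw [this]
    push_cast at h3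
    linarith
  have e2 : ((r + 1).choose (w + 1) : ℝ) * ((w : ℝ) + 1) = ((r : ℝ) + 1) * (r.choose w : ℝ) := by
    have := Nat.add_one_mul_choose_eq r w
    have h3 : (((r + 1) * r.choose w : ℕ) : ℝ)
        = (((r + 1).choose (w + 1) * (w + 1) : ℕ) : ℝ) := by rw [this]
    push_cast at h3
    linarith
  push_cast
  have e3 : ((r + 2).choose (w + 2) : ℝ) * ((w : ℝ) + 2) * ((w : ℝ) + 1)
      = ((r : ℝ) + 2) * ((r : ℝ) + 1) * (r.choose w : ℝ) := by
    rw [e1, mul_assoc, e2]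
    ring
  calc ((r + 2).choose (w + 2) : ℝ) * x ^ (w + 2) * (1 - x) ^ (r - w) * (((w : ℝ) + 2) * ((w : ℝ) + 2 - 1))
      = (((r + 2).choose (w + 2) : ℝ) * ((w : ℝ) + 2) * ((w : ℝ) + 1)) * x ^ (w + 2) * (1 - x) ^ (r - w) := by
        ring
    _ = _ := by
        rw [e3]
        ring

/-- The row generating function of the factorial moment. -/
theorem row_moment (r : ℕ) (x : ℝ) :
    ∑ v ∈ range (r + 2 + 1), C (Cap.bw (r + 2) x v * ((v : ℝ) * ((v : ℝ) - 1))) * (X : ℝ[X]) ^ v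
      = C (((r : ℝ) + 2) * ((r : ℝ) + 1) * x ^ 2) * X ^ 2 * uu x ^ r := by
  rw [Finset.sum_range_succ', Finset.sum_range_succ']
  have z1 : Cap.bw (r + 2) x (0 + 1) * (((0 + 1 : ℕ) : ℝ) * (((0 + 1 : ℕ) : ℝ) - 1)) = 0 := by
    norm_num
  have z0 : Cap.bw (r + 2) x 0 * (((0 : ℕ) : ℝ) * (((0 : ℕ) : ℝ) - 1)) = 0 := by
    norm_num
  rw [z1, z0]
  simp only [map_zero, zero_mul, add_zero]
  have h1 : uu x ^ r = ∑ v ∈ range (r + 1), C (Cap.bw r x v) * (X : ℝ[X]) ^ v := Cap.pow_eq_sum_bw r x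
  rw [h1, Finset.mul_sum]
  refine Finset.sum_congr rfl fun v _ => ?_
  have h2 := bw_moment r x v
  have h3 : v + 1 + 1 = v + 2 := rfl
  rw [h3, h2, C_mul, C_mul]
  ring

/-- **The factorial moment of a row on a level.** -/
theorem lev_moment (R : Fin m → ℕ) (p : Fin m → ℝ) (i : Fin m) (h2 : 2 ≤ R i) (k : ℕ) :
    ∑ x ∈ Cap.lev R (k + 2), Cap.wt R p x * ((x i : ℝ) * ((x i : ℝ) - 1))
      = (R i : ℝ) * ((R i : ℝ) - 1) * p i ^ 2 * (G2 R p i).coeff k := by
  classical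
  set φ : Fin m → ℕ → ℝ := fun l v =>
    Cap.bw (R l) (p l) v * (if l = i then (v : ℝ) * ((v : ℝ) - 1) else 1) with hφ
  have hprod : ∀ x : Fin m → ℕ, ∏ l, φ l (x l) = Cap.wt R p x * ((x i : ℝ) * ((x i : ℝ) - 1)) := by
    intro x
    simp only [hφ]
    rw [Finset.prod_mul_distrib]
    congr 1
    rw [Finset.prod_ite_eq' univ i (fun l => (x l : ℝ) * ((x l : ℝ) - 1))]
    simp
  have hbox := box_sum_prod R φ
  simp only [hprod] at hbox
  rw [← coeff_box_sum R (fun x => Cap.wt R p x * ((x i : ℝ) * ((x i : ℝ) - 1))), ← hbox]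
  rw [← Finset.mul_prod_erase univ _ (Finset.mem_univ i)]
  have hl : ∀ l ∈ (univ : Finset (Fin m)).erase i,
      ∑ v ∈ range (R l + 1), C (φ l v) * (X : ℝ[X]) ^ v = uu (p l) ^ R l := by
    intro l hl
    have hli : l ≠ i := Finset.ne_of_mem_erase hl
    simp only [hφ, if_neg hli, mul_one]
    exact (Cap.pow_eq_sum_bw (R l) (p l)).symm
  rw [Finset.prod_congr rfl hl]
  obtain ⟨r, hr⟩ : ∃ r, R i = r + 2 := ⟨R i - 2, by omega⟩
  have hφi : ∑ v ∈ range (R i + 1), C (φ i v) * (X : ℝ[X]) ^ v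
      = C (((r : ℝ) + 2) * ((r : ℝ) + 1) * p i ^ 2) * X ^ 2 * uu (p i) ^ r := by
    simp only [hφ, if_pos]
    rw [hr]
    exact row_moment r (p i)
  rw [hφi]
  unfold G2
  rw [hr]
  simp only [Nat.add_sub_cancel]
  have h5 : C (((r : ℝ) + 2) * ((r : ℝ) + 1) * p i ^ 2) * X ^ 2 * uu (p i) ^ r
        * ∏ l ∈ univ.erase i, uu (p l) ^ R l
      = C (((r : ℝ) + 2) * ((r : ℝ) + 1) * p i ^ 2)
        * ((uu (p i) ^ r * ∏ l ∈ univ.erase i, uu (p l) ^ R l) * X ^ 2) := by ring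
  rw [h5, coeff_C_mul, coeff_mul_X_pow]
  push_cast
  ring

/-- The credit on a level, in terms of the factorial moments. -/
theorem Ypp_sum (R : Fin m → ℕ) (p : Fin m → ℝ) (hR : ∀ i, R i ≠ 1) (k : ℕ) :
    ∑ x ∈ Cap.lev R (k + 2), CapS.Ypp R x * Cap.wt R p x
      = ((k + 2 : ℕ) : ℝ) * (GR R p).coeff (k + 2)
        - ∑ i, (R i : ℝ) * p i ^ 2 * (G2 R p i).coeff k := by
  have hterm : ∀ x ∈ Cap.lev R (k + 2), CapS.Ypp R x * Cap.wt R p x
      = ((k + 2 : ℕ) : ℝ) * Cap.wt R p x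
        - ∑ i, (if 2 ≤ R i then Cap.wt R p x * ((x i : ℝ) * ((x i : ℝ) - 1)) / ((R i : ℝ) - 1) else 0) := by
    intro x hx
    obtain ⟨hle, hs⟩ := Cap.mem_lev.mp hx
    have h1 : ((k + 2 : ℕ) : ℝ) = ∑ i, (x i : ℝ) := by
      rw [← hs]
      push_cast
      rfl
    unfold CapS.Ypp
    rw [h1, Finset.sum_mul, Finset.sum_mul, ← Finset.sum_sub_distrib]
    refine Finset.sum_congr rfl fun i _ => ?_
    by_cases h2 : 2 ≤ R i
    · rw [if_pos h2]
      have h3 : ((R i : ℝ) - 1) ≠ 0 := by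
        have : (2 : ℝ) ≤ R i := by exact_mod_cast h2
        linarith
      field_simp
      ring
    · rw [if_neg h2]
      have h4 : R i = 0 := by
        have := hR i
        omega
      have h5 : x i = 0 := by
        have := hle i
        omega
      simp [h4, h5]
  rw [Finset.sum_congr rfl hterm, Finset.sum_sub_distrib, ← Finset.mul_sum, GR_coeff,
    Finset.sum_comm]
  congr 1
  refine Finset.sum_congr rfl fun i _ => ?_
  by_cases h2 : 2 ≤ R i
  · simp only [if_pos h2]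
    rw [← Finset.sum_div, lev_moment R p i h2 k]
    have h3 : ((R i : ℝ) - 1) ≠ 0 := by
      have : (2 : ℝ) ≤ R i := by exact_mod_cast h2
      linarith
    field_simp
  · simp only [if_neg h2, Finset.sum_const_zero]
    have h4 : R i = 0 := by
      have := hR i
      omega
    simp [h4]

/-- The sum over trials of a function of the row. -/
theorem sum_trials (R : Fin m → ℕ) (f : Fin m → ℝ) :
    ∑ t : Σ i, Fin (R i), f t.1 = ∑ i, (R i : ℝ) * f i := by
  rw [Fintype.sum_sigma]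
  refine Finset.sum_congr rfl fun i _ => ?_
  simp

/-- **The bridge**: the left side of `PBL` at trial level. -/
theorem PBL_lhs_eq (R : Fin m → ℕ) (p : Fin m → ℝ) (hR : ∀ i, R i ≠ 1) (h1 : ∀ i, p i < 1)
    (pt : (Σ i, Fin (R i)) → (Σ i, Fin (R i))) (hne : ∀ t, pt t ≠ t)
    (hp : ∀ t, pS R p (pt t) = pS R p t) (k : ℕ) :
    ∑ x ∈ Cap.lev R (k + 2), CapS.Ypp R x * Cap.wt R p x
      = ((k + 2 : ℕ) : ℝ) * (GG (pS R p)).coeff (k + 2)
        - ∑ t, pS R p t ^ 2 * (law (pS R p) (Yt pt t)).coeff k := by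
  rw [Ypp_sum R p hR k, GG_pS]
  congr 1
  have h3 : ∀ t : Σ i, Fin (R i), pS R p t ^ 2 * (law (pS R p) (Yt pt t)).coeff k
      = (fun i => p i ^ 2 * (G2 R p i).coeff k) t.1 := by
    intro t
    rw [law_Yt_eq R p hR h1 pt hne hp t]
    rfl
  rw [Finset.sum_congr rfl fun t _ => h3 t, sum_trials R (fun i => p i ^ 2 * (G2 R p i).coeff k)]
  exact Finset.sum_congr rfl fun i _ => by ring

theorem mean_pS (R : Fin m → ℕ) (p : Fin m → ℝ) :
    ∑ t, pS R p t = ∑ i, (R i : ℝ) * p i := sum_trials R p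

theorem piC_eq_pi (c : ℕ) : CapS.piC c = pi c := by
  unfold CapS.piC pi qq
  rfl

/-- **PB^inf at `c = 2`, in the form of `CapS`.** -/
theorem PBL_two : CapS.PBL 2 := by
  intro m R p hR h0 h1 _
  have hne := ptS_ne R hR
  have hp := pS_ptS R p
  rw [PBL_lhs_eq R p hR h1 (ptS R) hne hp 0]
  have h := c2_final (pS R p) (fun a => (h0 a.1).le) (fun a => h1 a.1) (ptS R) hne hp
  unfold CapS.kappa
  rw [piC_eq_pi]
  have h2 : ((2 : ℕ) : ℝ) * pi 2 = 4 * Real.exp (-2) := by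
    unfold pi qq
    norm_num [Nat.factorial]
    ring
  rw [h2]
  exact h

end Vale.Agent.Lib.P328.PBinf
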