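import Mathlib

/-!
# P328, PB^inf at c = 2: the static bound

For nonnegative odds `σ`, with `a = ∑ σ`, `x = ∑ σ ^ 2`:
`a ^ 2 - 2 x ≤ 4 e ^ {-2} ∏ (1 + σ)`, with no condition on the mean.
-/

namespace Vale.Agent.Lib.P328.PBinf

open Finset

variable {A : Type*}

/-- The logarithmic Jensen bound: `∑ log (1 + σ) ≥ (a ^ 2 / x) log (1 + x / a)`. -/
theorem sum_log_ge (s : Finset A) (σ : A → ℝ) (h0 : ∀ t ∈ s, 0 ≤ σ t)
    (ha : 0 < ∑ t ∈ s, σ t) (hx : 0 < ∑ t ∈ s, σ t ^ 2) :
    (∑ t ∈ s, σ t) ^ 2 / (∑ t ∈ s, σ t ^ 2)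
        * Real.log (1 + (∑ t ∈ s, σ t ^ 2) / ∑ t ∈ s, σ t)
      ≤ ∑ t ∈ s, Real.log (1 + σ t) := by
  set a := ∑ t ∈ s, σ t with ha_def
  set x := ∑ t ∈ s, σ t ^ 2 with hx_def
  -- the comparison function
  let H : ℝ → ℝ := fun y => ∑ t ∈ s, Real.log (1 + σ t * y) - a ^ 2 / x * Real.log (1 + x / a * y)
  have hpos1 : ∀ y, 0 ≤ y → ∀ t ∈ s, 0 < 1 + σ t * y := fun y hy t ht => by
    have := mul_nonneg (h0 t ht) hy
    linarith
  have hpos2 : ∀ y, 0 ≤ y → 0 < 1 + x / a * y := fun y hy => by
    have : 0 ≤ x / a * y := by positivity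
    linarith
  have hderiv : ∀ y, 0 < y → HasDerivAt H
      (∑ t ∈ s, σ t / (1 + σ t * y) - a ^ 2 / x * (x / a / (1 + x / a * y))) y := by
    intro y hy
    have h1 : HasDerivAt (fun y => ∑ t ∈ s, Real.log (1 + σ t * y))
        (∑ t ∈ s, σ t / (1 + σ t * y)) y := by
      apply HasDerivAt.fun_sum
      intro t ht
      have h2 : HasDerivAt (fun y => 1 + σ t * y) (σ t) y := by
        simpa using ((hasDerivAt_id y).const_mul (σ t)).const_add 1
      exact h2.log (hpos1 y hy.le t ht).ne'
    have h3 : HasDerivAt (fun y => 1 + x / a * y) (x / a) y := by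
      simpa using ((hasDerivAt_id y).const_mul (x / a)).const_add 1
    have h4 := (h3.log (hpos2 y hy.le).ne').const_mul (a ^ 2 / x)
    exact h1.sub h4
  have hcont : ContinuousOn H (Set.Icc 0 1) := by
    apply ContinuousOn.sub
    · apply continuousOn_finsetSum
      intro t ht
      apply ContinuousOn.log (by fun_prop)
      intro y hy
      exact (hpos1 y hy.1 t ht).ne'
    · apply ContinuousOn.mul continuousOn_const
      apply ContinuousOn.log (by fun_prop)
      intro y hy
      exact (hpos2 y hy.1).ne'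
  have hmono : MonotoneOn H (Set.Icc 0 1) := by
    apply monotoneOn_of_deriv_nonneg (convex_Icc 0 1) hcont
    · intro y hy
      rw [interior_Icc] at hy
      exact (hderiv y hy.1).differentiableAt.differentiableWithinAt
    · intro y hy
      rw [interior_Icc] at hy
      rw [(hderiv y hy.1).deriv]
      have hy0 := hy.1.le
      -- Cauchy-Schwarz
      have hcs : a ^ 2 ≤ (∑ t ∈ s, σ t / (1 + σ t * y)) * ∑ t ∈ s, σ t * (1 + σ t * y) := by
        apply Finset.sum_sq_le_sum_mul_sum_of_sq_le_mul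
        · intro t ht
          exact div_nonneg (h0 t ht) (hpos1 y hy0 t ht).le
        · intro t ht
          exact mul_nonneg (h0 t ht) (hpos1 y hy0 t ht).le
        · intro t ht
          have := (hpos1 y hy0 t ht).ne'
          apply le_of_eq
          field_simp
      have hsum : ∑ t ∈ s, σ t * (1 + σ t * y) = a + x * y := by
        rw [ha_def, hx_def, Finset.sum_mul, ← Finset.sum_add_distrib]
        exact Finset.sum_congr rfl fun t _ => by ring
      rw [hsum] at hcs
      have hax : 0 < a + x * y := by positivity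
      have h5 : a ^ 2 / x * (x / a / (1 + x / a * y)) = a ^ 2 / (a + x * y) := by
        have h6 := (hpos2 y hy0).ne'
        field_simp
      rw [h5, sub_nonneg, div_le_iff₀ hax]
      exact hcs
  have h01 := hmono (Set.left_mem_Icc.mpr zero_le_one) (Set.right_mem_Icc.mpr zero_le_one)
    zero_le_one
  have hH0 : H 0 = 0 := by simp [H]
  have hH1 : H 1 = ∑ t ∈ s, Real.log (1 + σ t) - a ^ 2 / x * Real.log (1 + x / a) := by simp [H]
  rw [hH0, hH1] at h01
  linarith

/-- `log ((m + 1) / (m - 1)) ≥ 2 / m` in the form used below: `(n - 1) log (n / (n - 2)) ≥ 2`. -/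
theorem two_le_mul_log {n : ℝ} (hn : 2 < n) : 2 ≤ (n - 1) * Real.log (n / (n - 2)) := by
  have hm : 0 < n - 1 := by linarith
  set y := 1 / (n - 1) with hy
  have hy0 : 0 < y := by positivity
  have hy1 : y < 1 := by
    rw [hy, div_lt_one hm]
    linarith
  have habs : |y| < 1 := by rwa [abs_of_pos hy0]
  have hs := Real.hasSum_log_sub_log_of_abs_lt_one habs
  have h1 : (2 : ℝ) * (1 / (2 * ((0 : ℕ) : ℝ) + 1)) * y ^ (2 * 0 + 1)
      ≤ Real.log (1 + y) - Real.log (1 - y) := by
    apply le_hasSum hs 0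
    intro k _
    positivity
  have h2 : Real.log (1 + y) - Real.log (1 - y) = Real.log (n / (n - 2)) := by
    have h3 : 1 + y = n / (n - 1) := by
      rw [hy]
      field_simp
      ring
    have h4 : 1 - y = (n - 2) / (n - 1) := by
      rw [hy]
      field_simp
      ring
    have h5 : n - 2 ≠ 0 := by linarith
    rw [h3, h4, ← Real.log_div (by positivity) (by
      apply div_ne_zero h5 hm.ne')]
    congr 1
    field_simp
  rw [h2] at h1
  have h6 : 2 * y ≤ Real.log (n / (n - 2)) := by simpa using h1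
  have h7 : (n - 1) * (2 * y) = 2 := by
    rw [hy]
    field_simp
  nlinarith

/-- The one-parameter inequality: `n log (1 + s) ≥ 2 + log (n (n - 2) s ^ 2 / 4)`. -/
theorem log_gap {n s : ℝ} (hn : 2 < n) (hs : 0 < s) :
    2 + Real.log (n * (n - 2) * s ^ 2 / 4) ≤ n * Real.log (1 + s) := by
  have hn2 : 0 < n - 2 := by linarith
  have hn0 : 0 < n := by linarith
  -- the minimiser
  set s0 := 2 / (n - 2) with hs0
  have hs0pos : 0 < s0 := by positivity
  have h1s0 : 1 + s0 = n / (n - 2) := by
    rw [hs0]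
    field_simp
    ring
  set w := (1 + s) / (1 + s0) with hw
  have hwpos : 0 < w := by positivity
  -- two tangent inequalities of the logarithm
  have hA : Real.log (s / s0 / w) ≤ s / s0 / w - 1 :=
    Real.log_le_sub_one_of_pos (by positivity)
  have hB : Real.log (1 / w) ≤ 1 / w - 1 := Real.log_le_sub_one_of_pos (by positivity)
  have hlA : Real.log (s / s0 / w) = Real.log s - Real.log s0 - Real.log w := by
    rw [Real.log_div (by positivity) hwpos.ne', Real.log_div hs.ne' hs0pos.ne']
  have hlB : Real.log (1 / w) = - Real.log w := by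
    rw [one_div, Real.log_inv]
  have hcomb : (2 / n) * (s / s0 / w - 1) + (1 - 2 / n) * (1 / w - 1) = 0 := by
    have hww : w * (1 + s0) = 1 + s := by
      rw [hw]
      field_simp
    have h2 : (n - 2) * (1 + s0) = n := by
      rw [h1s0]
      field_simp
    have h3 : s0 * (n - 2) = 2 := by
      rw [hs0]
      field_simp
    field_simp
    nlinarith
  have hmain : (2 / n) * (Real.log s - Real.log s0) ≤ Real.log w := by
    have h2n : 0 ≤ 2 / n := by positivity
    have h2n' : 0 ≤ 1 - 2 / n := by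
      rw [sub_nonneg, div_le_one hn0]
      linarith
    have h4 := mul_le_mul_of_nonneg_left hA h2n
    have h5 := mul_le_mul_of_nonneg_left hB h2n'
    rw [hlA] at h4
    rw [hlB] at h5
    nlinarith
  have hlw : Real.log w = Real.log (1 + s) - Real.log (1 + s0) := by
    rw [hw, Real.log_div (by positivity) (by positivity)]
  have hmain2 : 2 * (Real.log s - Real.log s0) ≤ n * (Real.log (1 + s) - Real.log (1 + s0)) := by
    have := mul_le_mul_of_nonneg_left hmain hn0.le
    rw [hlw] at this
    have h6 : n * (2 / n * (Real.log s - Real.log s0)) = 2 * (Real.log s - Real.log s0) := by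
      field_simp
    linarith
  have hlog0 : Real.log (1 + s0) = Real.log n - Real.log (n - 2) := by
    rw [h1s0, Real.log_div hn0.ne' hn2.ne']
  have hlogs0 : Real.log s0 = Real.log 2 - Real.log (n - 2) := by
    rw [hs0, Real.log_div two_ne_zero hn2.ne']
  have hkey := two_le_mul_log hn
  rw [Real.log_div hn0.ne' hn2.ne'] at hkey
  have hlogR : Real.log (n * (n - 2) * s ^ 2 / 4)
      = Real.log n + Real.log (n - 2) + 2 * Real.log s - 2 * Real.log 2 := by
    have h4 : (4 : ℝ) = 2 ^ 2 := by norm_num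
    rw [h4, Real.log_div (by positivity) (by positivity), Real.log_mul (by positivity) (by positivity),
      Real.log_mul hn0.ne' hn2.ne', Real.log_pow, Real.log_pow]
    push_cast
    ring
  rw [hlogR]
  rw [hlog0, hlogs0] at hmain2
  nlinarith

/-- **The static bound at `c = 2`.** -/
theorem c2_static (s : Finset A) (σ : A → ℝ) (h0 : ∀ t ∈ s, 0 ≤ σ t) :
    (∑ t ∈ s, σ t) ^ 2 - 2 * ∑ t ∈ s, σ t ^ 2
      ≤ 4 * Real.exp (-2) * ∏ t ∈ s, (1 + σ t) := by
  set a := ∑ t ∈ s, σ t with ha_def
  set x := ∑ t ∈ s, σ t ^ 2 with hx_def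
  have hprod : 0 < ∏ t ∈ s, (1 + σ t) :=
    Finset.prod_pos fun t ht => by have := h0 t ht; linarith
  by_cases hpos : a ^ 2 - 2 * x ≤ 0
  · have : 0 ≤ 4 * Real.exp (-2) * ∏ t ∈ s, (1 + σ t) := by positivity
    linarith
  rw [not_le] at hpos
  have hx0 : 0 ≤ x := Finset.sum_nonneg fun t _ => sq_nonneg _
  have ha0 : 0 ≤ a := Finset.sum_nonneg h0
  have ha : 0 < a := by
    rcases ha0.lt_or_eq with h | h
    · exact h
    · exfalso
      rw [← h] at hpos
      nlinarith
  have hxpos : 0 < x := by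
    rcases hx0.lt_or_eq with h | h
    · exact h
    · exfalso
      -- all odds vanish, so `a = 0`
      have hz : ∀ t ∈ s, σ t = 0 := by
        intro t ht
        have := (Finset.sum_eq_zero_iff_of_nonneg (fun t _ => sq_nonneg (σ t))).mp h.symm t ht
        simpa using this
      have : a = 0 := Finset.sum_eq_zero hz
      linarith
  set n := a ^ 2 / x with hn_def
  set u := x / a with hu_def
  have hn : 2 < n := by
    rw [hn_def, lt_div_iff₀ hxpos]
    linarith
  have hu : 0 < u := by positivity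
  have h1 := sum_log_ge s σ h0 ha hxpos
  have h2 := log_gap hn hu
  have h3 : n * (n - 2) * u ^ 2 / 4 = (a ^ 2 - 2 * x) / 4 := by
    rw [hn_def, hu_def]
    field_simp
  rw [h3] at h2
  have h4 : Real.log (∏ t ∈ s, (1 + σ t)) = ∑ t ∈ s, Real.log (1 + σ t) := by
    apply Real.log_prod
    intro t ht
    have := h0 t ht
    linarith
  have h5 : 2 + Real.log ((a ^ 2 - 2 * x) / 4) ≤ Real.log (∏ t ∈ s, (1 + σ t)) := by
    rw [h4]
    exact h2.trans h1
  have h6 : 0 < (a ^ 2 - 2 * x) / 4 := by linarith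
  have h7 : Real.log ((a ^ 2 - 2 * x) / 4 * Real.exp 2) ≤ Real.log (∏ t ∈ s, (1 + σ t)) := by
    rw [Real.log_mul h6.ne' (Real.exp_pos 2).ne', Real.log_exp]
    linarith
  have h8 := (Real.log_le_log_iff (by positivity) hprod).mp h7
  have h9 : Real.exp (-2) * Real.exp 2 = 1 := by
    rw [← Real.exp_add]
    simp
  have hexp := Real.exp_pos (-2)
  have h10 : (a ^ 2 - 2 * x) = 4 * Real.exp (-2) * ((a ^ 2 - 2 * x) / 4 * Real.exp 2) := by
    field_simp
    nlinarith
  rw [h10]
  exact mul_le_mul_of_nonneg_left h8 (by positivity)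

end Vale.Agent.Lib.P328.PBinf
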