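import Vale.Agent.Lib.P328.PBinf.C3

/-!
# P328, PB^inf at c ≥ 4: assembly

From the Stein formula and the inequality `c τ - (c - 1) Ghat ≥ X1 / 2`.
-/

namespace Vale.Agent.Lib.P328.PBinf

open Finset Polynomial

set_option linter.unusedSectionVars false

variable {T : Type*} [DecidableEq T] [Fintype T]

/-- The upper bound of a functional by its two central terms. -/
theorem Lam_le_two {g : ℕ → ℝ} {P : ℝ[X]} (hP : ∀ k, 0 ≤ P.coeff k) (m : ℕ)
    (hg : ∀ k, k ≠ m → k ≠ m + 1 → g k ≤ 0) :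
    Lam g P ≤ g m * P.coeff m + g (m + 1) * P.coeff (m + 1) := by
  rw [Lam_apply]
  set K : Finset ℕ := {m, m + 1} with hK
  have hmm : m ≠ m + 1 := by omega
  have h1 : ∑ k ∈ P.support, g k * P.coeff k
      ≤ ∑ k ∈ P.support ∪ K, g k * P.coeff k - ∑ k ∈ K \ P.support, g k * P.coeff k := by
    have h2 := Finset.sum_sdiff (s₁ := P.support) (s₂ := P.support ∪ K)
      (f := fun k => g k * P.coeff k) Finset.subset_union_left
    have h3 : (P.support ∪ K) \ P.support = K \ P.support := by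
      ext k
      simp only [Finset.mem_sdiff, Finset.mem_union]
      tauto
    rw [h3] at h2
    linarith
  have h4 : ∑ k ∈ P.support ∪ K, g k * P.coeff k ≤ ∑ k ∈ K, g k * P.coeff k := by
    have h5 := Finset.sum_sdiff (s₁ := K) (s₂ := P.support ∪ K)
      (f := fun k => g k * P.coeff k) Finset.subset_union_right
    have h6 : ∑ k ∈ (P.support ∪ K) \ K, g k * P.coeff k ≤ 0 := by
      refine Finset.sum_nonpos fun k hk => ?_
      have hk' := (Finset.mem_sdiff.mp hk).2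
      simp only [hK, Finset.mem_insert, Finset.mem_singleton, not_or] at hk'
      exact mul_nonpos_of_nonpos_of_nonneg (hg k hk'.1 hk'.2) (hP k)
    linarith
  have h7 : ∑ k ∈ K \ P.support, g k * P.coeff k = 0 := by
    refine Finset.sum_eq_zero fun k hk => ?_
    have : P.coeff k = 0 := by
      have := (Finset.mem_sdiff.mp hk).2
      simpa using this
    rw [this, mul_zero]
  have h8 : ∑ k ∈ K, g k * P.coeff k = g m * P.coeff m + g (m + 1) * P.coeff (m + 1) := by
    rw [hK, Finset.sum_pair hmm]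
  linarith

/-- **The general assembly**: with `b ≥ 0` the size of the Stein increment below the centre. -/
theorem final_of_numeric (p : T → ℝ) (h0 : ∀ a, 0 < p a) (h1 : ∀ a, p a < 1) (pt : T → T)
    (hne : ∀ t, pt t ≠ t) (hp : ∀ t, p (pt t) = p t) (d : ℕ)
    (hmean : ∑ t, p t = ((d + 2 : ℕ) : ℝ))
    (b : ℝ) (hb : ((d + 2 : ℕ) : ℝ) * (xi (d + 2) (d + 2) - xi (d + 2) (d + 1)) = - b)
    (hnum1 : 0 ≤ (1 - pi (d + 2)) / 2 + ((d + 2 : ℕ) : ℝ) * pi (d + 2) - 1)
    (hnum2 : 0 ≤ ((d : ℝ) + 1) * b + ((d + 2 : ℕ) : ℝ) * pi (d + 2) - 1)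
    (he1 : pi (d + 2) ≤ 1)
    (hX : (1 / 2) * ∑ t, p t ^ 3 * (law p (Yt pt t)).coeff d
      ≤ ((d + 2 : ℕ) : ℝ) * ∑ t, p t ^ 2 * (law p (Yt pt t)).coeff d
        - ((d : ℝ) + 1) * ∑ t, p t ^ 2 * (AA p t).coeff (d + 1)) :
    ((d + 2 : ℕ) : ℝ) * (GG p).coeff (d + 2) - ∑ t, p t ^ 2 * (law p (Yt pt t)).coeff d
      ≤ ((d + 2 : ℕ) : ℝ) * pi (d + 2) := by
  have hc : 0 < d + 2 := by omega
  set c : ℝ := ((d + 2 : ℕ) : ℝ) with hcdef
  have hcpos : 0 < c := by rw [hcdef]; positivity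
  set e := pi (d + 2) with he
  have h0le : ∀ a, 0 ≤ p a := fun a => (h0 a).le
  have h1le : ∀ a, p a ≤ 1 := fun a => (h1 a).le
  have hstein := stein_exact p hc hmean
  have hcentre := xi_incr_center hc
  have hbnn : 0 ≤ b := by
    have h2 := xi_incr_nonpos (c := d + 2) (k := d) hc (by omega)
    have h3 := mul_nonneg hcpos.le (neg_nonneg.mpr h2)
    have h4 : xi (d + 2) (d + 2) - xi (d + 2) (d + 1) = - b / c := by
      rw [eq_div_iff hcpos.ne']
      linarith
    rw [h4] at h2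
    have h5 : - b / c * c ≤ 0 * c := mul_le_mul_of_nonneg_right h2 hcpos.le
    have h6 : - b / c * c = - b := by field_simp
    rw [h6] at h5
    linarith
  -- the termwise bound
  have hterm : ∀ t, c * Lam (fun k => xi (d + 2) (k + 2) - xi (d + 2) (k + 1)) (AA p t)
      ≤ (1 - e) * (AA p t).coeff (d + 1) - b * (1 - p t) * (law p (Yt pt t)).coeff d := by
    intro t
    have h5 := Lam_le_two (g := fun k => xi (d + 2) (k + 2) - xi (d + 2) (k + 1)) (P := AA p t)
      (AA_coeff_nonneg p h0le h1le t) d (fun k hk hk' => xi_incr_nonpos hc (by omega))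
    have h6 := mul_le_mul_of_nonneg_left h5 hcpos.le
    have h7 : c * ((xi (d + 2) (d + 2) - xi (d + 2) (d + 1)) * (AA p t).coeff d
        + (xi (d + 2) (d + 1 + 2) - xi (d + 2) (d + 1 + 1)) * (AA p t).coeff (d + 1))
        = - b * (AA p t).coeff d + (1 - e) * (AA p t).coeff (d + 1) := by
      have h8 : d + 1 + 2 = d + 2 + 1 := by omega
      have h9 : d + 1 + 1 = d + 2 := by omega
      rw [h8, h9]
      have h10 := hcentre
      calc c * ((xi (d + 2) (d + 2) - xi (d + 2) (d + 1)) * (AA p t).coeff d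
            + (xi (d + 2) (d + 2 + 1) - xi (d + 2) (d + 2)) * (AA p t).coeff (d + 1))
          = (c * (xi (d + 2) (d + 2) - xi (d + 2) (d + 1))) * (AA p t).coeff d
            + (c * (xi (d + 2) (d + 2 + 1) - xi (d + 2) (d + 2))) * (AA p t).coeff (d + 1) := by ring
        _ = _ := by rw [hb, h10]
    rw [h7] at h6
    have h11 : (AA p t).coeff d ≥ (1 - p t) * (law p (Yt pt t)).coeff d := by
      rw [AA_eq_mul p pt hne hp t]
      cases d with
      | zero => rw [coeff_uu_mul_zero]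
      | succ d =>
        rw [coeff_uu_mul_succ]
        have := law_coeff_nonneg p (Yt pt t) (fun a _ => h0le a) (fun a _ => h1le a) d
        have := mul_nonneg (h0le t) this
        linarith
    have h12 := mul_le_mul_of_nonneg_left h11 hbnn
    nlinarith
  have hT : ∑ t, p t ^ 2 * (c * Lam (fun k => xi (d + 2) (k + 2) - xi (d + 2) (k + 1)) (AA p t))
      ≤ ∑ t, p t ^ 2 * ((1 - e) * (AA p t).coeff (d + 1) - b * (1 - p t) * (law p (Yt pt t)).coeff d) :=
    Finset.sum_le_sum fun t _ => mul_le_mul_of_nonneg_left (hterm t) (by positivity)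
  have hmain : c * ((GG p).coeff (d + 2) - e)
      = ∑ t, p t ^ 2 * (c * Lam (fun k => xi (d + 2) (k + 2) - xi (d + 2) (k + 1)) (AA p t)) := by
    rw [hstein, Finset.mul_sum]
    exact Finset.sum_congr rfl fun t _ => by ring
  set τ := ∑ t, p t ^ 2 * (law p (Yt pt t)).coeff d with hτ
  set X1 := ∑ t, p t ^ 3 * (law p (Yt pt t)).coeff d with hX1
  set G1 := ∑ t, p t ^ 2 * (AA p t).coeff (d + 1) with hG1
  have hsplit : ∑ t, p t ^ 2 * ((1 - e) * (AA p t).coeff (d + 1)
      - b * (1 - p t) * (law p (Yt pt t)).coeff d) = (1 - e) * G1 - b * (τ - X1) := by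
    rw [hG1, hτ, hX1, Finset.mul_sum, ← Finset.sum_sub_distrib, Finset.mul_sum,
      ← Finset.sum_sub_distrib]
    exact Finset.sum_congr rfl fun t _ => by ring
  rw [hsplit, ← hmain] at hT
  have hX1nn : 0 ≤ X1 := Finset.sum_nonneg fun t _ =>
    mul_nonneg (pow_nonneg (h0le t) 3) (law_coeff_nonneg p _ (fun a _ => h0le a) (fun a _ => h1le a) d)
  have hYnn : 0 ≤ τ - X1 := by
    rw [hτ, hX1, ← Finset.sum_sub_distrib]
    refine Finset.sum_nonneg fun t _ => ?_
    have h2 := law_coeff_nonneg p (Yt pt t) (fun a _ => h0le a) (fun a _ => h1le a) d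
    have h3 : p t ^ 2 * (law p (Yt pt t)).coeff d - p t ^ 3 * (law p (Yt pt t)).coeff d
        = p t ^ 2 * (1 - p t) * (law p (Yt pt t)).coeff d := by ring
    rw [h3]
    have := h1le t
    exact mul_nonneg (mul_nonneg (by positivity) (by linarith)) h2
  have hq : 0 ≤ 1 - e := by linarith
  have hXq := mul_le_mul_of_nonneg_left hX hq
  set D : ℝ := (d : ℝ) + 1 with hD
  have hDpos : 0 < D := by rw [hD]; positivity
  have hcD : c = D + 1 := by
    rw [hcdef, hD]
    push_cast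
    ring
  -- `D * c (g - e) ≤ D (1 - e) G1 - D b Y`
  have h4 := mul_le_mul_of_nonneg_left hT hDpos.le
  have t1 := mul_nonneg hnum1 hX1nn
  have t2 := mul_nonneg hnum2 hYnn
  have hgoal : D * (c * (GG p).coeff (d + 2) - τ) ≤ D * (c * e) := by
    have h5 : D * (c * ((GG p).coeff (d + 2) - e)) ≤ D * ((1 - e) * G1 - b * (τ - X1)) := h4
    nlinarith
  exact le_of_mul_le_mul_left hgoal hDpos

theorem exp_pow_le {n : ℕ} : Real.exp n ≤ 2.72 ^ n := by
  have h1 := Real.exp_one_lt_d9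
  rw [← mul_one (n : ℝ), Real.exp_nat_mul]
  exact pow_le_pow_left₀ (Real.exp_pos 1).le (by linarith) n

theorem pi_lower_of {c : ℕ} (hc : 0 < c) {w : ℝ} (hw : 2.72 ^ c * w ≤ (c : ℝ) ^ c / (c.factorial : ℝ)) :
    w ≤ pi c := by
  unfold pi qq
  have h1 : Real.exp (-(c : ℝ)) * Real.exp c = 1 := by
    rw [← Real.exp_add]
    simp
  have h2 : Real.exp (c : ℝ) ≤ 2.72 ^ c := exp_pow_le
  have hpos := Real.exp_pos (c : ℝ)
  have hpos' := Real.exp_pos (-(c : ℝ))
  have hw3 : Real.exp (c : ℝ) * w ≤ (c : ℝ) ^ c / (c.factorial : ℝ) := by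
    by_cases hw0 : 0 ≤ w
    · exact (mul_le_mul_of_nonneg_right h2 hw0).trans hw
    · have h3 : 0 ≤ (c : ℝ) ^ c / (c.factorial : ℝ) := by positivity
      have h4 : Real.exp (c : ℝ) * w ≤ 0 :=
        mul_nonpos_of_nonneg_of_nonpos hpos.le (by linarith)
      linarith
  calc w = Real.exp (-(c : ℝ)) * (Real.exp c * w) := by
        rw [← mul_assoc, h1, one_mul]
    _ ≤ Real.exp (-(c : ℝ)) * ((c : ℝ) ^ c / (c.factorial : ℝ)) :=
        mul_le_mul_of_nonneg_left hw3 hpos'.le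
    _ = _ := by ring

theorem pi_le_one {c : ℕ} (hc : 0 < c) : pi c ≤ 1 := by
  have h := qq_hasSum c
  have h2 : qq c c ≤ 1 := by
    have h3 := le_hasSum h c (fun j _ => (qq_pos hc j).le)
    exact h3
  exact h2

/-- The Stein increment below the centre at `c = 4`. -/
theorem xi4_value : (4 : ℝ) * (xi 4 4 - xi 4 3) = - (19 * pi 4 / 32) := by
  have h : (0 : ℕ) < 4 := by norm_num
  have e0 := xi_eqn h 0
  have e1 := xi_eqn h 1
  have e2 := xi_eqn h 2
  have e3 := xi_eqn h 3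
  norm_num at e0 e1 e2 e3
  linarith

theorem xi5_value : (5 : ℝ) * (xi 5 5 - xi 5 4) = - (389 * pi 5 / 625) := by
  have h : (0 : ℕ) < 5 := by norm_num
  have e0 := xi_eqn h 0
  have e1 := xi_eqn h 1
  have e2 := xi_eqn h 2
  have e3 := xi_eqn h 3
  have e4 := xi_eqn h 4
  norm_num at e0 e1 e2 e3 e4
  linarith

theorem xi6_value : (6 : ℝ) * (xi 6 6 - xi 6 5) = - (5016 * pi 6 / 7776) := by
  have h : (0 : ℕ) < 6 := by norm_num
  have e0 := xi_eqn h 0
  have e1 := xi_eqn h 1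
  have e2 := xi_eqn h 2
  have e3 := xi_eqn h 3
  have e4 := xi_eqn h 4
  have e5 := xi_eqn h 5
  norm_num at e0 e1 e2 e3 e4 e5
  linarith

/-- **PB^inf for `c ≥ 4`, given the covariance input.** -/
theorem cge4_final (p : T → ℝ) (h0 : ∀ a, 0 < p a) (h1 : ∀ a, p a < 1) (pt : T → T)
    (hne : ∀ t, pt t ≠ t) (hp : ∀ t, p (pt t) = p t) (d : ℕ) (hd : 2 ≤ d)
    (hmean : ∑ t, p t = ((d + 2 : ℕ) : ℝ))
    (hX : (1 / 2) * ∑ t, p t ^ 3 * (law p (Yt pt t)).coeff d
      ≤ ((d + 2 : ℕ) : ℝ) * ∑ t, p t ^ 2 * (law p (Yt pt t)).coeff d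
        - ((d : ℝ) + 1) * ∑ t, p t ^ 2 * (AA p t).coeff (d + 1)) :
    ((d + 2 : ℕ) : ℝ) * (GG p).coeff (d + 2) - ∑ t, p t ^ 2 * (law p (Yt pt t)).coeff d
      ≤ ((d + 2 : ℕ) : ℝ) * pi (d + 2) := by
  have hc : 0 < d + 2 := by omega
  have he1 : pi (d + 2) ≤ 1 := pi_le_one hc
  have hepos := pi_pos hc
  by_cases h7 : 7 ≤ d + 2
  · have hce := c_mul_pi_ge_one h7
    have hbnn : 0 ≤ - (((d + 2 : ℕ) : ℝ) * (xi (d + 2) (d + 2) - xi (d + 2) (d + 1))) := by
      have h2 := xi_incr_nonpos (c := d + 2) (k := d) hc (by omega)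
      have h3 : (0 : ℝ) ≤ ((d + 2 : ℕ) : ℝ) := by positivity
      nlinarith
    refine final_of_numeric p h0 h1 pt hne hp d hmean _ (neg_neg _).symm ?_ ?_ he1 hX
    · linarith
    · have : 0 ≤ ((d : ℝ) + 1) * - (((d + 2 : ℕ) : ℝ) * (xi (d + 2) (d + 2) - xi (d + 2) (d + 1))) :=
        mul_nonneg (by positivity) hbnn
      linarith
  · have hcases : d = 2 ∨ d = 3 ∨ d = 4 := by omega
    rcases hcases with rfl | rfl | rfl
    · have hl : (0.18 : ℝ) ≤ pi 4 := pi_lower_of (by norm_num) (by norm_num [Nat.factorial])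
      refine final_of_numeric p h0 h1 pt hne hp 2 hmean (19 * pi 4 / 32) ?_ ?_ ?_ he1 hX
      · exact_mod_cast xi4_value
      · push_cast; linarith
      · push_cast; linarith
    · have hl : (0.14 : ℝ) ≤ pi 5 := pi_lower_of (by norm_num) (by norm_num [Nat.factorial])
      refine final_of_numeric p h0 h1 pt hne hp 3 hmean (389 * pi 5 / 625) ?_ ?_ ?_ he1 hX
      · exact_mod_cast xi5_value
      · push_cast; linarith
      · push_cast; linarith
    · have hl : (0.12 : ℝ) ≤ pi 6 := pi_lower_of (by norm_num) (by norm_num [Nat.factorial])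
      refine final_of_numeric p h0 h1 pt hne hp 4 hmean (5016 * pi 6 / 7776) ?_ ?_ ?_ he1 hX
      · exact_mod_cast xi6_value
      · push_cast; linarith
      · push_cast; linarith

end Vale.Agent.Lib.P328.PBinf
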