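import Vale.Agent.Lib.P328.PBinf.Stein

/-!
# P328, PB^inf: generic facts on the law of a sum of independent Bernoulli trials

`law p S = ∏ a ∈ S, uu (p a)`, `uu x = (1 - x) + x X`. Nonnegativity, the two-sided log-concavity,
the Euler identity, total mass and mean, Darroch's mode bound, the tail bound of the ratio.
-/

namespace Vale.Agent.Lib.P328.PBinf

open Finset Polynomial

set_option linter.unusedSectionVars false

variable {A : Type*} [DecidableEq A]

/-- The law of the sum of the trials in `S`, as a polynomial. -/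
noncomputable def law (p : A → ℝ) (S : Finset A) : ℝ[X] := ∏ a ∈ S, uu (p a)

theorem law_empty (p : A → ℝ) : law p ∅ = 1 := by simp [law]

theorem law_insert (p : A → ℝ) {S : Finset A} {a : A} (ha : a ∉ S) :
    law p (insert a S) = uu (p a) * law p S := by
  simp [law, Finset.prod_insert ha]

theorem coeff_uu_mul_zero (x : ℝ) (P : ℝ[X]) :
    (uu x * P).coeff 0 = (1 - x) * P.coeff 0 := by
  unfold uu
  rw [add_mul, mul_assoc, coeff_add, coeff_C_mul, coeff_C_mul, mul_comm X, coeff_mul_X_zero]
  ring

theorem coeff_uu_mul_succ (x : ℝ) (P : ℝ[X]) (k : ℕ) :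
    (uu x * P).coeff (k + 1) = (1 - x) * P.coeff (k + 1) + x * P.coeff k := by
  unfold uu
  rw [add_mul, mul_assoc, coeff_add, coeff_C_mul, coeff_C_mul, mul_comm X, coeff_mul_X]

/-- The shifted coefficient, with value `0` at index `0`. -/
noncomputable def sh (P : ℝ[X]) : ℕ → ℝ
  | 0 => 0
  | k + 1 => P.coeff k

theorem law_coeff_nonneg (p : A → ℝ) (S : Finset A) (h0 : ∀ a ∈ S, 0 ≤ p a) (h1 : ∀ a ∈ S, p a ≤ 1)
    (k : ℕ) : 0 ≤ (law p S).coeff k := by
  induction S using Finset.induction_on generalizing k with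
  | empty =>
    simp only [law_empty, coeff_one]
    split_ifs <;> norm_num
  | insert a S ha ih =>
    have h0' : ∀ b ∈ S, 0 ≤ p b := fun b hb => h0 b (Finset.mem_insert_of_mem hb)
    have h1' : ∀ b ∈ S, p b ≤ 1 := fun b hb => h1 b (Finset.mem_insert_of_mem hb)
    have ha0 := h0 a (Finset.mem_insert_self a S)
    have ha1 := h1 a (Finset.mem_insert_self a S)
    rw [law_insert p ha]
    cases k with
    | zero =>
      rw [coeff_uu_mul_zero]
      exact mul_nonneg (by linarith) (ih h0' h1' 0)
    | succ k =>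
      rw [coeff_uu_mul_succ]
      exact add_nonneg (mul_nonneg (by linarith) (ih h0' h1' _)) (mul_nonneg ha0 (ih h0' h1' _))

theorem sh_nonneg (p : A → ℝ) (S : Finset A) (h0 : ∀ a ∈ S, 0 ≤ p a) (h1 : ∀ a ∈ S, p a ≤ 1)
    (k : ℕ) : 0 ≤ sh (law p S) k := by
  cases k with
  | zero => simp [sh]
  | succ k => exact law_coeff_nonneg p S h0 h1 k

theorem sh_succ_succ (x : ℝ) (P : ℝ[X]) (k : ℕ) :
    sh (uu x * P) (k + 1) = (1 - x) * sh P (k + 1) + x * sh P k := by
  cases k with
  | zero => simp only [sh, coeff_uu_mul_zero, mul_zero, add_zero]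
  | succ k => simp only [sh, coeff_uu_mul_succ]

/-- Total positivity of order two of the shifted law: the form needed in the induction. -/
theorem sh_tp2 (p : A → ℝ) (S : Finset A) (h0 : ∀ a ∈ S, 0 ≤ p a) (h1 : ∀ a ∈ S, p a ≤ 1) :
    ∀ i j : ℕ, i ≤ j → sh (law p S) i * sh (law p S) (j + 1) ≤ sh (law p S) (i + 1) * sh (law p S) j := by
  induction S using Finset.induction_on with
  | empty =>
    intro i j hij
    have hsh : ∀ k, sh (law p (∅ : Finset A)) k = if k = 1 then 1 else 0 := by
      intro k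
      cases k with
      | zero => simp [sh]
      | succ k =>
        simp only [sh, law_empty, coeff_one]
        by_cases hk : k = 0 <;> simp [hk]
    simp only [hsh]
    split_ifs <;> first | omega | norm_num
  | insert a S ha ih =>
    have h0' : ∀ b ∈ S, 0 ≤ p b := fun b hb => h0 b (Finset.mem_insert_of_mem hb)
    have h1' : ∀ b ∈ S, p b ≤ 1 := fun b hb => h1 b (Finset.mem_insert_of_mem hb)
    have ha0 := h0 a (Finset.mem_insert_self a S)
    have ha1 := h1 a (Finset.mem_insert_self a S)
    have hIH := ih h0' h1'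
    have hnn := sh_nonneg p S h0' h1'
    intro i j hij
    rw [law_insert p ha]
    cases i with
    | zero =>
      have h2 : 0 ≤ sh (uu (p a) * law p S) 1 * sh (uu (p a) * law p S) j := by
        rw [← law_insert p ha]
        exact mul_nonneg (sh_nonneg p _ h0 h1 _) (sh_nonneg p _ h0 h1 _)
      simpa [sh] using h2
    | succ i =>
      cases j with
      | zero => omega
      | succ j =>
        have hij' : i ≤ j := by omega
        rw [sh_succ_succ, sh_succ_succ, sh_succ_succ, sh_succ_succ]
        set P := law p S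
        have e1 := hIH (i + 1) (j + 1) (by omega)
        have e2 := hIH i j hij'
        have e3 : sh P i * sh P (j + 2) ≤ sh P (i + 2) * sh P j := by
          rcases Nat.lt_or_ge i j with h | h
          · have f1 := hIH i (j + 1) (by omega)
            have f2 := hIH (i + 1) j (by omega)
            exact f1.trans f2
          · have : i = j := by omega
            subst this
            exact le_of_eq (mul_comm _ _)
        have hq : 0 ≤ 1 - p a := by linarith
        have e1' := mul_le_mul_of_nonneg_left e1 (mul_nonneg hq hq)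
        have e2' := mul_le_mul_of_nonneg_left e2 (mul_nonneg ha0 ha0)
        have e3' := mul_le_mul_of_nonneg_left e3 (mul_nonneg hq ha0)
        nlinarith

/-- Log-concavity in the two-index form: `a_i a_{j+1} ≤ a_{i+1} a_j`, `i ≤ j`. -/
theorem law_tp2 (p : A → ℝ) (S : Finset A) (h0 : ∀ a ∈ S, 0 ≤ p a) (h1 : ∀ a ∈ S, p a ≤ 1)
    {i j : ℕ} (hij : i ≤ j) :
    (law p S).coeff i * (law p S).coeff (j + 1) ≤ (law p S).coeff (i + 1) * (law p S).coeff j :=
  sh_tp2 p S h0 h1 (i + 1) (j + 1) (by omega)

/-- The derivative of the law. -/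
theorem law_derivative (p : A → ℝ) (S : Finset A) :
    derivative (law p S) = ∑ s ∈ S, C (p s) * law p (S.erase s) := by
  unfold law
  rw [Polynomial.derivative_prod_finset]
  refine Finset.sum_congr rfl fun s _ => ?_
  rw [derivative_uu, mul_comm]

/-- Euler: `(k + 1) a_{k + 1} = ∑ p_s a^{(s)}_k`. -/
theorem law_euler (p : A → ℝ) (S : Finset A) (k : ℕ) :
    ((k : ℝ) + 1) * (law p S).coeff (k + 1) = ∑ s ∈ S, p s * (law p (S.erase s)).coeff k := by
  have h := congrArg (fun P => P.coeff k) (law_derivative p S)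
  simp only [coeff_derivative, finsetSum_coeff, coeff_C_mul] at h
  rw [← h]
  ring

theorem law_eval_one (p : A → ℝ) (S : Finset A) : (law p S).eval 1 = 1 := by
  unfold law
  rw [Polynomial.eval_prod]
  exact Finset.prod_eq_one fun a _ => uu_eval_one (p a)

theorem law_natDegree_le (p : A → ℝ) (S : Finset A) : (law p S).natDegree ≤ S.card := by
  induction S using Finset.induction_on with
  | empty => simp [law_empty]
  | insert a S ha ih =>
    rw [law_insert p ha, Finset.card_insert_of_notMem ha]
    refine (Polynomial.natDegree_mul_le).trans ?_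
    have h1 : (uu (p a)).natDegree ≤ 1 := by
      unfold uu
      compute_degree
    omega

/-- Total mass. -/
theorem law_sum_coeff (p : A → ℝ) (S : Finset A) {N : ℕ} (hN : S.card < N) :
    ∑ k ∈ range N, (law p S).coeff k = 1 := by
  have h := law_eval_one p S
  rw [Polynomial.eval_eq_sum_range' (lt_of_le_of_lt (law_natDegree_le p S) hN)] at h
  simpa using h

theorem law_derivative_eval_one (p : A → ℝ) (S : Finset A) :
    (derivative (law p S)).eval 1 = ∑ s ∈ S, p s := by
  rw [law_derivative, Polynomial.eval_finsetSum]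
  refine Finset.sum_congr rfl fun s _ => ?_
  simp [law_eval_one]

/-- The mean. -/
theorem law_sum_mul_coeff (p : A → ℝ) (S : Finset A) {N : ℕ} (hN : S.card < N) :
    ∑ k ∈ range N, (k : ℝ) * (law p S).coeff k = ∑ s ∈ S, p s := by
  rw [← law_derivative_eval_one p S]
  have hdeg : (derivative (law p S)).natDegree < N := by
    have := Polynomial.natDegree_derivative_le (law p S)
    have h2 := law_natDegree_le p S
    omega
  rw [Polynomial.eval_eq_sum_range' hdeg]
  simp only [one_pow, mul_one, coeff_derivative]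
  cases N with
  | zero => omega
  | succ N =>
    rw [Finset.sum_range_succ' _ N, Finset.sum_range_succ _ N]
    have hz : (law p S).coeff (N + 1) = 0 :=
      Polynomial.coeff_eq_zero_of_natDegree_lt (by have := law_natDegree_le p S; omega)
    simp only [hz]
    simp only [Nat.cast_zero, zero_mul, add_zero]
    refine Finset.sum_congr rfl fun k _ => ?_
    push_cast
    ring

theorem law_erase (p : A → ℝ) {S : Finset A} {s : A} (hs : s ∈ S) :
    law p S = uu (p s) * law p (S.erase s) := by
  rw [← law_insert p (Finset.notMem_erase s S), Finset.insert_erase hs]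

/-- Positivity of the coefficients within the range. -/
theorem law_coeff_pos (p : A → ℝ) (S : Finset A) (h0 : ∀ a ∈ S, 0 < p a) (h1 : ∀ a ∈ S, p a < 1)
    {k : ℕ} (hk : k ≤ S.card) : 0 < (law p S).coeff k := by
  induction S using Finset.induction_on generalizing k with
  | empty =>
    have : k = 0 := by simpa using hk
    subst this
    simp [law_empty]
  | insert a S ha ih =>
    have h0' : ∀ b ∈ S, 0 < p b := fun b hb => h0 b (Finset.mem_insert_of_mem hb)
    have h1' : ∀ b ∈ S, p b < 1 := fun b hb => h1 b (Finset.mem_insert_of_mem hb)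
    have ha0 := h0 a (Finset.mem_insert_self a S)
    have ha1 := h1 a (Finset.mem_insert_self a S)
    rw [Finset.card_insert_of_notMem ha] at hk
    rw [law_insert p ha]
    have hnn := law_coeff_nonneg p S (fun b hb => (h0' b hb).le) (fun b hb => (h1' b hb).le)
    have hq : 0 < 1 - p a := by linarith
    cases k with
    | zero =>
      rw [coeff_uu_mul_zero]
      exact mul_pos hq (ih h0' h1' (by omega))
    | succ k =>
      rw [coeff_uu_mul_succ]
      have h2 : 0 < (law p S).coeff k := ih h0' h1' (by omega)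
      have h3 := hnn (k + 1)
      have h4 := mul_pos ha0 h2
      have h5 := mul_nonneg hq.le h3
      linarith

/-- The exchange inequality `a_{k+1} a_k ≤ B_k (p a_k + q a_{k+1})` behind Darroch's bound. -/
theorem darroch_exchange (p : A → ℝ) (S : Finset A) (h0 : ∀ a ∈ S, 0 ≤ p a) (h1 : ∀ a ∈ S, p a ≤ 1)
    {s : A} (hs : s ∈ S) (k : ℕ) :
    (law p S).coeff (k + 1) * (law p S).coeff k
      ≤ (law p (S.erase s)).coeff k
        * (p s * (law p S).coeff k + (1 - p s) * (law p S).coeff (k + 1)) := by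
  have h0' : ∀ b ∈ S.erase s, 0 ≤ p b := fun b hb => h0 b (Finset.mem_of_mem_erase hb)
  have h1' : ∀ b ∈ S.erase s, p b ≤ 1 := fun b hb => h1 b (Finset.mem_of_mem_erase hb)
  have hp0 := h0 s hs
  have hp1 := h1 s hs
  set B := law p (S.erase s) with hB
  have hrel : law p S = uu (p s) * B := law_erase p hs
  have hk1 : (law p S).coeff (k + 1) = (1 - p s) * B.coeff (k + 1) + p s * B.coeff k := by
    rw [hrel, coeff_uu_mul_succ]
  -- `B_{k+1} a_k ≤ B_k a_{k+1}`
  have hex : B.coeff (k + 1) * (law p S).coeff k ≤ B.coeff k * (law p S).coeff (k + 1) := by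
    cases k with
    | zero =>
      have h2 : (law p S).coeff 0 = (1 - p s) * B.coeff 0 := by rw [hrel, coeff_uu_mul_zero]
      rw [hk1, h2]
      have := law_coeff_nonneg p _ h0' h1' 0
      nlinarith [mul_nonneg hp0 (mul_nonneg this this)]
    | succ k =>
      have h2 : (law p S).coeff (k + 1) = (1 - p s) * B.coeff (k + 1) + p s * B.coeff k := by
        rw [hrel, coeff_uu_mul_succ]
      rw [hk1, h2]
      have htp := law_tp2 p (S.erase s) h0' h1' (Nat.le_succ k)
      have := mul_le_mul_of_nonneg_left htp hp0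
      nlinarith
  have hq : 0 ≤ 1 - p s := by linarith
  have h3 := mul_le_mul_of_nonneg_left hex hq
  rw [hk1] at h3 ⊢
  nlinarith

/-- **Darroch**: if the mean is at least `k + 1` then `a_k ≤ a_{k+1}` (strict trials). -/
theorem darroch_mono (p : A → ℝ) (S : Finset A) (h0 : ∀ a ∈ S, 0 < p a) (h1 : ∀ a ∈ S, p a < 1)
    {k : ℕ} (hk : (k : ℝ) + 1 ≤ ∑ s ∈ S, p s) :
    (law p S).coeff k ≤ (law p S).coeff (k + 1) := by
  by_contra hlt
  rw [not_le] at hlt
  have h0le : ∀ a ∈ S, 0 ≤ p a := fun b hb => (h0 b hb).le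
  have h1le : ∀ a ∈ S, p a ≤ 1 := fun b hb => (h1 b hb).le
  -- `k + 1 ≤ |S|`
  have hcard : k + 1 ≤ S.card := by
    have h2 : ∑ s ∈ S, p s ≤ ∑ s ∈ S, (1 : ℝ) := Finset.sum_le_sum h1le
    simp only [sum_const, nsmul_eq_mul, mul_one] at h2
    have : ((k : ℝ) + 1) ≤ S.card := hk.trans h2
    exact_mod_cast this
  have hpos1 : 0 < (law p S).coeff (k + 1) := law_coeff_pos p S h0 h1 hcard
  have hposk : 0 < (law p S).coeff k := hpos1.trans hlt
  set a0 := (law p S).coeff k
  set a1 := (law p S).coeff (k + 1)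
  have hB : ∀ s ∈ S, a1 ≤ (law p (S.erase s)).coeff k := by
    intro s hs
    have hex := darroch_exchange p S h0le h1le hs k
    have hp0 := h0 s hs
    have hp1 := h1 s hs
    have hw : p s * a0 + (1 - p s) * a1 ≤ a0 := by nlinarith
    have hBnn : 0 ≤ (law p (S.erase s)).coeff k :=
      law_coeff_nonneg p _ (fun b hb => h0le b (Finset.mem_of_mem_erase hb))
        (fun b hb => h1le b (Finset.mem_of_mem_erase hb)) k
    have h3 := mul_le_mul_of_nonneg_left hw hBnn
    have h4 : a1 * a0 ≤ (law p (S.erase s)).coeff k * a0 := hex.trans h3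
    exact le_of_mul_le_mul_right h4 hposk
  have hsne : S.Nonempty := Finset.card_pos.mp (by omega)
  obtain ⟨s0, hs0⟩ := hsne
  -- strict at one trial
  have hB0 : a1 < (law p (S.erase s0)).coeff k := by
    have hex := darroch_exchange p S h0le h1le hs0 k
    have hp0 := h0 s0 hs0
    have hp1 := h1 s0 hs0
    have hw : p s0 * a0 + (1 - p s0) * a1 < a0 := by nlinarith
    have hBnn : 0 ≤ (law p (S.erase s0)).coeff k :=
      law_coeff_nonneg p _ (fun b hb => h0le b (Finset.mem_of_mem_erase hb))
        (fun b hb => h1le b (Finset.mem_of_mem_erase hb)) k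
    have hBpos : 0 < (law p (S.erase s0)).coeff k := by
      rcases hBnn.lt_or_eq with h | h
      · exact h
      · rw [← h] at hex
        have := mul_pos hpos1 hposk
        linarith
    have h3 := mul_lt_mul_of_pos_left hw hBpos
    have h4 : a1 * a0 < (law p (S.erase s0)).coeff k * a0 := lt_of_le_of_lt hex h3
    exact lt_of_mul_lt_mul_right h4 hposk.le
  have heul := law_euler p S k
  have hsum : (∑ s ∈ S, p s) * a1 < ∑ s ∈ S, p s * (law p (S.erase s)).coeff k := by
    rw [Finset.sum_mul]
    apply Finset.sum_lt_sum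
    · intro s hs
      exact mul_le_mul_of_nonneg_left (hB s hs) (h0le s hs)
    · exact ⟨s0, hs0, mul_lt_mul_of_pos_left hB0 (h0 s0 hs0)⟩
  have h5 : ((k : ℝ) + 1) * a1 ≤ (∑ s ∈ S, p s) * a1 := mul_le_mul_of_nonneg_right hk hpos1.le
  rw [← heul] at hsum
  linarith

theorem shift_sum (a : ℕ → ℝ) (hnn : ∀ j, 0 ≤ a j) (k N₀ : ℕ) :
    ∑ j ∈ range (N₀ + 1), (j : ℝ) * a (k + j) ≤ ∑ j ∈ range (N₀ + 1), ((j : ℝ) + 1) * a (k + 1 + j) := by
  rw [Finset.sum_range_succ', Finset.sum_range_succ _ N₀]
  simp only [Nat.cast_zero, zero_mul, add_zero]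
  have h7 : 0 ≤ ((N₀ : ℝ) + 1) * a (k + 1 + N₀) := mul_nonneg (by positivity) (hnn _)
  have h8 : ∑ j ∈ range N₀, (((j + 1 : ℕ) : ℝ)) * a (k + (j + 1))
      = ∑ j ∈ range N₀, ((j : ℝ) + 1) * a (k + 1 + j) := by
    refine Finset.sum_congr rfl fun j _ => ?_
    push_cast
    rw [show k + (j + 1) = k + 1 + j by omega]
  rw [h8]
  linarith

/-- **Tail bound of the ratio**: for mean `≥ k`, `(mean - k) a_k ≤ (mean - k + 1) a_{k+1}`. -/
theorem law_tail_ratio (p : A → ℝ) (S : Finset A) (h0 : ∀ a ∈ S, 0 ≤ p a) (h1 : ∀ a ∈ S, p a ≤ 1)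
    {k : ℕ} (hk : (k : ℝ) ≤ ∑ s ∈ S, p s) :
    ((∑ s ∈ S, p s) - k) * (law p S).coeff k
      ≤ ((∑ s ∈ S, p s) - k + 1) * (law p S).coeff (k + 1) := by
  set a := fun j => (law p S).coeff j with ha
  have hnn : ∀ j, 0 ≤ a j := law_coeff_nonneg p S h0 h1
  set N := S.card + 2 with hN
  set M := ∑ j ∈ range N, ((j : ℝ) + 1) * a (k + 1 + j) with hM
  -- the mean is at most `k + M`
  have hmass : ∑ j ∈ range (k + 1 + N), a j = 1 := law_sum_coeff p S (by omega)
  have hmean : ∑ j ∈ range (k + 1 + N), (j : ℝ) * a j = ∑ s ∈ S, p s :=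
    law_sum_mul_coeff p S (by omega)
  have hM1 : (∑ s ∈ S, p s) - k ≤ M := by
    have h2 : (∑ s ∈ S, p s) - k = ∑ j ∈ range (k + 1 + N), ((j : ℝ) - k) * a j := by
      have h3 : ∑ j ∈ range (k + 1 + N), ((j : ℝ) - k) * a j
          = ∑ j ∈ range (k + 1 + N), (j : ℝ) * a j - k * ∑ j ∈ range (k + 1 + N), a j := by
        rw [Finset.mul_sum, ← Finset.sum_sub_distrib]
        exact Finset.sum_congr rfl fun j _ => by ring
      rw [h3, hmean, hmass]
      ring
    rw [h2, Finset.sum_range_add]
    have h4 : ∑ j ∈ range (k + 1), ((j : ℝ) - k) * a j ≤ 0 := by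
      apply Finset.sum_nonpos
      intro j hj
      have : (j : ℝ) ≤ k := by
        have := Finset.mem_range.mp hj
        exact_mod_cast (by omega : j ≤ k)
      exact mul_nonpos_of_nonpos_of_nonneg (by linarith) (hnn j)
    have h5 : ∑ j ∈ range N, (((k + 1 + j : ℕ) : ℝ) - k) * a (k + 1 + j) = M := by
      refine Finset.sum_congr rfl fun j _ => ?_
      push_cast
      ring
    rw [h5]
    linarith
  have hMnn : 0 ≤ M := Finset.sum_nonneg fun j _ => mul_nonneg (by positivity) (hnn _)
  -- the exchange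
  have hex : a k * M ≤ a (k + 1) * ∑ j ∈ range N, ((j : ℝ) + 1) * a (k + j) := by
    rw [hM, Finset.mul_sum, Finset.mul_sum]
    refine Finset.sum_le_sum fun j _ => ?_
    have htp : a k * a (k + j + 1) ≤ a (k + 1) * a (k + j) :=
      law_tp2 p S h0 h1 (by omega : k ≤ k + j)
    have h2 : k + 1 + j = k + j + 1 := by omega
    rw [h2]
    have h3 : (0 : ℝ) ≤ (j : ℝ) + 1 := by positivity
    have := mul_le_mul_of_nonneg_left htp h3
    linarith
  have hbound : ∑ j ∈ range N, ((j : ℝ) + 1) * a (k + j) ≤ 1 + M := by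
    have h2 : ∑ j ∈ range N, ((j : ℝ) + 1) * a (k + j)
        = ∑ j ∈ range N, a (k + j) + ∑ j ∈ range N, (j : ℝ) * a (k + j) := by
      rw [← Finset.sum_add_distrib]
      exact Finset.sum_congr rfl fun j _ => by ring
    have h3 : ∑ j ∈ range N, a (k + j) ≤ 1 := by
      have h4 : ∑ j ∈ range (k + N), a j = 1 := law_sum_coeff p S (by omega)
      rw [Finset.sum_range_add] at h4
      have h5 : 0 ≤ ∑ j ∈ range k, a j := Finset.sum_nonneg fun j _ => hnn j
      linarith
    have h6 : ∑ j ∈ range N, (j : ℝ) * a (k + j) ≤ M := by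
      have hN' : N = (S.card + 1) + 1 := by omega
      rw [hM, hN']
      exact shift_sum a hnn k _
    rw [h2]
    linarith
  have ha1 := hnn (k + 1)
  have hfinal : a k * M ≤ a (k + 1) * (1 + M) :=
    hex.trans (mul_le_mul_of_nonneg_left hbound ha1)
  set d := (∑ s ∈ S, p s) - k with hd
  have hd0 : 0 ≤ d := by rw [hd]; linarith
  show d * a k ≤ (d + 1) * a (k + 1)
  rcases le_or_gt (a k) (a (k + 1)) with h | h
  · have := mul_le_mul_of_nonneg_left h hd0
    nlinarith
  · nlinarith

end Vale.Agent.Lib.P328.PBinf
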