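import Mathlib

/-!
# P328, Poisson bound `PB^inf`: the Stein part (trial level)

`T` is a finite set of independent Bernoulli trials with success probabilities `p`. The
generating polynomial is `GG p`, the polynomial without trial `t` is `AA p t`. When the mean
`∑ p t` equals `c`, the Stein equation for the Poisson law with mean `c` gives an exact formula
for `(GG p).coeff c - pi c`. Signs of the solution give the one sided bound `stein_bound`.
-/

namespace Vale.Agent.Lib.P328.PBinf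

open Finset Polynomial

/-- One Bernoulli trial as a polynomial. -/
noncomputable def uu (x : ℝ) : ℝ[X] := C (1 - x) + C x * X

variable {T : Type*} [Fintype T] [DecidableEq T]

/-- Generating polynomial of the sum of the trials. -/
noncomputable def GG (p : T → ℝ) : ℝ[X] := ∏ t, uu (p t)

/-- Generating polynomial of the sum of the trials other than `t`. -/
noncomputable def AA (p : T → ℝ) (t : T) : ℝ[X] := ∏ s ∈ univ.erase t, uu (p s)

theorem GG_eq_mul (p : T → ℝ) (t : T) : GG p = uu (p t) * AA p t := by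
  unfold GG AA
  exact (Finset.mul_prod_erase univ (fun s => uu (p s)) (mem_univ t)).symm

/-- The linear functional on polynomials with `X ^ k ↦ g k`. -/
noncomputable def Lam (g : ℕ → ℝ) : ℝ[X] →ₗ[ℝ] ℝ :=
  Polynomial.lsum fun k => (g k) • LinearMap.id

theorem Lam_monomial (g : ℕ → ℝ) (k : ℕ) (a : ℝ) : Lam g (monomial k a) = g k * a := by
  unfold Lam
  rw [Polynomial.lsum_apply, Polynomial.sum_monomial_index]
  · simp
  · simp

theorem Lam_apply (g : ℕ → ℝ) (P : ℝ[X]) : Lam g P = ∑ k ∈ P.support, g k * P.coeff k := by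
  unfold Lam
  rw [Polynomial.lsum_apply, Polynomial.sum_def]
  simp

/-- Multiplication by a trial. -/
theorem Lam_uu_mul (g : ℕ → ℝ) (x : ℝ) (P : ℝ[X]) :
    Lam g (uu x * P) = (1 - x) * Lam g P + x * Lam (fun k => g (k + 1)) P := by
  induction P using Polynomial.induction_on' with
  | add P Q hP hQ => rw [mul_add, map_add, map_add, map_add, hP, hQ]; ring
  | monomial k a =>
    have h : uu x * monomial k a = monomial k ((1 - x) * a) + monomial (k + 1) (x * a) := by
      unfold uu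
      rw [add_mul, C_mul_monomial, mul_assoc, X_mul_monomial, C_mul_monomial]
    rw [h, map_add, Lam_monomial, Lam_monomial, Lam_monomial, Lam_monomial]
    ring

/-- The size factor moved to the derivative. -/
theorem Lam_mul_index (g : ℕ → ℝ) (P : ℝ[X]) :
    Lam (fun k => (k : ℝ) * g k) P = Lam (fun k => g (k + 1)) (derivative P) := by
  induction P using Polynomial.induction_on' with
  | add P Q hP hQ => rw [map_add, map_add, map_add, hP, hQ]
  | monomial k a =>
    rw [derivative_monomial, Lam_monomial, Lam_monomial]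
    cases k with
    | zero => simp
    | succ n =>
      simp only [Nat.add_sub_cancel]
      push_cast
      ring

theorem derivative_uu (x : ℝ) : derivative (uu x) = C x := by
  unfold uu
  simp

theorem derivative_GG (p : T → ℝ) : derivative (GG p) = ∑ t, C (p t) * AA p t := by
  unfold GG AA
  rw [derivative_prod_finset]
  refine Finset.sum_congr rfl fun t _ => ?_
  rw [derivative_uu, mul_comm]

/-- Stein's identity for a sum of independent trials with mean `∑ p t`. -/
theorem stein_id (p : T → ℝ) (xi : ℕ → ℝ) :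
    (∑ t, p t) * Lam (fun k => xi (k + 1)) (GG p) - Lam (fun k => (k : ℝ) * xi k) (GG p)
      = ∑ t, (p t) ^ 2 * Lam (fun k => xi (k + 2) - xi (k + 1)) (AA p t) := by
  rw [Lam_mul_index, derivative_GG, map_sum, Finset.sum_mul, ← Finset.sum_sub_distrib]
  refine Finset.sum_congr rfl fun t _ => ?_
  have h1 : Lam (fun k => xi (k + 1)) (C (p t) * AA p t)
      = p t * Lam (fun k => xi (k + 1)) (AA p t) := by
    rw [← smul_eq_C_mul, map_smul, smul_eq_mul]
  have h2 : Lam (fun k => xi (k + 2) - xi (k + 1)) (AA p t)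
      = Lam (fun k => xi (k + 2)) (AA p t) - Lam (fun k => xi (k + 1)) (AA p t) := by
    have : (fun k => xi (k + 2) - xi (k + 1)) = (fun k => xi (k + 2)) - (fun k => xi (k + 1)) := rfl
    rw [this, Lam_apply, Lam_apply, Lam_apply, ← Finset.sum_sub_distrib]
    refine Finset.sum_congr rfl fun k _ => ?_
    simp only [Pi.sub_apply]
    ring
  rw [h1, h2, GG_eq_mul p t, Lam_uu_mul]
  ring

theorem coeff_uu_prod_nonneg (s : Finset T) (p : T → ℝ) (h0 : ∀ t, 0 ≤ p t) (h1 : ∀ t, p t ≤ 1) :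
    ∀ k, 0 ≤ (∏ a ∈ s, uu (p a)).coeff k := by
  induction s using Finset.induction_on with
  | empty =>
    intro k
    rw [Finset.prod_empty, coeff_one]
    split_ifs <;> norm_num
  | insert a s ha ih =>
    intro k
    rw [Finset.prod_insert ha]
    unfold uu
    rw [add_mul, mul_assoc, coeff_add, coeff_C_mul, coeff_C_mul]
    have h3 : 0 ≤ (X * ∏ a ∈ s, (C (1 - p a) + C (p a) * X)).coeff k := by
      cases k with
      | zero => simp
      | succ n =>
        rw [coeff_X_mul]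
        exact ih n
    exact add_nonneg (mul_nonneg (by linarith [h1 a]) (ih k)) (mul_nonneg (h0 a) h3)

theorem AA_coeff_nonneg (p : T → ℝ) (h0 : ∀ t, 0 ≤ p t) (h1 : ∀ t, p t ≤ 1) (t : T) (k : ℕ) :
    0 ≤ (AA p t).coeff k :=
  coeff_uu_prod_nonneg _ p h0 h1 k

theorem GG_coeff_nonneg (p : T → ℝ) (h0 : ∀ t, 0 ≤ p t) (h1 : ∀ t, p t ≤ 1) (k : ℕ) :
    0 ≤ (GG p).coeff k :=
  coeff_uu_prod_nonneg _ p h0 h1 k

theorem uu_eval_one (x : ℝ) : (uu x).eval 1 = 1 := by
  unfold uu
  simp

theorem GG_eval_one (p : T → ℝ) : (GG p).eval 1 = 1 := by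
  unfold GG
  rw [eval_prod]
  simp [uu_eval_one]

theorem Lam_const (a : ℝ) (P : ℝ[X]) : Lam (fun _ => a) P = a * P.eval 1 := by
  induction P using Polynomial.induction_on' with
  | add P Q hP hQ => rw [map_add, eval_add, hP, hQ]; ring
  | monomial k b =>
    rw [Lam_monomial, eval_monomial]
    simp

theorem Lam_single (c : ℕ) (P : ℝ[X]) : Lam (fun k => if k = c then 1 else 0) P = P.coeff c := by
  induction P using Polynomial.induction_on' with
  | add P Q hP hQ => rw [map_add, coeff_add, hP, hQ]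
  | monomial k b =>
    rw [Lam_monomial, coeff_monomial]
    split_ifs <;> ring

/-! ### The Poisson point masses and the solution of the Stein equation -/

/-- Poisson point mass with mean `c` at `j`. -/
noncomputable def qq (c j : ℕ) : ℝ := Real.exp (-(c : ℝ)) * (c : ℝ) ^ j / (j.factorial : ℝ)

/-- The central point mass. -/
noncomputable def pi (c : ℕ) : ℝ := qq c c

theorem qq_pos {c : ℕ} (hc : 0 < c) (j : ℕ) : 0 < qq c j := by
  unfold qq
  have : (0 : ℝ) < c := by exact_mod_cast hc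
  positivity

theorem qq_succ {c : ℕ} (j : ℕ) : ((j : ℝ) + 1) * qq c (j + 1) = (c : ℝ) * qq c j := by
  unfold qq
  rw [Nat.factorial_succ]
  have h : ((j : ℝ) + 1) ≠ 0 := by positivity
  have h2 : (j.factorial : ℝ) ≠ 0 := by positivity
  push_cast
  field_simp
  ring

/-- Lower sums of the Poisson law. -/
noncomputable def Pi (c j : ℕ) : ℝ := ∑ i ∈ range (j + 1), qq c i

theorem Pi_succ (c j : ℕ) : Pi c (j + 1) = Pi c j + qq c (j + 1) := by
  unfold Pi
  rw [Finset.sum_range_succ]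

theorem Pi_pos {c : ℕ} (hc : 0 < c) (j : ℕ) : 0 < Pi c j :=
  Finset.sum_pos (fun i _ => qq_pos hc i) (by simp)

/-- The Poisson weights have total mass one. -/
theorem qq_hasSum (c : ℕ) : HasSum (fun j => qq c j) 1 := by
  have h := NormedSpace.expSeries_div_hasSum_exp (𝔸 := ℝ) (c : ℝ)
  rw [← Real.exp_eq_exp_ℝ] at h
  have h2 := h.mul_left (Real.exp (-(c : ℝ)))
  rw [← Real.exp_add, neg_add_cancel, Real.exp_zero] at h2
  have h3 : (fun j => qq c j) = fun j => Real.exp (-(c : ℝ)) * ((c : ℝ) ^ j / (j.factorial : ℝ)) := by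
    funext j
    unfold qq
    ring
  rw [h3]
  exact h2

theorem qq_le_geom {c : ℕ} (hc : 0 < c) (j i : ℕ) :
    qq c (j + 1 + i) ≤ qq c j * ((c : ℝ) / ((j : ℝ) + 1)) ^ (i + 1) := by
  induction i with
  | zero =>
    have h := qq_succ (c := c) j
    have hj : (0 : ℝ) < (j : ℝ) + 1 := by positivity
    simp only [add_zero, zero_add, pow_one]
    rw [mul_div_assoc', le_div_iff₀ hj]
    nlinarith
  | succ i ih =>
    have h := qq_succ (c := c) (j + 1 + i)
    have hj : (0 : ℝ) < (j : ℝ) + 1 := by positivity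
    have hc' : (0 : ℝ) < c := by exact_mod_cast hc
    have h1 : qq c (j + 1 + (i + 1)) ≤ ((c : ℝ) / ((j : ℝ) + 1)) * qq c (j + 1 + i) := by
      have h5 : (j : ℝ) + 1 ≤ ((j + 1 + i : ℕ) : ℝ) + 1 := by
        push_cast
        have : (0 : ℝ) ≤ i := by positivity
        linarith
      have h6 := qq_pos hc (j + 1 + (i + 1))
      have h7 : j + 1 + (i + 1) = (j + 1 + i) + 1 := by ring
      rw [h7] at h6 ⊢
      rw [div_mul_eq_mul_div, le_div_iff₀ hj]
      nlinarith
    calc qq c (j + 1 + (i + 1)) ≤ ((c : ℝ) / ((j : ℝ) + 1)) * qq c (j + 1 + i) := h1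
      _ ≤ ((c : ℝ) / ((j : ℝ) + 1)) * (qq c j * ((c : ℝ) / ((j : ℝ) + 1)) ^ (i + 1)) := by
          gcongr
      _ = qq c j * ((c : ℝ) / ((j : ℝ) + 1)) ^ (i + 1 + 1) := by ring

/-- The upper tail of the Poisson law, relative to the point mass. -/
theorem tail_le {c j : ℕ} (hc : 0 < c) (hj : c ≤ j) :
    1 - Pi c j ≤ qq c j * ((c : ℝ) / ((j : ℝ) + 1 - c)) := by
  have hj' : (c : ℝ) ≤ j := by exact_mod_cast hj
  have hc' : (0 : ℝ) < c := by exact_mod_cast hc
  have hpos : (0 : ℝ) < (j : ℝ) + 1 := by positivity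
  set r : ℝ := (c : ℝ) / ((j : ℝ) + 1) with hr
  have hr0 : 0 ≤ r := by positivity
  have hr1 : r < 1 := by
    rw [hr, div_lt_one hpos]
    linarith
  have h1 : HasSum (fun i => qq c (i + (j + 1))) (1 - Pi c j) := by
    have := (hasSum_nat_add_iff' (f := fun i => qq c i) (g := (1 : ℝ)) (j + 1)).mpr (qq_hasSum c)
    simpa [Pi] using this
  have h2 : HasSum (fun i => qq c j * (r ^ (i + 1))) (qq c j * (r / (1 - r))) := by
    have hg := hasSum_geometric_of_lt_one hr0 hr1
    have h3 : (fun i => r ^ (i + 1)) = fun i => r * r ^ i := by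
      funext i
      ring
    have h4 : HasSum (fun i => r ^ (i + 1)) (r * (1 - r)⁻¹) := by
      rw [h3]
      exact hg.mul_left r
    have h5 := h4.mul_left (qq c j)
    rwa [div_eq_mul_inv]
  have h3 : 1 - Pi c j ≤ qq c j * (r / (1 - r)) := by
    refine hasSum_le (fun i => ?_) h1 h2
    have := qq_le_geom hc j i
    have h7 : i + (j + 1) = j + 1 + i := by ring
    rw [h7]
    exact this
  have h4 : r / (1 - r) = (c : ℝ) / ((j : ℝ) + 1 - c) := by
    rw [hr]
    have h5 : (j : ℝ) + 1 - c ≠ 0 := by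
      have : (0 : ℝ) < (j : ℝ) + 1 - c := by linarith
      exact this.ne'
    have h6 : (j : ℝ) + 1 ≠ 0 := hpos.ne'
    have h7 : 1 - (c : ℝ) / ((j : ℝ) + 1) ≠ 0 := by
      rw [show 1 - (c : ℝ) / ((j : ℝ) + 1) = ((j : ℝ) + 1 - c) / ((j : ℝ) + 1) by field_simp]
      exact div_ne_zero h5 h6
    field_simp
  rwa [h4] at h3

/-- The solution of the Stein equation `c xi (j+1) - j xi j = 1_{j=c} - pi c`. -/
noncomputable def xi (c : ℕ) : ℕ → ℝ
  | 0 => 0
  | j + 1 => pi c * ((if c ≤ j then 1 else 0) - Pi c j) / ((c : ℝ) * qq c j)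

theorem xi_eq {c : ℕ} (hc : 0 < c) (j : ℕ) :
    (c : ℝ) * xi c (j + 1) = pi c * ((if c ≤ j then 1 else 0) - Pi c j) / qq c j := by
  have hc' : (c : ℝ) ≠ 0 := by exact_mod_cast hc.ne'
  have hq := (qq_pos hc j).ne'
  simp only [xi]
  field_simp

/-- The Stein equation. -/
theorem xi_eqn {c : ℕ} (hc : 0 < c) (j : ℕ) :
    (c : ℝ) * xi c (j + 1) - (j : ℝ) * xi c j = (if j = c then 1 else 0) - pi c := by
  have hc' : (c : ℝ) ≠ 0 := by exact_mod_cast hc.ne'
  cases j with
  | zero =>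
    have hq := (qq_pos hc 0).ne'
    have h0 : ¬ c ≤ 0 := by omega
    have h1 : ¬ 0 = c := by omega
    rw [xi_eq hc 0]
    simp only [h0, h1, if_false]
    have : Pi c 0 = qq c 0 := by simp [Pi]
    rw [this]
    push_cast
    field_simp
    ring
  | succ j =>
    have hq1 := (qq_pos hc (j + 1)).ne'
    have hq0 := (qq_pos hc j).ne'
    have hs := qq_succ (c := c) j
    have h2 : ((j + 1 : ℕ) : ℝ) * xi c (j + 1)
        = pi c * ((if c ≤ j then 1 else 0) - Pi c j) / qq c (j + 1) := by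
      simp only [xi]
      push_cast
      rw [← hs]
      have hj : (j : ℝ) + 1 ≠ 0 := by positivity
      field_simp
    rw [xi_eq hc (j + 1), h2, Pi_succ, ← sub_div]
    rcases lt_trichotomy c (j + 1) with h | h | h
    · have h1 : c ≤ j := by omega
      have h3 : c ≤ j + 1 := by omega
      have h4 : ¬ j + 1 = c := by omega
      simp only [h1, h3, h4, if_true, if_false]
      field_simp
      ring
    · have h1 : ¬ c ≤ j := by omega
      have h3 : c ≤ j + 1 := by omega
      have h4 : j + 1 = c := by omega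
      have h5 : pi c = qq c (j + 1) := by
        unfold pi
        rw [h4]
      rw [if_neg h1, if_pos h3, if_pos h4, h5]
      field_simp
      ring
    · have h1 : ¬ c ≤ j := by omega
      have h3 : ¬ c ≤ j + 1 := by omega
      have h4 : ¬ j + 1 = c := by omega
      simp only [h1, h3, h4, if_false]
      field_simp
      ring

/-- The lower ratio. -/
noncomputable def rr (c j : ℕ) : ℝ := Pi c j / qq c j

theorem rr_zero {c : ℕ} (hc : 0 < c) : rr c 0 = 1 := by
  unfold rr
  have : Pi c 0 = qq c 0 := by simp [Pi]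
  rw [this, div_self (qq_pos hc 0).ne']

theorem rr_succ {c : ℕ} (hc : 0 < c) (j : ℕ) :
    rr c (j + 1) = 1 + (((j : ℝ) + 1) / (c : ℝ)) * rr c j := by
  unfold rr
  have hc' : (c : ℝ) ≠ 0 := by exact_mod_cast hc.ne'
  have hq1 := (qq_pos hc (j + 1)).ne'
  have hq0 := (qq_pos hc j).ne'
  have hs := qq_succ (c := c) j
  have h : qq c j = ((j : ℝ) + 1) * qq c (j + 1) / (c : ℝ) := by
    rw [hs]
    field_simp
  rw [Pi_succ, h]
  have hj : (j : ℝ) + 1 ≠ 0 := by positivity
  field_simp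
  ring

theorem rr_le {c j : ℕ} (hc : 0 < c) (hj : j < c) : rr c j ≤ (c : ℝ) / ((c : ℝ) - j) := by
  induction j with
  | zero =>
    rw [rr_zero hc]
    have hc' : (0 : ℝ) < c := by exact_mod_cast hc
    simp only [CharP.cast_eq_zero, sub_zero]
    rw [div_self hc'.ne']
  | succ j ih =>
    have ih' := ih (by omega)
    have hc' : (0 : ℝ) < c := by exact_mod_cast hc
    have h1 : (j : ℝ) + 1 < c := by exact_mod_cast hj
    have h2 : (0 : ℝ) < (c : ℝ) - j := by linarith
    have h3 : (0 : ℝ) < (c : ℝ) - ((j + 1 : ℕ) : ℝ) := by push_cast; linarith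
    rw [rr_succ hc]
    calc 1 + (((j : ℝ) + 1) / (c : ℝ)) * rr c j
        ≤ 1 + (((j : ℝ) + 1) / (c : ℝ)) * ((c : ℝ) / ((c : ℝ) - j)) := by gcongr
      _ = ((c : ℝ) + 1) / ((c : ℝ) - j) := by field_simp; ring
      _ ≤ (c : ℝ) / ((c : ℝ) - ((j + 1 : ℕ) : ℝ)) := by
          rw [div_le_div_iff₀ h2 h3]
          push_cast
          nlinarith

theorem rr_pos {c : ℕ} (hc : 0 < c) (j : ℕ) : 0 < rr c j := div_pos (Pi_pos hc j) (qq_pos hc j)

/-- Below the centre the solution decreases. -/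
theorem xi_anti_low {c j : ℕ} (hc : 0 < c) (hj : j + 1 < c) : xi c (j + 2) ≤ xi c (j + 1) := by
  have hc' : (0 : ℝ) < c := by exact_mod_cast hc
  have hpi : 0 < pi c := qq_pos hc c
  have h1 : ¬ c ≤ j := by omega
  have h2 : ¬ c ≤ j + 1 := by omega
  have e1 : xi c (j + 1) = -(pi c / (c : ℝ)) * rr c j := by
    simp only [xi, h1, if_false, rr]
    have hq := (qq_pos hc j).ne'
    field_simp
    ring
  have e2 : xi c (j + 2) = -(pi c / (c : ℝ)) * rr c (j + 1) := by
    show xi c ((j + 1) + 1) = _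
    simp only [xi, h2, if_false, rr]
    have hq := (qq_pos hc (j + 1)).ne'
    field_simp
    ring
  rw [e1, e2]
  have h3 : rr c j ≤ rr c (j + 1) := by
    rw [rr_succ hc]
    have h4 := rr_le hc (j := j) (by omega)
    have h5 : (j : ℝ) + 1 < c := by exact_mod_cast hj
    have h6 : (0 : ℝ) < (c : ℝ) - j := by linarith
    have h7 : rr c j * ((c : ℝ) - ((j : ℝ) + 1)) ≤ (c : ℝ) := by
      have h8 : rr c j * ((c : ℝ) - j) ≤ (c : ℝ) := by
        rwa [← le_div_iff₀ h6]
      have h9 := rr_pos hc j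
      nlinarith
    have h10 : rr c j ≤ 1 + ((j : ℝ) + 1) / (c : ℝ) * rr c j := by
      have h12 : 1 + ((j : ℝ) + 1) / (c : ℝ) * rr c j - rr c j
          = ((c : ℝ) - rr c j * ((c : ℝ) - ((j : ℝ) + 1))) / (c : ℝ) := by
        field_simp
        ring
      have h13 : 0 ≤ 1 + ((j : ℝ) + 1) / (c : ℝ) * rr c j - rr c j := by
        rw [h12]
        exact div_nonneg (by linarith) hc'.le
      linarith
    exact h10
  have h11 : 0 < pi c / (c : ℝ) := div_pos hpi hc'
  nlinarith

/-- Above the centre the solution decreases. -/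
theorem xi_anti_high {c j : ℕ} (hc : 0 < c) (hj : c < j + 1) : xi c (j + 2) ≤ xi c (j + 1) := by
  have hc' : (0 : ℝ) < c := by exact_mod_cast hc
  have hpi : 0 < pi c := qq_pos hc c
  have h1 : c ≤ j := by omega
  have h2 : c ≤ j + 1 := by omega
  have hq0 := qq_pos hc j
  have hq1 := qq_pos hc (j + 1)
  have hs := qq_succ (c := c) j
  have e1 : xi c (j + 1) = (pi c / (c : ℝ)) * ((1 - Pi c j) / qq c j) := by
    simp only [xi, h1, if_true]
    field_simp
  have e2 : xi c (j + 2) = (pi c / (c : ℝ)) * ((1 - Pi c (j + 1)) / qq c (j + 1)) := by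
    show xi c ((j + 1) + 1) = _
    simp only [xi, h2, if_true]
    field_simp
  rw [e1, e2]
  have h3 : (1 - Pi c (j + 1)) / qq c (j + 1) ≤ (1 - Pi c j) / qq c j := by
    have ht := tail_le hc h2
    have hjc : (c : ℝ) < (j : ℝ) + 1 := by exact_mod_cast hj
    have h4 : (0 : ℝ) < ((j + 1 : ℕ) : ℝ) + 1 - c := by push_cast; linarith
    rw [div_le_div_iff₀ hq1 hq0]
    rw [Pi_succ] at ht ⊢
    set Q := qq c (j + 1) with hQ
    set P := Pi c j with hP
    have h5 : 1 - (P + Q) ≤ Q * ((c : ℝ) / ((j : ℝ) + 1 + 1 - c)) := by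
      have : ((j + 1 : ℕ) : ℝ) + 1 - c = (j : ℝ) + 1 + 1 - c := by push_cast; ring
      rwa [this] at ht
    have h6 : (0 : ℝ) < (j : ℝ) + 1 + 1 - c := by linarith
    have h7 : (1 - (P + Q)) * ((j : ℝ) + 1 + 1 - c) ≤ Q * (c : ℝ) := by
      rw [mul_div_assoc', le_div_iff₀ h6] at h5
      exact h5
    have h8 : qq c j = ((j : ℝ) + 1) * Q / (c : ℝ) := by
      rw [hQ, hs]
      field_simp
    rw [h8]
    have h9 : (1 - (P + Q)) * (((j : ℝ) + 1) * Q / (c : ℝ)) ≤ (1 - P) * Q := by
      rw [mul_div_assoc', div_le_iff₀ hc']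
      have h10 : 0 < Q := hq1
      have h11 : (1 - (P + Q)) * ((j : ℝ) + 1 - c) ≤ Q * (c : ℝ) := by
        by_cases h12 : 0 ≤ 1 - (P + Q)
        · have : (1 - (P + Q)) * ((j : ℝ) + 1 - c) ≤ (1 - (P + Q)) * ((j : ℝ) + 1 + 1 - c) := by
            apply mul_le_mul_of_nonneg_left _ h12
            linarith
          linarith
        · have : (1 - (P + Q)) * ((j : ℝ) + 1 - c) ≤ 0 := by
            apply mul_nonpos_of_nonpos_of_nonneg (by linarith)
            linarith
          have : 0 ≤ Q * (c : ℝ) := by positivity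
          linarith
      nlinarith
    exact h9
  have h11 : 0 < pi c / (c : ℝ) := div_pos hpi hc'
  exact mul_le_mul_of_nonneg_left h3 h11.le

/-- Sign pattern of the increments of `xi`, index shifted by one. -/
theorem xi_incr_nonpos {c k : ℕ} (hc : 0 < c) (hk : k + 1 ≠ c) : xi c (k + 2) - xi c (k + 1) ≤ 0 := by
  rcases lt_or_gt_of_ne hk with h | h
  · exact sub_nonpos.mpr (xi_anti_low hc h)
  · exact sub_nonpos.mpr (xi_anti_high hc h)

theorem xi_incr_center {c : ℕ} (hc : 0 < c) :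
    (c : ℝ) * (xi c (c + 1) - xi c c) = 1 - pi c := by
  have h := xi_eqn hc c
  simp only [if_true] at h
  linarith

theorem Lam_fun_linear (a b : ℝ) (f g : ℕ → ℝ) (P : ℝ[X]) :
    Lam (fun k => a * f k + b * g k) P = a * Lam f P + b * Lam g P := by
  induction P using Polynomial.induction_on' with
  | add P Q hP hQ => rw [map_add, map_add, map_add, hP, hQ]; ring
  | monomial k r =>
    rw [Lam_monomial, Lam_monomial, Lam_monomial]
    ring

/-- The exact Stein formula at the mean: coefficient of `GG p` minus the Poisson point mass. -/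
theorem stein_exact (p : T → ℝ) {c : ℕ} (hc : 0 < c) (hmean : ∑ t, p t = (c : ℝ)) :
    (GG p).coeff c - pi c = ∑ t, (p t) ^ 2 * Lam (fun k => xi c (k + 2) - xi c (k + 1)) (AA p t) := by
  rw [← stein_id, hmean]
  have h1 : (c : ℝ) * Lam (fun k => xi c (k + 1)) (GG p) - Lam (fun k => (k : ℝ) * xi c k) (GG p)
      = Lam (fun k => (c : ℝ) * xi c (k + 1) + (-1) * ((k : ℝ) * xi c k)) (GG p) := by
    rw [Lam_fun_linear]
    ring
  rw [h1]
  have h2 : (fun k : ℕ => (c : ℝ) * xi c (k + 1) + (-1) * ((k : ℝ) * xi c k))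
      = fun k => 1 * (if k = c then 1 else 0) + (-(pi c)) * 1 := by
    funext k
    have := xi_eqn hc k
    simp only [one_mul, mul_one]
    linarith
  rw [h2, Lam_fun_linear, Lam_single, Lam_const, GG_eval_one]
  ring

/-- A linear functional with a single nonnegative-weight point. -/
theorem Lam_le_single {g : ℕ → ℝ} {P : ℝ[X]} (hP : ∀ k, 0 ≤ P.coeff k) (m : ℕ)
    (hg : ∀ k, k ≠ m → g k ≤ 0) : Lam g P ≤ g m * P.coeff m := by
  rw [Lam_apply]
  by_cases hm : m ∈ P.support
  · rw [← Finset.add_sum_erase _ _ hm]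
    have : ∑ x ∈ P.support.erase m, g x * P.coeff x ≤ 0 := by
      refine Finset.sum_nonpos fun k hk => ?_
      exact mul_nonpos_of_nonpos_of_nonneg (hg k (Finset.ne_of_mem_erase hk)) (hP k)
    linarith
  · have h0 : P.coeff m = 0 := by simpa using hm
    rw [h0, mul_zero]
    refine Finset.sum_nonpos fun k hk => ?_
    have : k ≠ m := fun h => hm (h ▸ hk)
    exact mul_nonpos_of_nonpos_of_nonneg (hg k this) (hP k)

/-- One sided Stein bound. -/
theorem stein_bound (p : T → ℝ) (h0 : ∀ t, 0 ≤ p t) (h1 : ∀ t, p t ≤ 1) {c : ℕ} (hc : 0 < c)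
    (hmean : ∑ t, p t = (c : ℝ)) :
    (c : ℝ) * ((GG p).coeff c - pi c)
      ≤ (1 - pi c) * ∑ t, (p t) ^ 2 * (AA p t).coeff (c - 1) := by
  rw [stein_exact p hc hmean, Finset.mul_sum, Finset.mul_sum]
  refine Finset.sum_le_sum fun t _ => ?_
  have h3 := Lam_le_single (g := fun k => xi c (k + 2) - xi c (k + 1))
    (AA_coeff_nonneg p h0 h1 t) (c - 1) (fun k hk => xi_incr_nonpos hc (by omega))
  have h4 : (c - 1) + 2 = c + 1 := by omega
  have h5 : (c - 1) + 1 = c := by omega
  simp only [h4, h5] at h3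
  have h6 := xi_incr_center hc
  have hc' : (0 : ℝ) ≤ c := by positivity
  have h7 : 0 ≤ (p t) ^ 2 := by positivity
  calc (c : ℝ) * ((p t) ^ 2 * Lam (fun k => xi c (k + 2) - xi c (k + 1)) (AA p t))
      = (p t) ^ 2 * ((c : ℝ) * Lam (fun k => xi c (k + 2) - xi c (k + 1)) (AA p t)) := by ring
    _ ≤ (p t) ^ 2 * ((c : ℝ) * ((xi c (c + 1) - xi c c) * (AA p t).coeff (c - 1))) := by
        gcongr
    _ = (1 - pi c) * ((p t) ^ 2 * (AA p t).coeff (c - 1)) := by
        rw [← h6]
        ring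

/-! ### The size of the central mass -/

theorem pi_pos {c : ℕ} (hc : 0 < c) : 0 < pi c := qq_pos hc c

theorem exp_one_le_pow (c : ℕ) (hc : 0 < c) :
    Real.exp 1 ≤ (((c : ℝ) + 1) / (c : ℝ)) ^ (c + 1) := by
  have hc' : (0 : ℝ) < c := by exact_mod_cast hc
  have h1 : (0 : ℝ) < (c : ℝ) + 1 := by positivity
  have h2 := Real.add_one_le_exp (-(1 / ((c : ℝ) + 1)))
  have h3 : (c : ℝ) / ((c : ℝ) + 1) ≤ Real.exp (-(1 / ((c : ℝ) + 1))) := by
    have : (c : ℝ) / ((c : ℝ) + 1) = -(1 / ((c : ℝ) + 1)) + 1 := by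
      field_simp
      ring
    rw [this]
    exact h2
  have h4 : 0 < (c : ℝ) / ((c : ℝ) + 1) := by positivity
  have h5 : Real.exp (1 / ((c : ℝ) + 1)) ≤ ((c : ℝ) + 1) / (c : ℝ) := by
    rw [Real.exp_neg] at h3
    have h6 := Real.exp_pos (1 / ((c : ℝ) + 1))
    have h7 : (((c : ℝ) + 1) / (c : ℝ)) = ((c : ℝ) / ((c : ℝ) + 1))⁻¹ := by
      rw [inv_div]
    rw [h7]
    rw [le_inv_comm₀ h6 h4]
    exact h3
  have h8 : Real.exp 1 = Real.exp (1 / ((c : ℝ) + 1)) ^ (c + 1) := by
    rw [← Real.exp_nat_mul]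
    congr 1
    push_cast
    field_simp
  rw [h8]
  exact pow_le_pow_left₀ (Real.exp_pos _).le h5 _

/-- `c * pi c` is nondecreasing. -/
theorem c_pi_step {c : ℕ} (hc : 0 < c) :
    (c : ℝ) * pi c ≤ ((c + 1 : ℕ) : ℝ) * pi (c + 1) := by
  have hc' : (0 : ℝ) < c := by exact_mod_cast hc
  have h1 := exp_one_le_pow c hc
  unfold pi qq
  rw [Nat.factorial_succ]
  push_cast
  have hf : (0 : ℝ) < (c.factorial : ℝ) := by positivity
  have h2 : Real.exp (-((c : ℝ) + 1)) = Real.exp (-(c : ℝ)) * (Real.exp 1)⁻¹ := by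
    rw [← Real.exp_neg, ← Real.exp_add]
    congr 1
    ring
  rw [h2]
  have h3 : (0 : ℝ) < Real.exp (-(c : ℝ)) := Real.exp_pos _
  have h4 : (0 : ℝ) < Real.exp 1 := Real.exp_pos _
  have hc1 : (0 : ℝ) < (c : ℝ) + 1 := by positivity
  have key : Real.exp 1 * (c : ℝ) ^ (c + 1) ≤ ((c : ℝ) + 1) ^ (c + 1) := by
    rw [div_pow] at h1
    rwa [le_div_iff₀ (by positivity)] at h1
  rw [← sub_nonneg]
  have e : ((c : ℝ) + 1) * (Real.exp (-(c : ℝ)) * (Real.exp 1)⁻¹ * ((c : ℝ) + 1) ^ (c + 1)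
        / (((c : ℝ) + 1) * (c.factorial : ℝ)))
      - (c : ℝ) * (Real.exp (-(c : ℝ)) * (c : ℝ) ^ c / (c.factorial : ℝ))
      = Real.exp (-(c : ℝ)) * (Real.exp 1)⁻¹ / (c.factorial : ℝ)
        * (((c : ℝ) + 1) ^ (c + 1) - Real.exp 1 * (c : ℝ) ^ (c + 1)) := by
    field_simp
    ring
  rw [e]
  apply mul_nonneg (by positivity)
  linarith

theorem c_mul_pi_ge_one {c : ℕ} (hc : 7 ≤ c) : 1 ≤ (c : ℝ) * pi c := by
  induction c, hc using Nat.le_induction with
  | base =>
    unfold pi qq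
    have h1 := Real.exp_one_lt_d9
    have h2 : Real.exp (-(7 : ℝ)) = (Real.exp 1 ^ 7)⁻¹ := by
      rw [← Real.exp_nat_mul, ← Real.exp_neg]
      norm_num
    push_cast
    rw [h2]
    have h3 : Real.exp 1 ^ 7 ≤ (2.7182818286 : ℝ) ^ 7 := by
      exact pow_le_pow_left₀ (Real.exp_pos _).le h1.le 7
    have h4 : 0 < Real.exp 1 ^ 7 := by positivity
    have hf : ((7 : ℕ).factorial : ℝ) = 5040 := by norm_num [Nat.factorial]
    rw [hf]
    rw [show (7 : ℝ) * ((Real.exp 1 ^ 7)⁻¹ * (7 : ℝ) ^ 7 / 5040)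
        = (7 * 7 ^ 7 / 5040) / Real.exp 1 ^ 7 by field_simp]
    rw [le_div_iff₀ h4]
    norm_num at h3 ⊢
    linarith
  | succ c hc ih =>
    have := c_pi_step (c := c) (by omega)
    linarith

end Vale.Agent.Lib.P328.PBinf
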