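import Mathlib

/-!
# P328, PB^inf: the covariance bound

For trials with odds `τ ≥ 0` and a partner map (`pt s ≠ s`, `τ (pt s) = τ s`), at every level the sum
over the partnered trials of `P(s) ^ 2 - P(s, pt s)` is at most one half, under the conditional law
given the level.  Levels are integers: the elementary symmetric function vanishes at negative levels,
so that all identities are uniform.
-/

namespace Vale.Agent.Lib.P328.PBinf

open Finset

set_option linter.unusedSectionVars false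

variable {A : Type*} [DecidableEq A]

/-- The elementary symmetric function of the odds at an integer level. -/
noncomputable def ee (τ : A → ℝ) (S : Finset A) (k : ℤ) : ℝ :=
  ∑ I ∈ S.powerset, if (I.card : ℤ) = k then ∏ a ∈ I, τ a else 0

theorem ee_insert (τ : A → ℝ) {S : Finset A} {a : A} (ha : a ∉ S) (k : ℤ) :
    ee τ (insert a S) k = ee τ S k + τ a * ee τ S (k - 1) := by
  unfold ee
  rw [Finset.sum_powerset_insert ha, Finset.mul_sum]
  congr 1
  refine Finset.sum_congr rfl fun I hI => ?_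
  have hI' : a ∉ I := fun h => ha (Finset.mem_powerset.1 hI h)
  rw [Finset.card_insert_of_notMem hI', Finset.prod_insert hI']
  by_cases h : (I.card : ℤ) = k - 1
  · rw [if_pos h, if_pos (by push_cast; omega)]
  · rw [if_neg h, if_neg (by push_cast; omega), mul_zero]

theorem ee_erase (τ : A → ℝ) {S : Finset A} {a : A} (ha : a ∈ S) (k : ℤ) :
    ee τ S k = ee τ (S.erase a) k + τ a * ee τ (S.erase a) (k - 1) := by
  conv_lhs => rw [← Finset.insert_erase ha]
  exact ee_insert τ (Finset.notMem_erase a S) k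

/-- One trial removed, with the names of the set and of the level free. -/
theorem ee_one (τ : A → ℝ) {S W : Finset A} {a : A} (ha : a ∈ S) (hW : W = S.erase a)
    {k k1 : ℤ} (h1 : k1 = k - 1) : ee τ S k = ee τ W k + τ a * ee τ W k1 := by
  subst hW h1
  exact ee_erase τ ha k

/-- Two trials removed. -/
theorem ee_two (τ : A → ℝ) {S W : Finset A} {a b : A} (ha : a ∈ S) (hb : b ∈ S) (hab : b ≠ a)
    (hW : W = (S.erase a).erase b) {k k1 k2 : ℤ} (h1 : k1 = k - 1) (h2 : k2 = k - 2) :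
    ee τ S k = ee τ W k + (τ a + τ b) * ee τ W k1 + τ a * τ b * ee τ W k2 := by
  have hb' : b ∈ S.erase a := Finset.mem_erase.2 ⟨hab, hb⟩
  rw [ee_one τ ha rfl h1, ee_one τ hb' hW (rfl : k - 1 = k - 1), ee_one τ hb' hW (k1 := k2)
    (k := k1) (by omega)]
  have : k - 1 = k1 := h1.symm
  rw [this]
  ring

theorem ee_neg (τ : A → ℝ) (S : Finset A) {k : ℤ} (hk : k < 0) : ee τ S k = 0 := by
  unfold ee
  refine Finset.sum_eq_zero fun I _ => if_neg ?_
  have : (0 : ℤ) ≤ I.card := Int.natCast_nonneg _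
  omega

theorem ee_zero (τ : A → ℝ) (S : Finset A) : ee τ S 0 = 1 := by
  unfold ee
  rw [Finset.sum_eq_single ∅]
  · simp
  · intro I _ hI
    refine if_neg ?_
    have : I.card ≠ 0 := fun h => hI (Finset.card_eq_zero.1 h)
    omega
  · intro h
    exact absurd (Finset.empty_mem_powerset S) h

theorem ee_empty (τ : A → ℝ) (k : ℤ) : ee τ (∅ : Finset A) k = if k = 0 then 1 else 0 := by
  unfold ee
  simp [eq_comm]

theorem ee_nonneg {τ : A → ℝ} (hτ : ∀ a, 0 ≤ τ a) (S : Finset A) (k : ℤ) : 0 ≤ ee τ S k := by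
  unfold ee
  refine Finset.sum_nonneg fun I _ => ?_
  split_ifs
  · exact Finset.prod_nonneg fun a _ => hτ a
  · exact le_rfl

/-- Euler's identity. -/
theorem ee_euler (τ : A → ℝ) (S : Finset A) :
    ∀ k : ℤ, (k : ℝ) * ee τ S k = ∑ a ∈ S, τ a * ee τ (S.erase a) (k - 1) := by
  induction S using Finset.induction_on with
  | empty =>
    intro k
    rw [ee_empty]
    split_ifs with h
    · simp [h]
    · simp
  | insert a S ha ih =>
    intro k
    rw [Finset.sum_insert ha, Finset.erase_insert ha]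
    have h2 : ∀ b ∈ S, τ b * ee τ ((insert a S).erase b) (k - 1)
        = τ b * ee τ (S.erase b) (k - 1) + τ a * (τ b * ee τ (S.erase b) (k - 1 - 1)) := by
      intro b hb
      have hab : a ≠ b := fun h => ha (h ▸ hb)
      rw [Finset.erase_insert_of_ne hab, ee_insert τ (fun h => ha (Finset.mem_of_mem_erase h))]
      ring
    rw [Finset.sum_congr rfl h2, Finset.sum_add_distrib, ← Finset.mul_sum, ← ih k, ← ih (k - 1),
      ee_insert τ ha]
    push_cast
    ring

/-- Total positivity of order two (Newton). -/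
theorem ee_tp2 {τ : A → ℝ} (hτ : ∀ a, 0 ≤ τ a) (S : Finset A) :
    ∀ i j : ℤ, i ≤ j → ee τ S i * ee τ S (j + 1) ≤ ee τ S (i + 1) * ee τ S j := by
  induction S using Finset.induction_on with
  | empty =>
    intro i j hij
    have h1 : ee τ (∅ : Finset A) i * ee τ ∅ (j + 1) = 0 := by
      rw [ee_empty, ee_empty]
      by_cases h : i = 0
      · rw [if_neg (by omega : j + 1 ≠ 0)]
        simp
      · rw [if_neg h]
        simp
    rw [h1]
    exact mul_nonneg (ee_nonneg hτ _ _) (ee_nonneg hτ _ _)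
  | insert a S ha ih =>
    intro i j hij
    have hz := hτ a
    rw [ee_insert τ ha i, ee_insert τ ha (j + 1), ee_insert τ ha (i + 1), ee_insert τ ha j,
      add_sub_cancel_right, add_sub_cancel_right]
    have h1 := ih i j hij
    have h2 : ee τ S (i - 1) * ee τ S j ≤ ee τ S i * ee τ S (j - 1) := by
      have := ih (i - 1) (j - 1) (by omega)
      rwa [sub_add_cancel, sub_add_cancel] at this
    have h3 : ee τ S (i - 1) * ee τ S (j + 1) ≤ ee τ S (i + 1) * ee τ S (j - 1) := by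
      rcases eq_or_lt_of_le hij with h | h
      · subst h
        exact le_of_eq (mul_comm _ _)
      · have h4 := ih (i - 1) j (by omega)
        have h5 := ih i (j - 1) (by omega)
        rw [sub_add_cancel] at h4 h5
        exact h4.trans h5
    nlinarith [mul_nonneg hz (sub_nonneg.2 h3), mul_nonneg (sq_nonneg (τ a)) (sub_nonneg.2 h2), h1]

/-- The Newton gap. -/
noncomputable def dd (τ : A → ℝ) (V : Finset A) (j : ℤ) : ℝ :=
  ee τ V j ^ 2 - ee τ V (j + 1) * ee τ V (j - 1)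

/-- The polar form of the Newton gap. -/
noncomputable def ll (τ : A → ℝ) (V : Finset A) (j : ℤ) : ℝ :=
  ee τ V j * ee τ V (j - 1) - ee τ V (j + 1) * ee τ V (j - 2)

theorem dd_nonneg {τ : A → ℝ} (hτ : ∀ a, 0 ≤ τ a) (V : Finset A) (j : ℤ) : 0 ≤ dd τ V j := by
  have := ee_tp2 hτ V (j - 1) j (by omega)
  rw [sub_add_cancel] at this
  unfold dd
  nlinarith

theorem dd_erase (τ : A → ℝ) {S V : Finset A} {a : A} (ha : a ∈ S) (hV : V = S.erase a) (j : ℤ) :
    dd τ S j = dd τ V j + τ a * ll τ V j + τ a ^ 2 * dd τ V (j - 1) := by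
  have e1 := ee_one τ ha hV (k := j + 1) (k1 := j) (by ring)
  have e2 := ee_one τ ha hV (k := j) (k1 := j - 1) rfl
  have e3 := ee_one τ ha hV (k := j - 1) (k1 := j - 2) (by ring)
  unfold dd ll
  rw [e1, e2, e3, (show j - 1 + 1 = j by ring), (show j - 1 - 1 = j - 2 by ring)]
  ring

/-- The partner map is defined and equal-valued on `D`. -/
def ClosedP (τ : A → ℝ) (pt : A → A) (D : Finset A) : Prop :=
  ∀ s ∈ D, pt s ∈ D ∧ pt s ≠ s ∧ τ (pt s) = τ s

/-- The sum over `D` of `P(s) ^ 2 - P(s, pt s)` at level `k`, multiplied by `e_k (Y) ^ 2`. -/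
noncomputable def NN (τ : A → ℝ) (pt : A → A) (Y D : Finset A) (k : ℤ) : ℝ :=
  ∑ s ∈ D, τ s ^ 2 * dd τ ((Y.erase s).erase (pt s)) (k - 1)

/-- The square behind the mixture step. -/
theorem mix_alg (h0 h1 h2 h3 x : ℝ) :
    (h1 + 2 * x * h2 + x ^ 2 * h3) ^ 2 * (h1 ^ 2 - h0 * h2)
        + (h0 + 2 * x * h1 + x ^ 2 * h2) ^ 2 * (h2 ^ 2 - h1 * h3)
        - (h0 + 2 * x * h1 + x ^ 2 * h2) * (h1 + 2 * x * h2 + x ^ 2 * h3) * (h1 * h2 - h0 * h3)
      = ((h1 + 2 * x * h2 + x ^ 2 * h3) * (h1 + x * h2)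
          - (h0 + 2 * x * h1 + x ^ 2 * h2) * (h2 + x * h3)) ^ 2 := by
  ring

/-- **The mixture step**: a trial without partner may be added. -/
theorem NN_insert {τ : A → ℝ} (hτ : ∀ a, 0 ≤ τ a) (pt : A → A) {Y D : Finset A} {z : A}
    (hz : z ∉ Y) (hD : D ⊆ Y) (hC : ClosedP τ pt D) {k : ℤ}
    (h1 : NN τ pt Y D k ≤ (1 / 2) * ee τ Y k ^ 2)
    (h2 : NN τ pt Y D (k - 1) ≤ (1 / 2) * ee τ Y (k - 1) ^ 2) :
    NN τ pt (insert z Y) D k ≤ (1 / 2) * ee τ (insert z Y) k ^ 2 := by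
  set a := ee τ Y k with ha
  set b := ee τ Y (k - 1) with hb
  have ha0 : 0 ≤ a := ee_nonneg hτ _ _
  have hb0 : 0 ≤ b := ee_nonneg hτ _ _
  set A₃ := ∑ s ∈ D, τ s ^ 2 * ll τ ((Y.erase s).erase (pt s)) (k - 1) with hA₃
  -- the expansion of the sum
  have hexp : NN τ pt (insert z Y) D k = NN τ pt Y D k + τ z * A₃ + τ z ^ 2 * NN τ pt Y D (k - 1) := by
    unfold NN
    rw [hA₃, Finset.mul_sum, Finset.mul_sum, ← Finset.sum_add_distrib, ← Finset.sum_add_distrib]
    refine Finset.sum_congr rfl fun s hs => ?_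
    have hs1 : s ∈ Y := hD hs
    have hs2 : pt s ∈ Y := hD (hC s hs).1
    have hzs : z ≠ s := fun h => hz (h ▸ hs1)
    have hzs2 : z ≠ pt s := fun h => hz (h ▸ hs2)
    have hset : ((insert z Y).erase s).erase (pt s) = insert z ((Y.erase s).erase (pt s)) := by
      rw [Finset.erase_insert_of_ne hzs, Finset.erase_insert_of_ne hzs2]
    have hmem : z ∈ ((insert z Y).erase s).erase (pt s) := by
      rw [hset]
      exact Finset.mem_insert_self _ _
    have hV : (Y.erase s).erase (pt s) = (((insert z Y).erase s).erase (pt s)).erase z := by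
      rw [hset, Finset.erase_insert]
      intro h
      exact hz (Finset.mem_of_mem_erase (Finset.mem_of_mem_erase h))
    rw [dd_erase τ hmem hV (k - 1)]
    ring
  -- the termwise inequalities
  have hterm : ∀ s ∈ D, a * b * (τ s ^ 2 * ll τ ((Y.erase s).erase (pt s)) (k - 1))
      ≤ b ^ 2 * (τ s ^ 2 * dd τ ((Y.erase s).erase (pt s)) (k - 1))
        + a ^ 2 * (τ s ^ 2 * dd τ ((Y.erase s).erase (pt s)) (k - 1 - 1)) := by
    intro s hs
    obtain ⟨hp1, hp2, hp3⟩ := hC s hs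
    set V := (Y.erase s).erase (pt s) with hV
    have ea : a = ee τ V k + (τ s + τ (pt s)) * ee τ V (k - 1) + τ s * τ (pt s) * ee τ V (k - 2) :=
      ee_two τ (hD hs) (hD hp1) hp2 hV rfl rfl
    have eb : b = ee τ V (k - 1) + (τ s + τ (pt s)) * ee τ V (k - 2)
        + τ s * τ (pt s) * ee τ V (k - 3) :=
      ee_two τ (hD hs) (hD hp1) hp2 hV (by ring) (by ring)
    rw [hp3] at ea eb
    have e1 : dd τ V (k - 1) = ee τ V (k - 1) ^ 2 - ee τ V k * ee τ V (k - 2) := by
      unfold dd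
      rw [(show k - 1 + 1 = k by ring), (show k - 1 - 1 = k - 2 by ring)]
    have e2 : dd τ V (k - 1 - 1) = ee τ V (k - 2) ^ 2 - ee τ V (k - 1) * ee τ V (k - 3) := by
      unfold dd
      rw [(show k - 1 - 1 + 1 = k - 1 by ring), (show k - 1 - 1 - 1 = k - 3 by ring),
        (show k - 1 - 1 = k - 2 by ring)]
    have e3 : ll τ V (k - 1) = ee τ V (k - 1) * ee τ V (k - 2) - ee τ V k * ee τ V (k - 3) := by
      unfold ll
      rw [(show k - 1 + 1 = k by ring), (show k - 1 - 1 = k - 2 by ring),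
        (show k - 1 - 2 = k - 3 by ring)]
    rw [e1, e2, e3]
    set h0 := ee τ V k
    set h1 := ee τ V (k - 1)
    set h2 := ee τ V (k - 2)
    set h3 := ee τ V (k - 3)
    set x := τ s
    have h := mix_alg h0 h1 h2 h3 x
    have ea' : a = h0 + 2 * x * h1 + x ^ 2 * h2 := by rw [ea]; ring
    have eb' : b = h1 + 2 * x * h2 + x ^ 2 * h3 := by rw [eb]; ring
    rw [← ea', ← eb'] at h
    have hsq := sq_nonneg (b * (h1 + x * h2) - a * (h2 + x * h3))
    rw [← h] at hsq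
    nlinarith [mul_nonneg (sq_nonneg x) hsq]
  -- the sum of the polar forms
  have hA₃le : A₃ ≤ a * b := by
    rcases eq_or_lt_of_le (mul_nonneg ha0 hb0) with hab | hab
    · -- degenerate case: every term vanishes
      have hz0 : A₃ = 0 := by
        refine Finset.sum_eq_zero fun s hs => ?_
        obtain ⟨hp1, hp2, hp3⟩ := hC s hs
        by_cases hx : τ s = 0
        · simp [hx]
        have hxpos : 0 < τ s := lt_of_le_of_ne (hτ s) (Ne.symm hx)
        set V := (Y.erase s).erase (pt s) with hV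
        have ea : a = ee τ V k + (τ s + τ (pt s)) * ee τ V (k - 1)
            + τ s * τ (pt s) * ee τ V (k - 2) :=
          ee_two τ (hD hs) (hD hp1) hp2 hV rfl rfl
        have eb : b = ee τ V (k - 1) + (τ s + τ (pt s)) * ee τ V (k - 2)
            + τ s * τ (pt s) * ee τ V (k - 3) :=
          ee_two τ (hD hs) (hD hp1) hp2 hV (by ring) (by ring)
        rw [hp3] at ea eb
        have hn : ∀ j, 0 ≤ ee τ V j := fun j => ee_nonneg hτ _ _
        have e3 : ll τ V (k - 1) = ee τ V (k - 1) * ee τ V (k - 2) - ee τ V k * ee τ V (k - 3) := by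
          unfold ll
          rw [(show k - 1 + 1 = k by ring), (show k - 1 - 1 = k - 2 by ring),
            (show k - 1 - 2 = k - 3 by ring)]
        rw [e3]
        rcases mul_eq_zero.1 hab.symm with h0 | h0
        · have h4 : 0 ≤ τ s * τ s * ee τ V (k - 2) := by
            have := hn (k - 2)
            positivity
          have h5 : 0 ≤ (τ s + τ s) * ee τ V (k - 1) := by
            have := hn (k - 1)
            positivity
          have h6 := hn k
          have h7 : ee τ V k = 0 := by linarith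
          have h8 : (τ s + τ s) * ee τ V (k - 1) = 0 := by linarith
          have h9 : ee τ V (k - 1) = 0 := by
            rcases mul_eq_zero.1 h8 with h | h
            · linarith
            · exact h
          rw [h7, h9]
          ring
        · have h4 : 0 ≤ τ s * τ s * ee τ V (k - 3) := by
            have := hn (k - 3)
            positivity
          have h5 : 0 ≤ (τ s + τ s) * ee τ V (k - 2) := by
            have := hn (k - 2)
            positivity
          have h6 := hn (k - 1)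
          have h7 : ee τ V (k - 1) = 0 := by linarith
          have h8 : τ s * τ s * ee τ V (k - 3) = 0 := by linarith
          have h9 : ee τ V (k - 3) = 0 := by
            rcases mul_eq_zero.1 h8 with h | h
            · rcases mul_eq_zero.1 h with h | h <;> linarith
            · exact h
          rw [h7, h9]
          ring
      rw [hz0]
      exact hab.le
    · have hsum : a * b * A₃ ≤ b ^ 2 * NN τ pt Y D k + a ^ 2 * NN τ pt Y D (k - 1) := by
        unfold NN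
        rw [hA₃, Finset.mul_sum, Finset.mul_sum, Finset.mul_sum, ← Finset.sum_add_distrib]
        exact Finset.sum_le_sum hterm
      have h3 : a * b * A₃ ≤ a * b * (a * b) := by
        have h4 := mul_le_mul_of_nonneg_left h1 (sq_nonneg b)
        have h5 := mul_le_mul_of_nonneg_left h2 (sq_nonneg a)
        nlinarith
      exact le_of_mul_le_mul_left h3 hab
  rw [hexp, ee_insert τ hz]
  have hz0 := hτ z
  have h3 := mul_le_mul_of_nonneg_left hA₃le hz0
  have h4 := mul_le_mul_of_nonneg_left h2 (sq_nonneg (τ z))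
  rw [← ha, ← hb]
  nlinarith


/-- The pointwise exchange identity. -/
theorem swap_id (τ : A → ℝ) {Ω : Finset A} {t t' s : A} (ht : t ∈ Ω) (ht' : t' ∈ Ω) (hne : t' ≠ t)
    (hx : τ t' = τ t) (hs : s ∈ ((Ω.erase t).erase t')) (k : ℤ) :
    ee τ (Ω.erase s) (k - 1) * ee τ ((Ω.erase t).erase t') (k - 2)
        - ee τ ((Ω.erase t).erase s) (k - 2) * ee τ (Ω.erase t) (k - 1)
      = (τ t - τ s) * dd τ (((Ω.erase t).erase t').erase s) (k - 2) := by
  have hs1 : s ≠ t' := Finset.ne_of_mem_erase hs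
  have hs2 : s ≠ t := Finset.ne_of_mem_erase (Finset.mem_of_mem_erase hs)
  have hsΩ : s ∈ Ω := Finset.mem_of_mem_erase (Finset.mem_of_mem_erase hs)
  set W := ((Ω.erase t).erase t').erase s with hW
  have e1 : ee τ (Ω.erase s) (k - 1)
      = ee τ W (k - 1) + (τ t + τ t') * ee τ W (k - 2) + τ t * τ t' * ee τ W (k - 3) := by
    refine ee_two τ (a := t) (b := t') (Finset.mem_erase.2 ⟨hs2.symm, ht⟩)
      (Finset.mem_erase.2 ⟨hs1.symm, ht'⟩) hne ?_ (by ring) (by ring)
    rw [hW]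
    ext u
    simp only [Finset.mem_erase]
    tauto
  have e2 : ee τ ((Ω.erase t).erase t') (k - 2) = ee τ W (k - 2) + τ s * ee τ W (k - 3) :=
    ee_one τ hs rfl (by ring)
  have e3 : ee τ ((Ω.erase t).erase s) (k - 2) = ee τ W (k - 2) + τ t' * ee τ W (k - 3) := by
    refine ee_one τ (a := t') (Finset.mem_erase.2 ⟨hs1.symm, Finset.mem_erase.2 ⟨hne, ht'⟩⟩) ?_
      (by ring)
    rw [hW, Finset.erase_right_comm]
  have e4 : ee τ (Ω.erase t) (k - 1)
      = ee τ W (k - 1) + (τ t' + τ s) * ee τ W (k - 2) + τ t' * τ s * ee τ W (k - 3) :=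
    ee_two τ (a := t') (b := s) (Finset.mem_erase.2 ⟨hne, ht'⟩)
      (Finset.mem_erase.2 ⟨hs2, hsΩ⟩) hs1 rfl (by ring) (by ring)
  have e5 : dd τ W (k - 2) = ee τ W (k - 2) ^ 2 - ee τ W (k - 1) * ee τ W (k - 3) := by
    unfold dd
    rw [(show k - 2 + 1 = k - 1 by ring), (show k - 2 - 1 = k - 3 by ring)]
  rw [e1, e2, e3, e4, e5, hx]
  ring

/-- The identity for one trial. -/
theorem per_t (τ : A → ℝ) {Ω : Finset A} {t t' : A} (ht : t ∈ Ω) (ht' : t' ∈ Ω) (hne : t' ≠ t)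
    (hx : τ t' = τ t) (k : ℤ) :
    (k : ℝ) * ee τ Ω k * ee τ ((Ω.erase t).erase t') (k - 2)
        - ((k : ℝ) - 1) * ee τ (Ω.erase t) (k - 1) ^ 2
      = τ t * ee τ (Ω.erase t) (k - 1) * ee τ ((Ω.erase t).erase t') (k - 2)
        + ∑ s ∈ (Ω.erase t).erase t',
            τ s * (τ t - τ s) * dd τ (((Ω.erase t).erase t').erase s) (k - 2) := by
  set Y := (Ω.erase t).erase t' with hY
  have ht'1 : t' ∈ Ω.erase t := Finset.mem_erase.2 ⟨hne, ht'⟩
  -- the first Euler identity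
  have h1 : (k : ℝ) * ee τ Ω k
      = τ t * ee τ (Ω.erase t) (k - 1) + (τ t' * ee τ (Ω.erase t') (k - 1)
        + ∑ s ∈ Y, τ s * ee τ (Ω.erase s) (k - 1)) := by
    rw [ee_euler τ Ω k, ← Finset.add_sum_erase Ω _ ht, ← Finset.add_sum_erase (Ω.erase t) _ ht'1]
  -- the partner has the same law
  have h2 : ee τ (Ω.erase t') (k - 1) = ee τ (Ω.erase t) (k - 1) := by
    have e1 := ee_one τ (a := t) (S := Ω.erase t') (W := Y) (k := k - 1) (k1 := k - 1 - 1)
      (Finset.mem_erase.2 ⟨hne.symm, ht⟩) (by rw [hY, Finset.erase_right_comm]) rfl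
    have e2 := ee_one τ (a := t') (S := Ω.erase t) (W := Y) (k := k - 1) (k1 := k - 1 - 1)
      ht'1 rfl rfl
    rw [e1, e2, hx]
  -- the second Euler identity
  have h3 : ((k : ℝ) - 1) * ee τ (Ω.erase t) (k - 1)
      = τ t' * ee τ Y (k - 2) + ∑ s ∈ Y, τ s * ee τ ((Ω.erase t).erase s) (k - 2) := by
    have := ee_euler τ (Ω.erase t) (k - 1)
    rw [(show k - 1 - 1 = k - 2 by ring)] at this
    push_cast at this
    rw [this, ← Finset.add_sum_erase (Ω.erase t) _ ht'1]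
  rw [hx] at h3
  rw [h1, h2, hx]
  have h4 : ((k : ℝ) - 1) * ee τ (Ω.erase t) (k - 1) ^ 2
      = (τ t * ee τ Y (k - 2) + ∑ s ∈ Y, τ s * ee τ ((Ω.erase t).erase s) (k - 2))
        * ee τ (Ω.erase t) (k - 1) := by
    rw [← h3]
    ring
  rw [h4]
  have h5 : ∑ s ∈ Y, τ s * (τ t - τ s) * dd τ (Y.erase s) (k - 2)
      = (∑ s ∈ Y, τ s * ee τ (Ω.erase s) (k - 1)) * ee τ Y (k - 2)
        - (∑ s ∈ Y, τ s * ee τ ((Ω.erase t).erase s) (k - 2)) * ee τ (Ω.erase t) (k - 1) := by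
    rw [Finset.sum_mul, Finset.sum_mul, ← Finset.sum_sub_distrib]
    refine Finset.sum_congr rfl fun s hs => ?_
    have := swap_id τ ht ht' hne hx hs k
    rw [← hY] at this
    rw [mul_assoc, ← this]
    ring
  rw [h5]
  ring

/-- The symmetrisation of a double sum. -/
theorem cross_bound (G H : A → A → ℝ) (Ω : Finset A)
    (hpair : ∀ t ∈ Ω, ∀ s ∈ Ω, -(H t s + H s t) ≤ G t s + G s t) :
    -∑ t ∈ Ω, ∑ s ∈ Ω, H t s ≤ ∑ t ∈ Ω, ∑ s ∈ Ω, G t s := by
  have h1 : ∑ t ∈ Ω, ∑ s ∈ Ω, G s t = ∑ t ∈ Ω, ∑ s ∈ Ω, G t s := Finset.sum_comm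
  have h2 : ∑ t ∈ Ω, ∑ s ∈ Ω, H s t = ∑ t ∈ Ω, ∑ s ∈ Ω, H t s := Finset.sum_comm
  have h3 : ∑ t ∈ Ω, ∑ s ∈ Ω, -(H t s + H s t) ≤ ∑ t ∈ Ω, ∑ s ∈ Ω, (G t s + G s t) :=
    Finset.sum_le_sum fun t ht => Finset.sum_le_sum fun s hs => hpair t ht s hs
  simp only [Finset.sum_add_distrib, Finset.sum_neg_distrib] at h3
  rw [h1, h2] at h3
  linarith

/-- The pair inequality after symmetrisation. -/
theorem pair_alg {x y d d' L : ℝ} (hx : 0 ≤ x) (hy : 0 ≤ y) (hd : 0 ≤ d) (hd' : 0 ≤ d') :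
    -(x ^ 4 * y ^ 2 * d' + y ^ 4 * x ^ 2 * d')
      ≤ x ^ 2 * y * (x - y) * (d + y * L + y ^ 2 * d')
        + y ^ 2 * x * (y - x) * (d + x * L + x ^ 2 * d') := by
  have e : x ^ 2 * y * (x - y) * (d + y * L + y ^ 2 * d')
        + y ^ 2 * x * (y - x) * (d + x * L + x ^ 2 * d')
      = x * y * (x - y) ^ 2 * d - x ^ 2 * y ^ 2 * (x - y) ^ 2 * d' := by
    ring
  rw [e]
  have h1 : 0 ≤ x * y * (x - y) ^ 2 * d := by positivity
  have h2 : x ^ 2 * y ^ 2 * (x - y) ^ 2 * d' ≤ x ^ 2 * y ^ 2 * (x ^ 2 + y ^ 2) * d' := by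
    have h3 : (x - y) ^ 2 ≤ x ^ 2 + y ^ 2 := by nlinarith [mul_nonneg hx hy]
    have h4 : 0 ≤ x ^ 2 * y ^ 2 := by positivity
    exact mul_le_mul_of_nonneg_right (mul_le_mul_of_nonneg_left h3 h4) hd'
  nlinarith


/-- At nonpositive levels the sum vanishes. -/
theorem NN_low (τ : A → ℝ) (pt : A → A) (Y D : Finset A) {k : ℤ} (hk : k ≤ 0) :
    NN τ pt Y D k = 0 := by
  unfold NN
  refine Finset.sum_eq_zero fun s _ => ?_
  unfold dd
  rw [ee_neg τ _ (show k - 1 < 0 by omega), ee_neg τ _ (show k - 1 - 1 < 0 by omega)]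
  simp

/-- The bound at a nonpositive level. -/
theorem NN_low_le (τ : A → ℝ) (pt : A → A) (Y D : Finset A) {k : ℤ} (hk : k ≤ 0) :
    NN τ pt Y D k ≤ (1 / 2) * ee τ Y k ^ 2 := by
  rw [NN_low τ pt Y D hk]
  positivity

/-- **The lower bound of `Q`**, from the covariance bound two levels below. -/
theorem Q_lower {τ : A → ℝ} (hτ : ∀ a, 0 ≤ τ a) {pt : A → A} {Ω : Finset A}
    (hC : ClosedP τ pt Ω) {k : ℤ}
    (hbound : ∀ Y D : Finset A, D ⊆ Y → ClosedP τ pt D →
      NN τ pt Y D (k - 2) ≤ (1 / 2) * ee τ Y (k - 2) ^ 2) :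
    ∑ t ∈ Ω, (τ t * ee τ (Ω.erase t) (k - 1)) * (τ t ^ 2 * ee τ ((Ω.erase t).erase (pt t)) (k - 2))
        - (1 / 2) * ∑ t ∈ Ω, (τ t ^ 2 * ee τ ((Ω.erase t).erase (pt t)) (k - 2)) ^ 2
      ≤ (k : ℝ) * ee τ Ω k * ∑ t ∈ Ω, τ t ^ 2 * ee τ ((Ω.erase t).erase (pt t)) (k - 2)
        - ((k : ℝ) - 1) * ∑ t ∈ Ω, (τ t * ee τ (Ω.erase t) (k - 1)) ^ 2 := by
  set Yt : A → Finset A := fun t => (Ω.erase t).erase (pt t) with hYt
  set g : A → A → ℝ := fun t s =>
    τ t ^ 2 * τ s * (τ t - τ s) * dd τ ((Yt t).erase s) (k - 2) with hg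
  set G : A → A → ℝ := fun t s => if τ s ≠ τ t then g t s else 0 with hG
  set V : A → A → Finset A := fun t s => ((Yt t).erase s).erase (pt s) with hV
  set H : A → A → ℝ := fun t s =>
    if τ s ≠ τ t then τ t ^ 4 * τ s ^ 2 * dd τ (V t s) (k - 2 - 1) else 0 with hH
  -- membership facts
  have hmemY : ∀ t ∈ Ω, ∀ s ∈ Ω, τ s ≠ τ t → s ∈ Yt t := by
    intro t ht s hs hne
    refine Finset.mem_erase.2 ⟨?_, Finset.mem_erase.2 ⟨?_, hs⟩⟩
    · intro h
      exact hne (by rw [h]; exact (hC t ht).2.2)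
    · intro h
      exact hne (by rw [h])
  -- the identity for each `t`
  have hone : ∀ t ∈ Ω, (k : ℝ) * ee τ Ω k * (τ t ^ 2 * ee τ (Yt t) (k - 2))
        - ((k : ℝ) - 1) * (τ t * ee τ (Ω.erase t) (k - 1)) ^ 2
      = (τ t * ee τ (Ω.erase t) (k - 1)) * (τ t ^ 2 * ee τ (Yt t) (k - 2))
        + ∑ s ∈ Ω, G t s := by
    intro t ht
    obtain ⟨hp1, hp2, hp3⟩ := hC t ht
    have h1 := per_t τ ht hp1 hp2 hp3 k
    have h2 : ∑ s ∈ Ω, G t s = τ t ^ 2 * ∑ s ∈ Yt t,
        τ s * (τ t - τ s) * dd τ ((Yt t).erase s) (k - 2) := by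
      rw [Finset.mul_sum]
      have hsub : Yt t ⊆ Ω := fun u hu =>
        Finset.mem_of_mem_erase (Finset.mem_of_mem_erase hu)
      rw [← Finset.sum_subset hsub]
      · refine Finset.sum_congr rfl fun s _ => ?_
        by_cases hne : τ s = τ t
        · simp only [hG, hg, hne]
          simp
        · simp only [hG, hg]
          rw [if_pos hne]
          ring
      · intro s hs hns
        refine if_neg ?_
        intro hne
        exact hns (hmemY t ht s hs hne)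
    rw [h2]
    calc (k : ℝ) * ee τ Ω k * (τ t ^ 2 * ee τ (Yt t) (k - 2))
          - ((k : ℝ) - 1) * (τ t * ee τ (Ω.erase t) (k - 1)) ^ 2
        = τ t ^ 2 * ((k : ℝ) * ee τ Ω k * ee τ (Yt t) (k - 2)
            - ((k : ℝ) - 1) * ee τ (Ω.erase t) (k - 1) ^ 2) := by ring
      _ = _ := by
        rw [h1]
        ring
  -- the pair inequality
  have hpair : ∀ t ∈ Ω, ∀ s ∈ Ω, -(H t s + H s t) ≤ G t s + G s t := by
    intro t ht s hs
    by_cases hne : τ s = τ t
    · simp [hH, hG, hne]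
    have hne' : τ t ≠ τ s := fun h => hne h.symm
    obtain ⟨hp1, hp2, hp3⟩ := hC t ht
    obtain ⟨hq1, hq2, hq3⟩ := hC s hs
    have hsY := hmemY t ht s hs hne
    have htY := hmemY s hs t ht hne'
    -- `pt s` lies in `Y_t` minus `s`
    have hq4 : pt s ∈ (Yt t).erase s := by
      refine Finset.mem_erase.2 ⟨hq2, hmemY t ht (pt s) hq1 ?_⟩
      rw [hq3]
      exact hne
    have hp4 : pt t ∈ (Yt s).erase t := by
      refine Finset.mem_erase.2 ⟨hp2, hmemY s hs (pt t) hp1 ?_⟩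
      rw [hp3]
      exact hne'
    have hVV : V s t = V t s := by
      simp only [hV, hYt]
      ext u
      simp only [Finset.mem_erase]
      tauto
    have e1 := dd_erase τ hq4 (rfl : V t s = _) (k - 2)
    have e2 := dd_erase τ hp4 (hVV.symm ▸ (rfl : V s t = _) : V t s = _) (k - 2)
    rw [hq3] at e1
    rw [hp3] at e2
    have h3 := pair_alg (x := τ t) (y := τ s) (L := ll τ (V t s) (k - 2)) (hτ t) (hτ s)
      (dd_nonneg hτ (V t s) (k - 2)) (dd_nonneg hτ (V t s) (k - 2 - 1))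
    simp only [hH, hG, hg]
    rw [if_pos hne, if_pos hne', hVV, e1, e2, if_pos hne, if_pos hne']
    exact h3
  have hcross := cross_bound G H Ω hpair
  -- the double sum of `H`
  have hHsum : ∑ t ∈ Ω, ∑ s ∈ Ω, H t s
      ≤ (1 / 2) * ∑ t ∈ Ω, (τ t ^ 2 * ee τ (Yt t) (k - 2)) ^ 2 := by
    rw [Finset.mul_sum]
    refine Finset.sum_le_sum fun t ht => ?_
    have hD : Ω.filter (fun s => τ s ≠ τ t) ⊆ Yt t := fun s hs => by
      obtain ⟨h1, h2⟩ := Finset.mem_filter.1 hs
      exact hmemY t ht s h1 h2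
    have hCl : ClosedP τ pt (Ω.filter (fun s => τ s ≠ τ t)) := by
      intro s hs
      obtain ⟨h1, h2⟩ := Finset.mem_filter.1 hs
      obtain ⟨hq1, hq2, hq3⟩ := hC s h1
      exact ⟨Finset.mem_filter.2 ⟨hq1, by rw [hq3]; exact h2⟩, hq2, hq3⟩
    have hb := hbound (Yt t) _ hD hCl
    have e : ∑ s ∈ Ω, H t s = τ t ^ 4 * NN τ pt (Yt t) (Ω.filter (fun s => τ s ≠ τ t)) (k - 2) := by
      unfold NN
      rw [Finset.sum_filter, Finset.mul_sum]
      refine Finset.sum_congr rfl fun s _ => ?_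
      simp only [hH, hV]
      split_ifs
      · ring
      · simp
    rw [e]
    have h4 : (0 : ℝ) ≤ τ t ^ 4 := by positivity
    have h5 := mul_le_mul_of_nonneg_left hb h4
    refine le_trans h5 (le_of_eq ?_)
    ring
  -- assemble
  have hall : (k : ℝ) * ee τ Ω k * ∑ t ∈ Ω, τ t ^ 2 * ee τ (Yt t) (k - 2)
        - ((k : ℝ) - 1) * ∑ t ∈ Ω, (τ t * ee τ (Ω.erase t) (k - 1)) ^ 2
      = ∑ t ∈ Ω, (τ t * ee τ (Ω.erase t) (k - 1)) * (τ t ^ 2 * ee τ (Yt t) (k - 2))
        + ∑ t ∈ Ω, ∑ s ∈ Ω, G t s := by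
    rw [Finset.mul_sum, Finset.mul_sum, ← Finset.sum_sub_distrib, ← Finset.sum_add_distrib]
    exact Finset.sum_congr rfl hone
  rw [hall]
  linarith

/-- The elementary bound for one trial. -/
theorem term_alg {P R f : ℝ} (hR : 0 ≤ R) (hRP : R ≤ P) (hf : 2 * P - R ≤ f) :
    P ^ 2 - P * R + R ^ 2 / 2 ≤ f * P / 2 := by
  have hP : 0 ≤ P := hR.trans hRP
  nlinarith [mul_le_mul_of_nonneg_right hf hP, mul_nonneg hR (sub_nonneg.2 hRP)]

/-- The bound when every trial is partnered, from the bound two levels below. -/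
theorem NN_self {τ : A → ℝ} (hτ : ∀ a, 0 ≤ τ a) {pt : A → A} {Ω : Finset A}
    (hC : ClosedP τ pt Ω) {k : ℤ} (hk : 1 ≤ k)
    (hbound : ∀ Y D : Finset A, D ⊆ Y → ClosedP τ pt D →
      NN τ pt Y D (k - 2) ≤ (1 / 2) * ee τ Y (k - 2) ^ 2) :
    NN τ pt Ω Ω k ≤ (1 / 2) * ee τ Ω k ^ 2 := by
  have hQ := Q_lower hτ hC hbound
  set f := ee τ Ω k with hf
  set P : A → ℝ := fun t => τ t * ee τ (Ω.erase t) (k - 1) with hP
  set R : A → ℝ := fun t => τ t ^ 2 * ee τ ((Ω.erase t).erase (pt t)) (k - 2) with hR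
  have hkpos : (0 : ℝ) < (k : ℝ) := by exact_mod_cast (show (0 : ℤ) < k by omega)
  -- the expansions for one trial
  have hterm : ∀ t ∈ Ω, τ t ^ 2 * dd τ ((Ω.erase t).erase (pt t)) (k - 1)
        = P t ^ 2 - f * R t
      ∧ P t ^ 2 - P t * R t + R t ^ 2 / 2 ≤ f * P t / 2 := by
    intro t ht
    obtain ⟨hp1, hp2, hp3⟩ := hC t ht
    set W := (Ω.erase t).erase (pt t) with hW
    have ef : f = ee τ W k + (τ t + τ (pt t)) * ee τ W (k - 1) + τ t * τ (pt t) * ee τ W (k - 2) :=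
      ee_two τ ht hp1 hp2 hW rfl rfl
    have eE : ee τ (Ω.erase t) (k - 1) = ee τ W (k - 1) + τ (pt t) * ee τ W (k - 2) :=
      ee_one τ (Finset.mem_erase.2 ⟨hp2, hp1⟩) hW (by ring)
    rw [hp3] at ef eE
    have ed : dd τ W (k - 1) = ee τ W (k - 1) ^ 2 - ee τ W k * ee τ W (k - 2) := by
      unfold dd
      rw [(show k - 1 + 1 = k by ring), (show k - 1 - 1 = k - 2 by ring)]
    have h0 : 0 ≤ ee τ W k := ee_nonneg hτ _ _
    have h1 : 0 ≤ ee τ W (k - 1) := ee_nonneg hτ _ _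
    have h2 : 0 ≤ ee τ W (k - 2) := ee_nonneg hτ _ _
    have hx := hτ t
    have ePt : P t = τ t * (ee τ W (k - 1) + τ t * ee τ W (k - 2)) := by
      simp only [hP]
      rw [eE]
    have eRt : R t = τ t ^ 2 * ee τ W (k - 2) := rfl
    refine ⟨?_, ?_⟩
    · rw [ed, ePt, eRt, ef]
      ring
    · refine term_alg (by positivity) ?_ ?_
      · rw [ePt, eRt]
        have : 0 ≤ τ t * ee τ W (k - 1) := by positivity
        nlinarith
      · rw [ePt, eRt, ef]
        nlinarith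
  -- the sum of `P`
  have hsumP : ∑ t ∈ Ω, P t = (k : ℝ) * f := by
    rw [hf, ee_euler]
  have h1 : (k : ℝ) * NN τ pt Ω Ω k = (k : ℝ) * ∑ t ∈ Ω, P t ^ 2 - (k : ℝ) * f * ∑ t ∈ Ω, R t := by
    unfold NN
    rw [Finset.sum_congr rfl fun t ht => (hterm t ht).1, Finset.sum_sub_distrib,
      ← Finset.mul_sum]
    ring
  have h2 : ∑ t ∈ Ω, (P t ^ 2 - P t * R t + R t ^ 2 / 2) ≤ ∑ t ∈ Ω, f * P t / 2 :=
    Finset.sum_le_sum fun t ht => (hterm t ht).2
  have h3 : ∑ t ∈ Ω, f * P t / 2 = f * ((k : ℝ) * f) / 2 := by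
    rw [← hsumP, ← Finset.sum_div, Finset.mul_sum]
  have h4 : ∑ t ∈ Ω, (P t ^ 2 - P t * R t + R t ^ 2 / 2)
      = ∑ t ∈ Ω, P t ^ 2 - ∑ t ∈ Ω, P t * R t + (1 / 2) * ∑ t ∈ Ω, R t ^ 2 := by
    rw [Finset.sum_add_distrib, Finset.sum_sub_distrib, Finset.mul_sum]
    congr 1
    refine Finset.sum_congr rfl fun t _ => ?_
    ring
  have h5 : (k : ℝ) * NN τ pt Ω Ω k ≤ (k : ℝ) * ((1 / 2) * f ^ 2) := by
    rw [h1]
    rw [h3, h4] at h2
    nlinarith
  exact le_of_mul_le_mul_left h5 hkpos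

/-- **The covariance bound**: `∑ -Cov ≤ 1/2`, at every level, with unit trials allowed. -/
theorem NN_le {τ : A → ℝ} (hτ : ∀ a, 0 ≤ τ a) (pt : A → A) (n : ℕ) :
    ∀ Y D : Finset A, D ⊆ Y → ClosedP τ pt D →
      NN τ pt Y D (n : ℤ) ≤ (1 / 2) * ee τ Y (n : ℤ) ^ 2 := by
  induction n using Nat.strong_induction_on with
  | _ n IH =>
    -- the lower levels
    have hlow2 : ∀ Y D : Finset A, D ⊆ Y → ClosedP τ pt D →
        NN τ pt Y D ((n : ℤ) - 2) ≤ (1 / 2) * ee τ Y ((n : ℤ) - 2) ^ 2 := by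
      intro Y D hDY hCD
      rcases Nat.lt_or_ge n 2 with h | h
      · exact NN_low_le τ pt Y D (by omega)
      · have := IH (n - 2) (by omega) Y D hDY hCD
        rwa [Nat.cast_sub h] at this
    have hlow1 : ∀ Y D : Finset A, D ⊆ Y → ClosedP τ pt D →
        NN τ pt Y D ((n : ℤ) - 1) ≤ (1 / 2) * ee τ Y ((n : ℤ) - 1) ^ 2 := by
      intro Y D hDY hCD
      rcases Nat.lt_or_ge n 1 with h | h
      · exact NN_low_le τ pt Y D (by omega)
      · have := IH (n - 1) (by omega) Y D hDY hCD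
        rwa [Nat.cast_sub h] at this
    -- all trials partnered
    have hself : ∀ D : Finset A, ClosedP τ pt D →
        NN τ pt D D (n : ℤ) ≤ (1 / 2) * ee τ D (n : ℤ) ^ 2 := by
      intro D hCD
      rcases Nat.eq_zero_or_pos n with h | h
      · exact NN_low_le τ pt D D (by omega)
      · exact NN_self hτ hCD (by omega) hlow2
    -- add the unit trials
    intro Y D hDY hCD
    have hU : ∀ U : Finset A, Disjoint U D →
        NN τ pt (D ∪ U) D (n : ℤ) ≤ (1 / 2) * ee τ (D ∪ U) (n : ℤ) ^ 2 := by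
      intro U
      induction U using Finset.induction_on with
      | empty =>
        intro _
        rw [Finset.union_empty]
        exact hself D hCD
      | insert z U hz ih =>
        intro hdisj
        have hzD : z ∉ D := by
          intro h
          exact Finset.disjoint_left.1 hdisj (Finset.mem_insert_self z U) h
        have hdisj' : Disjoint U D := Finset.disjoint_of_subset_left (Finset.subset_insert z U) hdisj
        have hset : D ∪ insert z U = insert z (D ∪ U) := by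
          rw [Finset.union_insert]
        rw [hset]
        have hz' : z ∉ D ∪ U := by
          rw [Finset.mem_union]
          tauto
        exact NN_insert hτ pt hz' Finset.subset_union_left hCD (ih hdisj')
          (hlow1 _ D Finset.subset_union_left hCD)
    have := hU (Y \ D) Finset.sdiff_disjoint
    rwa [Finset.union_sdiff_of_subset hDY] at this

/-- **Theorem B'**: at every level `c ≥ 1`, `c ∑ r ≥ (c - 1) ∑ π ^ 2 + ∑ π r - (1/2) ∑ r ^ 2`, in
numerators. -/
theorem thmB_core {τ : A → ℝ} (hτ : ∀ a, 0 ≤ τ a) {pt : A → A} {Ω : Finset A}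
    (hC : ClosedP τ pt Ω) (k : ℤ) :
    ∑ t ∈ Ω, (τ t * ee τ (Ω.erase t) (k - 1)) * (τ t ^ 2 * ee τ ((Ω.erase t).erase (pt t)) (k - 2))
        - (1 / 2) * ∑ t ∈ Ω, (τ t ^ 2 * ee τ ((Ω.erase t).erase (pt t)) (k - 2)) ^ 2
      ≤ (k : ℝ) * ee τ Ω k * ∑ t ∈ Ω, τ t ^ 2 * ee τ ((Ω.erase t).erase (pt t)) (k - 2)
        - ((k : ℝ) - 1) * ∑ t ∈ Ω, (τ t * ee τ (Ω.erase t) (k - 1)) ^ 2 := by
  refine Q_lower hτ hC ?_
  intro Y D hDY hCD
  rcases lt_or_ge (k - 2) 0 with h | h
  · exact NN_low_le τ pt Y D h.le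
  · obtain ⟨n, hn⟩ := Int.eq_ofNat_of_zero_le h
    rw [hn]
    exact NN_le hτ pt n Y D hDY hCD

/-- **Theorem B'**, half form: `c ∑ r ≥ (c - 1) ∑ π ^ 2 + (1/2) ∑ π r`, in numerators. -/
theorem thmB_half {τ : A → ℝ} (hτ : ∀ a, 0 ≤ τ a) {pt : A → A} {Ω : Finset A}
    (hC : ClosedP τ pt Ω) (k : ℤ) :
    (1 / 2) * ∑ t ∈ Ω, (τ t * ee τ (Ω.erase t) (k - 1))
          * (τ t ^ 2 * ee τ ((Ω.erase t).erase (pt t)) (k - 2))
      ≤ (k : ℝ) * ee τ Ω k * ∑ t ∈ Ω, τ t ^ 2 * ee τ ((Ω.erase t).erase (pt t)) (k - 2)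
        - ((k : ℝ) - 1) * ∑ t ∈ Ω, (τ t * ee τ (Ω.erase t) (k - 1)) ^ 2 := by
  refine le_trans ?_ (thmB_core hτ hC k)
  have h : ∑ t ∈ Ω, (τ t ^ 2 * ee τ ((Ω.erase t).erase (pt t)) (k - 2)) ^ 2
      ≤ ∑ t ∈ Ω, (τ t * ee τ (Ω.erase t) (k - 1))
          * (τ t ^ 2 * ee τ ((Ω.erase t).erase (pt t)) (k - 2)) := by
    refine Finset.sum_le_sum fun t ht => ?_
    obtain ⟨hp1, hp2, hp3⟩ := hC t ht
    set W := (Ω.erase t).erase (pt t) with hW
    have eE : ee τ (Ω.erase t) (k - 1) = ee τ W (k - 1) + τ (pt t) * ee τ W (k - 2) :=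
      ee_one τ (Finset.mem_erase.2 ⟨hp2, hp1⟩) hW (by ring)
    rw [hp3] at eE
    have h1 : 0 ≤ ee τ W (k - 1) := ee_nonneg hτ _ _
    have h2 : 0 ≤ ee τ W (k - 2) := ee_nonneg hτ _ _
    have hx := hτ t
    rw [eE]
    have h3 : 0 ≤ τ t ^ 2 * ee τ W (k - 2) := by positivity
    have h4 : 0 ≤ τ t * ee τ W (k - 1) := by positivity
    nlinarith [mul_nonneg h3 h4]
  linarith

end Vale.Agent.Lib.P328.PBinf
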