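import Vale.Agent.Lib.P328.PBinf.ThmB
import Vale.Agent.Lib.P328.PBinf.C3
import Vale.Agent.Lib.P328.PBinf.C2

/-!
# P328, PB^inf: the covariance bound in the language of laws

`law p S` against the elementary symmetric functions of the odds, and Theorem B' at the level of laws:
`c g ∑ p ^ 2 ĝ ≥ (c - 1) ∑ p ^ 2 a ^ 2 + (1/2) ∑ p ^ 3 a ĝ`, where `g` is the law of all the trials,
`a` the law without the trial `t`, `ĝ` the law without `t` and `pt t`.
-/

namespace Vale.Agent.Lib.P328.PBinf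

open Finset Polynomial

set_option linter.unusedSectionVars false

variable {A : Type*} [DecidableEq A]

theorem odds_nonneg' {p : A → ℝ} (h0 : ∀ a, 0 ≤ p a) (h1 : ∀ a, p a < 1) (a : A) : 0 ≤ odds p a :=
  div_nonneg (h0 a) (by linarith [h1 a])

/-- The coefficients of the law are the elementary symmetric functions of the odds. -/
theorem law_coeff_ee (p : A → ℝ) (h1 : ∀ a, p a < 1) (S : Finset A) :
    ∀ k : ℕ, (law p S).coeff k = (∏ a ∈ S, (1 - p a)) * ee (odds p) S (k : ℤ) := by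
  induction S using Finset.induction_on with
  | empty =>
    intro k
    rw [law_empty, ee_empty]
    simp only [Finset.prod_empty, one_mul, coeff_one]
    by_cases h : k = 0
    · simp [h]
    · simp [h]
  | insert a S ha ih =>
    intro k
    have hq : (1 - p a) ≠ 0 := by linarith [h1 a]
    rw [law_insert p ha, Finset.prod_insert ha, ee_insert _ ha]
    rcases k with _ | k
    · rw [coeff_uu_mul_zero, ih 0]
      have : ee (odds p) S (((0 : ℕ) : ℤ) - 1) = 0 := ee_neg _ _ (by norm_num)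
      rw [this]
      ring
    · rw [coeff_uu_mul_succ, ih (k + 1), ih k]
      have e : (((k + 1 : ℕ) : ℤ) - 1) = (k : ℤ) := by
        push_cast
        ring
      rw [e]
      unfold odds
      field_simp

/-- **Theorem B'** in the language of laws. -/
theorem thmB_law (p : A → ℝ) [Fintype A] (h0 : ∀ a, 0 ≤ p a) (h1 : ∀ a, p a < 1) (pt : A → A)
    (hne : ∀ t, pt t ≠ t) (hp : ∀ t, p (pt t) = p t) {c : ℕ} (hc : 2 ≤ c) :
    (1 / 2) * ∑ t, p t ^ 3 * (AA p t).coeff (c - 1) * (law p (Yt pt t)).coeff (c - 2)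
        + ((c : ℝ) - 1) * ∑ t, p t ^ 2 * (AA p t).coeff (c - 1) ^ 2
      ≤ (c : ℝ) * (GG p).coeff c * ∑ t, p t ^ 2 * (law p (Yt pt t)).coeff (c - 2) := by
  set τ := odds p with hτdef
  have hτ : ∀ a, 0 ≤ τ a := odds_nonneg' h0 h1
  have hq : ∀ a, 0 < 1 - p a := fun a => by linarith [h1 a]
  have hC : ClosedP τ pt (univ : Finset A) := fun s _ =>
    ⟨mem_univ _, hne s, by rw [hτdef]; unfold odds; rw [hp]⟩
  have hB := thmB_half hτ hC (c : ℤ)
  set Q := ∏ a, (1 - p a) with hQ
  have hQpos : 0 < Q := Finset.prod_pos fun a _ => hq a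
  -- the indices
  have i1 : ((c - 1 : ℕ) : ℤ) = (c : ℤ) - 1 := by
    rw [Nat.cast_sub (by omega)]
    rfl
  have i2 : ((c - 2 : ℕ) : ℤ) = (c : ℤ) - 2 := by
    rw [Nat.cast_sub hc]
    rfl
  -- the translations
  have eG : (GG p).coeff c = Q * ee τ univ (c : ℤ) := by
    rw [GG_eq_law, law_coeff_ee p h1]
  have eP : ∀ t, p t * (AA p t).coeff (c - 1) = Q * (τ t * ee τ (univ.erase t) ((c : ℤ) - 1)) := by
    intro t
    rw [AA_eq_law, law_coeff_ee p h1, i1, hQ, ← Finset.mul_prod_erase univ _ (mem_univ t), hτdef]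
    unfold odds
    have := (hq t).ne'
    field_simp
  have eR : ∀ t, p t ^ 2 * (law p (Yt pt t)).coeff (c - 2)
      = Q * (τ t ^ 2 * ee τ ((univ.erase t).erase (pt t)) ((c : ℤ) - 2)) := by
    intro t
    rw [law_coeff_ee p h1, i2, hQ, ← prod_erase_pair p t (pt t) (hne t) (hp t), hτdef]
    unfold Yt odds
    have := (hq t).ne'
    field_simp
  have e1 : ∑ t, p t ^ 3 * (AA p t).coeff (c - 1) * (law p (Yt pt t)).coeff (c - 2)
      = Q ^ 2 * ∑ t, (τ t * ee τ (univ.erase t) ((c : ℤ) - 1))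
          * (τ t ^ 2 * ee τ ((univ.erase t).erase (pt t)) ((c : ℤ) - 2)) := by
    rw [Finset.mul_sum]
    refine Finset.sum_congr rfl fun t _ => ?_
    calc p t ^ 3 * (AA p t).coeff (c - 1) * (law p (Yt pt t)).coeff (c - 2)
        = (p t * (AA p t).coeff (c - 1)) * (p t ^ 2 * (law p (Yt pt t)).coeff (c - 2)) := by ring
      _ = _ := by
        rw [eP, eR]
        ring
  have e2 : ∑ t, p t ^ 2 * (AA p t).coeff (c - 1) ^ 2
      = Q ^ 2 * ∑ t, (τ t * ee τ (univ.erase t) ((c : ℤ) - 1)) ^ 2 := by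
    rw [Finset.mul_sum]
    refine Finset.sum_congr rfl fun t _ => ?_
    calc p t ^ 2 * (AA p t).coeff (c - 1) ^ 2 = (p t * (AA p t).coeff (c - 1)) ^ 2 := by ring
      _ = _ := by
        rw [eP]
        ring
  have e3 : ∑ t, p t ^ 2 * (law p (Yt pt t)).coeff (c - 2)
      = Q * ∑ t, τ t ^ 2 * ee τ ((univ.erase t).erase (pt t)) ((c : ℤ) - 2) := by
    rw [Finset.mul_sum]
    exact Finset.sum_congr rfl fun t _ => eR t
  rw [e1, e2, e3, eG]
  have h2 := mul_le_mul_of_nonneg_left hB (sq_nonneg Q)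
  have hcast : ((c : ℤ) : ℝ) = (c : ℝ) := by push_cast; rfl
  rw [hcast] at h2
  nlinarith

end Vale.Agent.Lib.P328.PBinf
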